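import Vale.Agent.P223.X.DefM

/-! Bilipschitz metrics. -/

namespace Vale.Agent.P223.J

/-- The metrics `g₁` and `g` are bilipschitz: `g₁ ≤ L g` and `g ≤ L g₁`. -/
def Bil {n : ℕ} {M : Type} [TopologicalSpace M] (c : M → Ch n M) (g₁ g : M → Mtx n) (L : ℝ) :
    Prop :=
  ∀ a, ∀ x ∈ (c a).target, ∀ v : E n,
    bil (g₁ a x) v v ≤ L * bil (g a x) v v ∧ bil (g a x) v v ≤ L * bil (g₁ a x) v v

end Vale.Agent.P223.J
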