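import Vale.Agent.P223.H566.Def
import Mathlib.LinearAlgebra.Trace
import Mathlib.GroupTheory.Perm.Fin
import Mathlib.LinearAlgebra.Multilinear.Basic
import Mathlib.LinearAlgebra.Matrix.Determinant.Basic

/-! Clifford words: signs and traces. -/

namespace Vale.Agent.P223.H441

open Vale.Agent.P223.H566

section anti
variable {A : Type} [Ring A]

theorem prod_swap_adj : ∀ (m : ℕ) (y : Fin (m + 1) → A),
    (∀ i j, i ≠ j → y i * y j = -(y j * y i)) → ∀ i : Fin m,
    (List.ofFn (y ∘ Equiv.swap i.castSucc i.succ)).prod = -(List.ofFn y).prod := by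
  intro m
  induction m with
  | zero => intro y _ i; exact i.elim0
  | succ m ih =>
    intro y hy i
    refine Fin.cases ?_ (fun j => ?_) i
    · rw [List.ofFn_succ, List.ofFn_succ, List.ofFn_succ (f := y), List.ofFn_succ (f := fun i => y i.succ)]
      simp only [List.prod_cons, Function.comp_apply, Fin.castSucc_zero, Fin.succ_zero_eq_one,
        Equiv.swap_apply_left]
      have h1 : ∀ j : Fin m, Equiv.swap (0 : Fin (m + 2)) 1 j.succ.succ = j.succ.succ := by
        intro j
        refine Equiv.swap_apply_of_ne_of_ne (Fin.succ_ne_zero _) ?_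
        rw [← Fin.succ_zero_eq_one]
        exact fun h => Fin.succ_ne_zero _ (Fin.succ_injective _ h)
      simp only [h1, Equiv.swap_apply_right]
      rw [← mul_assoc, ← mul_assoc, hy 1 0 (by simp), neg_mul]
    · rw [List.ofFn_succ, List.ofFn_succ (f := y)]
      simp only [List.prod_cons, Function.comp_apply]
      have h0 : Equiv.swap j.succ.castSucc j.succ.succ 0 = (0 : Fin (m + 2)) := by
        refine Equiv.swap_apply_of_ne_of_ne ?_ (Fin.succ_ne_zero _).symm
        rw [← Fin.succ_castSucc]
        exact (Fin.succ_ne_zero _).symm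
      have h1 : (fun i : Fin (m + 1) => y (Equiv.swap j.succ.castSucc j.succ.succ i.succ)) =
          (fun i => y i.succ) ∘ Equiv.swap j.castSucc j.succ := by
        funext i
        simp only [Function.comp_apply]
        congr 1
        rw [← Fin.succ_castSucc]
        exact (Fin.succ_injective _).swap_apply _ _ _
      rw [h0, h1, ih (fun i => y i.succ)
        (fun i k h => hy _ _ fun h' => h (Fin.succ_injective _ h')) j, mul_neg]

theorem prod_perm {n : ℕ} (σ : Equiv.Perm (Fin n)) : ∀ (y : Fin n → A),
    (∀ i j, i ≠ j → y i * y j = -(y j * y i)) →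
    (List.ofFn (y ∘ σ)).prod = (Equiv.Perm.sign σ : ℤ) • (List.ofFn y).prod := by
  cases n with
  | zero => intro y _; rw [Subsingleton.elim σ 1]; simp
  | succ n =>
    have h : σ ∈ Submonoid.closure
        (Set.range fun i : Fin n ↦ Equiv.swap i.castSucc i.succ) := by
      rw [Equiv.Perm.mclosure_swap_castSucc_succ]; trivial
    induction h using Submonoid.closure_induction with
    | mem σ h =>
      obtain ⟨i, rfl⟩ := h
      intro y hy
      rw [prod_swap_adj n y hy i, Equiv.Perm.sign_swap (Fin.castSucc_lt_succ).ne]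
      simp
    | one => intro y _; simp
    | mul σ τ _ _ h1 h2 =>
      intro y hy
      have : y ∘ (σ * τ : Equiv.Perm (Fin (n + 1))) = (y ∘ σ) ∘ τ := rfl
      rw [this, h2 (y ∘ σ) fun i j h => hy _ _ fun h' => h (σ.injective h'), h1 y hy, smul_smul,
        map_mul, mul_comm]
      simp

end anti

section words
variable {n : ℕ} {V : Type} [NormedAddCommGroup V] [InnerProductSpace ℂ V] (K : Cliff n V)

theorem sq (a : Fin n) : K.c a * K.c a = 1 := by
  have h := K.rel a a
  rw [if_pos rfl] at h
  have h2 : (2 : ℂ) • (K.c a * K.c a) = (2 : ℂ) • (1 : V →L[ℂ] V) := by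
    rw [two_smul, h]
    rw [show (2 : V →L[ℂ] V) = 1 + 1 from one_add_one_eq_two.symm, two_smul]
  exact smul_right_injective _ (two_ne_zero : (2 : ℂ) ≠ 0) h2

theorem anti {a b : Fin n} (h : a ≠ b) : K.c a * K.c b = -(K.c b * K.c a) := by
  have h1 := K.rel a b
  rw [if_neg h] at h1
  exact eq_neg_of_add_eq_zero_left h1

/-- word in the generators -/
noncomputable def wd (L : List (Fin n)) : V →L[ℂ] V := (L.map K.c).prod

@[simp] theorem wd_nil : wd K [] = 1 := rfl

@[simp] theorem wd_cons (a : Fin n) (L : List (Fin n)) : wd K (a :: L) = K.c a * wd K L := rfl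

theorem wd_append (L L' : List (Fin n)) : wd K (L ++ L') = wd K L * wd K L' := by
  unfold wd; rw [List.map_append, List.prod_append]

theorem c_wd (a : Fin n) (L : List (Fin n)) :
    K.c a * wd K L = (-1 : ℤ) ^ (L.length + L.count a) • (wd K L * K.c a) := by
  induction L with
  | nil => simp
  | cons b L ih =>
    rw [wd_cons]
    by_cases h : a = b
    · subst h
      have e : L.length + 1 + (List.count a L + 1) = (L.length + List.count a L) + 2 := by ring
      rw [List.length_cons, List.count_cons_self, e, pow_add, neg_one_sq, mul_one]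
      conv_lhs => rw [ih]
      rw [mul_smul_comm, mul_assoc]
    · rw [← mul_assoc, anti K h, neg_mul, mul_assoc, ih, List.length_cons,
        List.count_cons_of_ne (Ne.symm h)]
      have e : L.length + 1 + List.count a L = (L.length + List.count a L) + 1 := by ring
      rw [e, pow_succ]
      simp only [mul_smul_comm, mul_assoc, mul_neg, mul_one, neg_smul, Int.reduceNeg]

theorem c_wd_c (a : Fin n) (L : List (Fin n)) :
    K.c a * wd K L * K.c a = (-1 : ℤ) ^ (L.length + L.count a) • wd K L := by
  rw [c_wd, smul_mul_assoc, mul_assoc, sq, mul_one]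

theorem wd_mem {a : Fin n} {L : List (Fin n)} (h : a ∈ L) :
    ∃ s : ℤ, (s = 1 ∨ s = -1) ∧ wd K L = s • (K.c a * wd K (L.erase a)) := by
  induction L with
  | nil => simp at h
  | cons b L ih =>
    by_cases hb : b = a
    · subst hb
      exact ⟨1, Or.inl rfl, by simp⟩
    · have h1 : a ∈ L := by
        rcases List.mem_cons.1 h with h | h
        · exact absurd h.symm hb
        · exact h
      obtain ⟨s, hs, h2⟩ := ih h1
      refine ⟨-s, by rcases hs with h | h <;> simp [h], ?_⟩
      rw [wd_cons, h2, List.erase_cons_tail (by simpa using hb), wd_cons, mul_smul_comm,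
        ← mul_assoc, anti K hb, neg_mul, ← mul_assoc, smul_neg, neg_smul]

theorem wd_even : ∀ (m : ℕ) (L : List (Fin n)), L.length = m → (∀ a, Even (L.count a)) →
    ∃ s : ℤ, (s = 1 ∨ s = -1) ∧ wd K L = s • 1 := by
  intro m
  induction m using Nat.strong_induction_on with
  | _ m ih =>
    intro L hL h
    cases L with
    | nil => exact ⟨1, Or.inl rfl, by simp⟩
    | cons a L =>
      have h1 : a ∈ L := by
        by_contra h2
        have := h a
        rw [List.count_cons_self, List.count_eq_zero_of_not_mem h2] at this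
        simp at this
      obtain ⟨s, hs, h2⟩ := wd_mem K h1
      have hl : (L.erase a).length < m := by
        rw [← hL, List.length_erase_of_mem h1, List.length_cons]; omega
      obtain ⟨s', hs', h3⟩ := ih _ hl (L.erase a) rfl fun b => by
        by_cases hb : b = a
        · subst hb
          have := h b
          rw [List.count_cons_self] at this
          rw [List.count_erase_self]
          have h4 : 0 < L.count b := List.count_pos_iff.2 h1
          rw [Nat.even_sub (by omega)]
          rw [Nat.even_add_one] at this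
          simp [this]
        · have := h b
          rw [List.count_cons_of_ne (Ne.symm hb)] at this
          rwa [List.count_erase_of_ne hb]
      refine ⟨s * s', by rcases hs with h | h <;> rcases hs' with h' | h' <;> simp [h, h'], ?_⟩
      rw [wd_cons, h2, h3, mul_smul_comm, ← mul_assoc, sq, one_mul, smul_smul]

/-- the trace of an operator on `V` -/
noncomputable def tr (A : V →L[ℂ] V) : ℂ := LinearMap.trace ℂ V (A : V →ₗ[ℂ] V)

theorem tr_mul_comm (A B : V →L[ℂ] V) : tr (A * B) = tr (B * A) := by
  unfold tr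
  exact LinearMap.trace_mul_comm ℂ (A : V →ₗ[ℂ] V) (B : V →ₗ[ℂ] V)

theorem tr_smul (z : ℂ) (A : V →L[ℂ] V) : tr (z • A) = z * tr A := by
  unfold tr
  rw [ContinuousLinearMap.toLinearMap_smul, map_smul, smul_eq_mul]

theorem tr_zsmul (z : ℤ) (A : V →L[ℂ] V) : tr (z • A) = z * tr A := by
  rw [← tr_smul, Int.cast_smul_eq_zsmul]

theorem tr_add (A B : V →L[ℂ] V) : tr (A + B) = tr A + tr B := by
  unfold tr
  rw [ContinuousLinearMap.toLinearMap_add, map_add]

theorem tr_sum {ι : Type} (s : Finset ι) (A : ι → V →L[ℂ] V) :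
    tr (∑ i ∈ s, A i) = ∑ i ∈ s, tr (A i) := by
  classical
  induction s using Finset.induction_on with
  | empty => simp [tr]
  | insert a s ha ih => rw [Finset.sum_insert ha, Finset.sum_insert ha, tr_add, ih]

theorem tr_wd (L : List (Fin n)) (h : Even L.length) (a : Fin n) (ha : Odd (L.count a)) :
    tr (wd K L) = 0 := by
  have h1 := congrArg tr (c_wd_c K a L)
  rw [tr_mul_comm, ← mul_assoc, sq, one_mul, (h.add_odd ha).neg_one_pow, tr_zsmul] at h1
  have h2 : (2 : ℂ) * tr (wd K L) = 0 := by
    rw [two_mul]
    nth_rewrite 1 [h1]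
    push_cast
    ring
  exact (mul_eq_zero.1 h2).resolve_left two_ne_zero

theorem vol_eq : K.vol = wd K (List.finRange n).reverse := by
  unfold Cliff.vol wd
  rw [List.ofFn_eq_map, List.map_reverse]

theorem wd_rev_mul (L : List (Fin n)) : wd K L.reverse * wd K L = 1 := by
  induction L with
  | nil => simp
  | cons a L ih =>
    rw [List.reverse_cons, wd_append, wd_cons, wd_cons, wd_nil, mul_one, mul_assoc,
      ← mul_assoc (K.c a), sq, one_mul, ih]

theorem wd_ofFn (r : Fin n → Fin n) : wd K (List.ofFn r) = (List.ofFn (K.c ∘ r)).prod := by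
  unfold wd; rw [List.map_ofFn]

theorem tr_vol_wd [FiniteDimensional ℂ V] (r : Fin n → Fin n) :
    tr (K.vol * wd K (List.ofFn r)) =
      if h : Function.Bijective r then ((Equiv.Perm.sign (Equiv.ofBijective r h) : ℤ) : ℂ) *
        Module.finrank ℂ V else 0 := by
  split_ifs with h
  · have h1 := prod_perm (Equiv.ofBijective r h) K.c fun i j hij => anti K hij
    have h2 : (K.c ∘ (Equiv.ofBijective r h)) = K.c ∘ r := rfl
    rw [wd_ofFn, ← h2, h1, mul_smul_comm, vol_eq]
    have h3 : (List.ofFn K.c).prod = wd K (List.finRange n) := by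
      unfold wd; rw [List.ofFn_eq_map]
    rw [h3, wd_rev_mul, tr_zsmul]
    congr 1
    unfold tr
    exact LinearMap.trace_one ℂ V
  · have h1 : ¬ Function.Injective r := fun h2 => h (Finite.injective_iff_bijective.1 h2)
    have h2 : ¬ Function.Surjective r := fun h2 => h (Finite.surjective_iff_bijective.1 h2)
    rw [Function.Surjective] at h2
    push Not at h2
    obtain ⟨a, ha⟩ := h2
    rw [vol_eq, ← wd_append]
    refine tr_wd K _ ?_ a ?_
    · rw [List.length_append, List.length_reverse, List.length_finRange, List.length_ofFn]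
      exact ⟨n, rfl⟩
    · rw [List.count_append, List.count_reverse]
      have h3 : (List.finRange n).count a = 1 :=
        List.count_eq_one_of_mem (List.nodup_finRange n) (List.mem_finRange a)
      have h4 : (List.ofFn r).count a = 0 := by
        refine List.count_eq_zero_of_not_mem fun h5 => ?_
        rw [List.mem_ofFn] at h5
        obtain ⟨i, hi⟩ := h5
        exact ha i hi
      rw [h3, h4]
      exact odd_one

theorem tr_vol_prod [FiniteDimensional ℂ V] (v : Matrix (Fin n) (Fin n) ℝ) :
    tr (K.vol * (List.ofFn fun i => ∑ k, rs (v i k) (K.c k)).prod) =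
      (v.det : ℂ) * Module.finrank ℂ V := by
  classical
  have h1 : (List.ofFn fun i => ∑ k, rs (v i k) (K.c k)).prod =
      ∑ r : Fin n → Fin n, (∏ i, (v i (r i) : ℂ)) • wd K (List.ofFn r) := by
    have h2 := (MultilinearMap.mkPiAlgebraFin ℂ n (V →L[ℂ] V)).map_sum
      (fun i (k : Fin n) => rs (v i k) (K.c k))
    simp only [MultilinearMap.mkPiAlgebraFin_apply] at h2
    rw [h2]
    refine Finset.sum_congr rfl fun r _ => ?_
    have h3 := (MultilinearMap.mkPiAlgebraFin ℂ n (V →L[ℂ] V)).map_smul_univ
      (fun i => (v i (r i) : ℂ)) (fun i => K.c (r i))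
    simp only [MultilinearMap.mkPiAlgebraFin_apply] at h3
    rw [wd_ofFn]
    exact h3
  rw [h1, Finset.mul_sum, tr_sum]
  simp only [mul_smul_comm, tr_smul, tr_vol_wd]
  have h4 : ∀ r : Fin n → Fin n, r ∉ (Finset.univ.image fun σ : Equiv.Perm (Fin n) => (σ : Fin n → Fin n)) →
      ¬ Function.Bijective r := by
    intro r hr hb
    exact hr (Finset.mem_image.2 ⟨Equiv.ofBijective r hb, Finset.mem_univ _, rfl⟩)
  rw [← Finset.sum_subset (Finset.subset_univ
    (Finset.univ.image fun σ : Equiv.Perm (Fin n) => (σ : Fin n → Fin n)))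
    (fun r _ hr => by rw [dif_neg (h4 r hr), mul_zero])]
  rw [Finset.sum_image fun σ _ τ _ h => Equiv.coe_fn_injective h]
  rw [Matrix.det_apply', Complex.ofReal_sum, Finset.sum_mul]
  rw [← Equiv.sum_comp (Equiv.inv (Equiv.Perm (Fin n)))]
  refine Finset.sum_congr rfl fun σ _ => ?_
  rw [dif_pos (Equiv.bijective _)]
  have h5 : Equiv.ofBijective _ (Equiv.bijective ((Equiv.inv (Equiv.Perm (Fin n))) σ)) = σ⁻¹ :=
    Equiv.ext fun i => rfl
  rw [h5, Equiv.Perm.sign_inv]
  have h6 : ∏ i, (v i ((Equiv.inv (Equiv.Perm (Fin n)) σ : Equiv.Perm (Fin n)) i) : ℂ) =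
      ∏ i, (v (σ i) i : ℂ) := by
    rw [← Equiv.prod_comp σ]
    refine Finset.prod_congr rfl fun i _ => ?_
    simp
  rw [h6]
  push_cast
  ring

end words

end Vale.Agent.P223.H441
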