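import Vale.Agent.P223.H441.Par
import Vale.Agent.P223.H765.NC

/-! Manifolds which are diffeomorphic to `ℝ^n` are spin. -/

namespace Vale.Agent.P223.H441.Par

open scoped ContDiff Topology Matrix
open Matrix

variable {n : ℕ}

section cov
variable {M X : Type} [TopologicalSpace M] [TopologicalSpace X] {c : M → J.Ch n M} {f : X → M}
  {c' : X → J.Ch n X} {g : M → J.Mtx n}

theorem cm_cov (hf : J.CovAtl c f c') {a b p : X} (ha : p ∈ (c' a).source)
    (hb : p ∈ (c' b).source) :
    J.cm (c' a) (c' b) =ᶠ[𝓝 (c' a p)] J.cm (c (f a)) (c (f b)) := by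
  have h1 : ∀ᶠ x in 𝓝 (c' a p), x ∈ (c' a).target := (c' a).open_target.mem_nhds
    ((c' a).map_source ha)
  have h2 : ∀ᶠ x in 𝓝 (c' a p), (c' a).symm x ∈ (c' b).source := by
    have := (c' a).tendsto_symm ha
    exact this.eventually ((c' b).open_source.mem_nhds hb)
  filter_upwards [h1, h2] with x hx hx'
  obtain ⟨h3, h4⟩ := hf.eq a _ ((c' a).map_target hx)
  obtain ⟨h5, h6⟩ := hf.eq b _ hx'
  rw [(c' a).right_inv hx] at h4
  unfold J.cm
  rw [h6]
  conv_rhs => rw [h4, (c (f a)).left_inv h3]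

theorem atl_of_cov (hc : J.Atl c) (hf : J.CovAtl c f c') : J.Atl c' := by
  intro a
  refine ⟨hf.mem a, fun b p ha hb => ?_⟩
  obtain ⟨h3, h4⟩ := hf.eq a p ha
  obtain ⟨h5, h6⟩ := hf.eq b p hb
  obtain ⟨h7, h8⟩ := (hc (f a)).2 (f b) (f p) h3 h5
  have h9 := cm_cov hf ha hb
  rw [← h4] at h7 h8
  exact ⟨h7.congr_of_eventuallyEq h9, by rwa [h9.fderiv_eq]⟩

theorem met_of_cov (hg : J.Met c g) (hf : J.CovAtl c f c') : J.Met c' fun q => g (f q) := by
  intro a p ha
  obtain ⟨h3, h4⟩ := hf.eq a p ha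
  obtain ⟨h5, h6, h7⟩ := hg (f a) (f p) h3
  rw [← h4] at h5 h6 h7
  refine ⟨h5, h6, fun b hb v w => ?_⟩
  obtain ⟨h8, h9⟩ := hf.eq b p hb
  rw [h7 (f b) h8 v w, (cm_cov hf ha hb).fderiv_eq, h9]

end cov

section ld
variable {X : Type} [TopologicalSpace X] {c : X → J.Ch n X} {g : X → J.Mtx n} {φ : X → J.E n}

/-- `φ` is a local diffeomorphism. -/
structure LD (c : X → J.Ch n X) (φ : X → J.E n) : Prop where
  smooth : ∀ a, ∀ p ∈ (c a).source, ContDiffAt ℝ ∞ (fun x => φ ((c a).symm x)) (c a p)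
  ne : ∀ a, ∀ p ∈ (c a).source, (jm (fun x => φ ((c a).symm x)) (c a p)).det ≠ 0

theorem symm_ev {a b p : X} (ha : p ∈ (c a).source) (hb : p ∈ (c b).source) :
    (c a).symm =ᶠ[𝓝 (c a p)] fun x => (c b).symm (J.cm (c a) (c b) x) := by
  have h2 : ∀ᶠ x in 𝓝 (c a p), (c a).symm x ∈ (c b).source := by
    have := (c a).tendsto_symm ha
    exact this.eventually ((c b).open_source.mem_nhds hb)
  filter_upwards [h2] with x hx
  unfold J.cm
  rw [(c b).left_inv hx]

theorem cm_apply {a b p : X} (ha : p ∈ (c a).source) : J.cm (c a) (c b) (c a p) = c b p := by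
  unfold J.cm
  rw [(c a).left_inv ha]

theorem LD.tr (h : LD c φ) (hc : J.Atl c) {a b p : X} (ha : p ∈ (c a).source)
    (hb : p ∈ (c b).source) : jm (fun x => φ ((c a).symm x)) (c a p) =
      jm (fun x => φ ((c b).symm x)) (c b p) * jm (J.cm (c a) (c b)) (c a p) := by
  have h1 : (fun x => φ ((c a).symm x)) =ᶠ[𝓝 (c a p)]
      fun x => (fun y => φ ((c b).symm y)) (J.cm (c a) (c b) x) := by
    filter_upwards [symm_ev ha hb] with x hx
    simp only [hx]
  rw [jm_congr h1, jm_comp (σ := fun y => φ ((c b).symm y)), cm_apply ha]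
  · rw [cm_apply ha]
    exact (h.smooth b p hb).differentiableAt (by simp)
  · exact ((hc a).2 b p ha hb).1.differentiableAt (by simp)

theorem jm_cm_pos (hc : J.Atl c) {a b p : X} (ha : p ∈ (c a).source)
    (hb : p ∈ (c b).source) : 0 < (jm (J.cm (c a) (c b)) (c a p)).det := by
  rw [det_jm]
  exact ((hc a).2 b p ha hb).2

theorem LD.sign_ev (h : LD c φ) {r : ℝ} {a p : X} (ha : p ∈ (c a).source)
    (h0 : 0 < r * (jm (fun x => φ ((c a).symm x)) (c a p)).det) :
    ∀ᶠ q in 𝓝 p, q ∈ (c a).source ∧ 0 < r * (jm (fun x => φ ((c a).symm x)) (c a q)).det := by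
  have h1 : ContinuousAt (fun x => r * (jm (fun x => φ ((c a).symm x)) x).det) (c a p) :=
    continuousAt_const.mul (cd_det fun i j => jm_smooth (h.smooth a p ha) i j).continuousAt
  have h2 : ContinuousAt (fun q => r * (jm (fun x => φ ((c a).symm x)) (c a q)).det) p :=
    ContinuousAt.comp' (g := fun x => r * (jm (fun x => φ ((c a).symm x)) x).det) h1
      ((c a).continuousAt ha)
  filter_upwards [(c a).open_source.mem_nhds ha, h2.eventually (lt_mem_nhds h0)] with q h3 h4
  exact ⟨h3, h4⟩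

theorem LD.sign [ConnectedSpace X] (h : LD c φ) (hc : J.Atl c) :
    (∀ a, ∀ p ∈ (c a).source, 0 < (jm (fun x => φ ((c a).symm x)) (c a p)).det) ∨
      ∀ a, ∀ p ∈ (c a).source, (jm (fun x => φ ((c a).symm x)) (c a p)).det < 0 := by
  have hop : ∀ r : ℝ, IsOpen {p : X | 0 < r * (jm (fun x => φ ((c p).symm x)) (c p p)).det} := by
    intro r
    rw [isOpen_iff_mem_nhds]
    intro p hp
    filter_upwards [h.sign_ev (hc p).1 hp] with q hq
    have h1 := h.tr hc (hc q).1 hq.1
    have h2 : (jm (fun x => φ ((c q).symm x)) (c q q)).det =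
        (jm (fun x => φ ((c p).symm x)) (c p q)).det * (jm (J.cm (c q) (c p)) (c q q)).det := by
      rw [h1, Matrix.det_mul]
    change 0 < r * (jm (fun x => φ ((c q).symm x)) (c q q)).det
    rw [h2, ← mul_assoc]
    exact mul_pos hq.2 (jm_cm_pos hc (hc q).1 hq.1)
  have hcl : IsClopen {p : X | 0 < (1 : ℝ) * (jm (fun x => φ ((c p).symm x)) (c p p)).det} := by
    refine ⟨⟨?_⟩, hop 1⟩
    convert hop (-1) using 1
    ext p
    simp only [Set.mem_compl_iff, Set.mem_ofPred_eq, one_mul, neg_mul, not_lt, Left.neg_pos_iff]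
    exact ⟨fun h1 => lt_of_le_of_ne h1 (h.ne p p (hc p).1), fun h1 => h1.le⟩
  rcases isClopen_iff.1 hcl with h1 | h1
  · right
    intro a p hp
    have h2 : p ∉ {p : X | 0 < (1 : ℝ) * (jm (fun x => φ ((c p).symm x)) (c p p)).det} := by
      rw [h1]; exact fun h => h
    simp only [Set.mem_ofPred_eq, one_mul, not_lt] at h2
    have h3 := lt_of_le_of_ne h2 (h.ne p p (hc p).1)
    rw [h.tr hc hp (hc p).1, Matrix.det_mul]
    exact mul_neg_of_neg_of_pos h3 (jm_cm_pos hc hp (hc p).1)
  · left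
    intro a p hp
    have h2 : p ∈ {p : X | 0 < (1 : ℝ) * (jm (fun x => φ ((c p).symm x)) (c p p)).det} := by
      rw [h1]; trivial
    simp only [Set.mem_ofPred_eq, one_mul] at h2
    rw [h.tr hc hp (hc p).1, Matrix.det_mul]
    exact mul_pos h2 (jm_cm_pos hc hp (hc p).1)

theorem spinStr_of_LD [ConnectedSpace X] (hc : J.Atl c) (hg : J.Met c g) (h : LD c φ) :
    Nonempty (J.SpinStr c g) := by
  have key : ∀ D : Matrix (Fin n) (Fin n) ℝ,
      (∀ a, ∀ p ∈ (c a).source, 0 < (D * jm (fun x => φ ((c a).symm x)) (c a p)).det) →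
      Nonempty (J.SpinStr c g) := by
    intro D hD
    refine spinStr_of_coframe hg (fun a x => D * jm (fun x => φ ((c a).symm x)) x)
      (fun a p hp => ?_) (fun a b p ha hb => ?_)
      (fun a b p ha hb => (jm_cm_pos hc ha hb).ne') hD
    · exact cd_mul (A := fun _ => D) (fun i j => contDiffAt_const)
        fun i j => jm_smooth (h.smooth a p hp) i j
    · rw [h.tr hc ha hb, Matrix.mul_assoc]
  rcases h.sign hc with h1 | h1
  · exact key 1 fun a p hp => by rw [one_mul]; exact h1 a p hp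
  · rcases Nat.eq_zero_or_pos n with h0 | h0
    · subst h0
      obtain ⟨p⟩ := (inferInstance : Nonempty X)
      have := h1 p p (hc p).1
      rw [Matrix.det_isEmpty] at this
      exact absurd this (by norm_num)
    · refine key (Matrix.diagonal fun k : Fin n => if k = ⟨0, h0⟩ then (-1 : ℝ) else 1)
        fun a p hp => ?_
      rw [Matrix.det_mul, Matrix.det_diagonal]
      have h2 : (∏ k : Fin n, if k = ⟨0, h0⟩ then (-1 : ℝ) else 1) = -1 := by
        rw [Finset.prod_ite_eq' Finset.univ (⟨0, h0⟩ : Fin n) fun _ => (-1 : ℝ)]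
        simp
      rw [h2]
      exact mul_pos_of_neg_of_neg (by norm_num) (h1 a p hp)

/-- the inverse of a diffeomorphism `ℝ^n → X` -/
theorem LD_of_e (hc : J.Atl c) {e : J.E n → X} (hb : Function.Bijective e) (hcont : Continuous e)
    (he : ∀ v, ContDiffAt ℝ ∞ (fun w => c (e v) (e w)) v ∧
      (fderiv ℝ (fun w => c (e v) (e w)) v).det ≠ 0) :
    LD c (Equiv.ofBijective e hb).symm := by
  set φ := (Equiv.ofBijective e hb).symm with hφ
  have heφ : ∀ p, e (φ p) = p := fun p => (Equiv.ofBijective e hb).apply_symm_apply p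
  have key : ∀ a, ∀ p ∈ (c a).source, ∃ Fi : J.E n → J.E n, ContDiffAt ℝ ∞ Fi (c p p) ∧
      (jm Fi (c p p)).det ≠ 0 ∧ (fun x => φ ((c a).symm x)) =ᶠ[𝓝 (c a p)]
        fun x => Fi (J.cm (c a) (c p) x) := by
    intro a p hp
    obtain ⟨h1, h2⟩ := he (φ p)
    rw [heφ] at h1 h2
    set F : J.E n → J.E n := fun w => c p (e w) with hF
    have hF0 : F (φ p) = c p p := by simp only [hF]; rw [heφ]
    have hd : HasFDerivAt F (((fderiv ℝ F (φ p)).toContinuousLinearEquivOfDetNeZero h2 :
        J.E n ≃L[ℝ] J.E n) : J.E n →L[ℝ] J.E n) (φ p) := by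
      rw [ContinuousLinearMap.coe_toContinuousLinearEquivOfDetNeZero]
      exact (h1.differentiableAt (by simp)).hasFDerivAt
    have hne : (∞ : WithTop ℕ∞) ≠ 0 := by simp
    set Fi := h1.localInverse hd hne with hFi
    have i1 : ContDiffAt ℝ ∞ Fi (F (φ p)) := h1.to_localInverse hd hne
    have i2 : ∀ᶠ y in 𝓝 (F (φ p)), F (Fi y) = y :=
      (h1.hasStrictFDerivAt' hd hne).eventually_right_inverse
    have i3 : Fi (F (φ p)) = φ p := h1.localInverse_apply_image hd hne
    refine ⟨Fi, by rwa [← hF0], ?_, ?_⟩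
    · rw [← hF0]
      have j1 : (fun y => F (Fi y)) =ᶠ[𝓝 (F (φ p))] fun y => y := i2
      have j2 := jm_congr j1
      rw [jm_comp (σ := F) (τ := Fi)] at j2
      · have j3 := congrArg Matrix.det j2
        rw [Matrix.det_mul] at j3
        have j4 : (jm (fun y : J.E n => y) (F (φ p))).det = 1 := by
          rw [det_jm, fderiv_fun_id]
          exact LinearMap.det_id
        rw [j4] at j3
        exact right_ne_zero_of_mul (by rw [j3]; exact one_ne_zero)
      · rw [i3]; exact h1.differentiableAt (by simp)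
      · exact i1.differentiableAt (by simp)
    · have k1 : Filter.Tendsto (fun x => (c a).symm x) (𝓝 (c a p)) (𝓝 p) := (c a).tendsto_symm hp
      have k2 : Filter.Tendsto (fun x => J.cm (c a) (c p) x) (𝓝 (c a p)) (𝓝 (F (φ p))) := by
        rw [hF0]
        have := ((c p).continuousAt (hc p).1).tendsto
        exact this.comp k1
      have k3 : Filter.Tendsto (fun x => e (Fi (J.cm (c a) (c p) x))) (𝓝 (c a p)) (𝓝 p) := by
        have h5 : Filter.Tendsto (fun y => e (Fi y)) (𝓝 (F (φ p))) (𝓝 p) := by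
          have := (hcont.tendsto (Fi (F (φ p)))).comp i1.continuousAt.tendsto
          rw [i3, heφ] at this
          exact this
        exact h5.comp k2
      have hs := (c p).open_source.mem_nhds (hc p).1
      filter_upwards [k1.eventually hs, k3.eventually hs, k2.eventually i2] with x hx1 hx2 hx3
      have h6 : e (Fi (J.cm (c a) (c p) x)) = (c a).symm x := (c p).injOn hx2 hx1 hx3
      rw [← h6]
      exact (Equiv.ofBijective e hb).symm_apply_apply _
  refine ⟨fun a p hp => ?_, fun a p hp => ?_⟩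
  · obtain ⟨Fi, h1, h2, h3⟩ := key a p hp
    refine ContDiffAt.congr_of_eventuallyEq ?_ h3
    refine ContDiffAt.comp (g := Fi) (c a p) ?_ ((hc a).2 p p hp (hc p).1).1
    rw [cm_apply hp]; exact h1
  · obtain ⟨Fi, h1, h2, h3⟩ := key a p hp
    rw [jm_congr h3, jm_comp (σ := Fi), cm_apply hp, Matrix.det_mul]
    · exact mul_ne_zero h2 (jm_cm_pos hc hp (hc p).1).ne'
    · rw [cm_apply hp]; exact h1.differentiableAt (by simp)
    · exact ((hc a).2 p p hp (hc p).1).1.differentiableAt (by simp)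

theorem spinStr_of_pole [ConnectedSpace X] (hc : J.Atl c) (hg : J.Met c g) {x : X}
    (h : J.Pole c g x) : Nonempty (J.SpinStr c g) := by
  obtain ⟨e, -, h1, h2, h3, -⟩ := h
  exact spinStr_of_LD hc hg (LD_of_e hc h1 h2 h3)

end ld

end Vale.Agent.P223.H441.Par
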