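import Vale.Agent.P223.H441.Sg

/-! The spinor bundle on the universal covering, from a spin structure on some covering. -/

namespace Vale.Agent.P223.H441

open Vale.Agent.P223.H566 Vale.Agent.P223.H Vale.Agent.P223.X
open scoped ContDiff Topology Matrix InnerProductSpace

section mat
variable {n : ℕ} {b₁ b₂ b₃ A₁ A₂ A₃ J K' L : Matrix (Fin n) (Fin n) ℝ}

/-- the rotation between frames -/
def RM (b₂ A₂ J b₁ : Matrix (Fin n) (Fin n) ℝ) : Matrix (Fin n) (Fin n) ℝ := b₂ * A₂ * J * b₁ᵀ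

theorem RM_eq (hA : A₂ᵀ = A₂) (h : b₂ * A₂ * b₂ᵀ = 1) : b₂ᵀ * RM b₂ A₂ J b₁ = J * b₁ᵀ := by
  unfold RM
  simp only [← Matrix.mul_assoc]
  rw [frame_inv' hA h, Matrix.one_mul]

theorem RM_orth (hA : A₂ᵀ = A₂) (h₂ : b₂ * A₂ * b₂ᵀ = 1) (h₁ : b₁ * A₁ * b₁ᵀ = 1)
    (hc : A₁ = Jᵀ * A₂ * J) : (RM b₂ A₂ J b₁)ᵀ * RM b₂ A₂ J b₁ = 1 := by
  have e := congrArg Matrix.transpose (RM_eq (J := J) (b₁ := b₁) hA h₂)
  rw [Matrix.transpose_mul, Matrix.transpose_transpose, Matrix.transpose_mul,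
    Matrix.transpose_transpose] at e
  rw [hc] at h₁
  calc (RM b₂ A₂ J b₁)ᵀ * RM b₂ A₂ J b₁ = (RM b₂ A₂ J b₁)ᵀ * b₂ * (A₂ * J * b₁ᵀ) := by
        rw [Matrix.mul_assoc _ b₂]
        congr 1
        unfold RM
        simp only [Matrix.mul_assoc]
    _ = 1 := by
        rw [e, ← h₁]
        simp only [Matrix.mul_assoc]

theorem RM_det (h₂ : b₂ * A₂ * b₂ᵀ = 1) (hd₂ : 0 < b₂.det) (hd₁ : 0 < b₁.det) (hJ : 0 < J.det)
    (ho : (RM b₂ A₂ J b₁)ᵀ * RM b₂ A₂ J b₁ = 1) : (RM b₂ A₂ J b₁).det = 1 := by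
  have h1 : 0 < (RM b₂ A₂ J b₁).det := by
    unfold RM
    rw [Matrix.det_mul, Matrix.det_mul, Matrix.det_mul, Matrix.det_transpose]
    have h2 := congrArg Matrix.det h₂
    rw [Matrix.det_mul, Matrix.det_mul, Matrix.det_transpose, Matrix.det_one] at h2
    have h3 : 0 < A₂.det := by
      by_contra h
      have : b₂.det * A₂.det * b₂.det ≤ 0 := by
        have h4 : A₂.det ≤ 0 := not_lt.1 h
        have : 0 < b₂.det * b₂.det := mul_pos hd₂ hd₂
        nlinarith
      linarith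
    positivity
  have h2 := congrArg Matrix.det ho
  rw [Matrix.det_mul, Matrix.det_transpose, Matrix.det_one] at h2
  nlinarith

theorem RM_uniq (h₂ : b₂ * A₂ * b₂ᵀ = 1) {Q : Matrix (Fin n) (Fin n) ℝ}
    (h : b₂ᵀ * Q = J * b₁ᵀ) : Q = RM b₂ A₂ J b₁ := by
  unfold RM
  calc Q = b₂ * A₂ * b₂ᵀ * Q := by rw [h₂, Matrix.one_mul]
    _ = _ := by rw [Matrix.mul_assoc, h]; simp only [Matrix.mul_assoc]

/-- composition -/
theorem RM_comp (hA₂ : A₂ᵀ = A₂) (hA₃ : A₃ᵀ = A₃) (h₂ : b₂ * A₂ * b₂ᵀ = 1)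
    (h₃ : b₃ * A₃ * b₃ᵀ = 1) (hL : L = K' * J) :
    RM b₃ A₃ K' b₂ * RM b₂ A₂ J b₁ = RM b₃ A₃ L b₁ := by
  refine RM_uniq h₃ ?_
  rw [← Matrix.mul_assoc, RM_eq hA₃ h₃, Matrix.mul_assoc, RM_eq hA₂ h₂, hL, Matrix.mul_assoc]

end mat

section geo
variable {n : ℕ} {M X X' Γ I : Type} [TopologicalSpace M] [TopologicalSpace X]
  [TopologicalSpace X'] [Group Γ] [MulAction Γ X] {c : M → J.Ch n M} {B : Box c I}
  {C : Cov n M X Γ I} {g : M → J.Mtx n} {f : X' → M} {c' : X' → J.Ch n X'}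

/-- the coordinates of the box `i` in the chart at `q` -/
noncomputable def ta (B : Box c I) (i : I) (p : M) (z : E n) : E n := c p (B.β i z)

theorem ta_eq (i : I) (p : M) : ta B i p = fun z => J.cm (c (B.a i)) (c p) (B.x i z) := rfl

variable (hc : J.Atl c)

include hc in
theorem contDiffAt_ta {i : I} {p : M} {y : E n} (h : B.β i y ∈ (c p).source) :
    ContDiffAt ℝ ∞ (ta B i p) y := by
  have h1 := BoxB.contDiffAt_cm hc (BoxB.β_mem B i y) h
  rw [BoxB.c_β] at h1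
  exact h1.comp y (BoxB.contDiff_x B i).contDiffAt

include hc in
theorem fderiv_ta {i : I} {p : M} {y : E n} (h : B.β i y ∈ (c p).source) (v : E n) :
    fderiv ℝ (ta B i p) y v =
      fderiv ℝ (J.cm (c (B.a i)) (c p)) (B.x i y) (B.D i y v) := by
  have h3 : DifferentiableAt ℝ (B.x i) y := (BoxB.contDiff_x B i).differentiable (by simp) _
  have h4 : DifferentiableAt ℝ (J.cm (c (B.a i)) (c p)) (B.x i y) := by
    rw [← BoxB.c_β]
    exact (BoxB.contDiffAt_cm hc (BoxB.β_mem B i y) h).differentiableAt (by simp)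
  have e2 := fderiv_comp y h4 h3
  have e5 := congrArg (fun T : E n →L[ℝ] E n => T v) e2
  simp only [ContinuousLinearMap.comp_apply] at e5
  rw [BoxB.fderiv_x] at e5
  exact e5

theorem fderiv_jac {φ : E n → E n} {x : E n} (hφ : ContDiffAt ℝ ∞ φ x) (v : E n) :
    fderiv ℝ φ x v = jac φ x *ᵥ v := by
  funext a
  exact Bas2.fderiv_eq_mulVec hφ v a

include hc in
/-- chain rule for the coordinates -/
theorem jac_ta {i : I} {p p' : M} {y : E n} (h : B.β i y ∈ (c p).source)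
    (h' : B.β i y ∈ (c p').source) :
    jac (ta B i p') y = jac (J.cm (c p) (c p')) (ta B i p y) * jac (ta B i p) y := by
  have h1 : ∀ v, jac (ta B i p') y *ᵥ v =
      (jac (J.cm (c p) (c p')) (ta B i p y) * jac (ta B i p) y) *ᵥ v := by
    intro v
    have e1 := BoxB.fderiv_cm_cm hc (BoxB.β_mem B i y) h h' (B.D i y v)
    rw [BoxB.c_β] at e1
    rw [← Matrix.mulVec_mulVec, ← fderiv_jac (contDiffAt_ta hc h'), ← fderiv_jac (contDiffAt_ta hc h),
      fderiv_ta hc h, fderiv_ta hc h', e1]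
    exact fderiv_jac (BoxB.contDiffAt_cm hc h h') _
  exact Matrix.ext_of_mulVec_single fun k => h1 _

include hc in
theorem G_ta (hg : J.Met c g) {i : I} {p : M} {y : E n} (h : B.β i y ∈ (c p).source) :
    B.G g i y = (jac (ta B i p) y)ᵀ * g p (ta B i p y) * jac (ta B i p) y := by
  ext k l
  have h1 := (hg (B.a i) (B.β i y) (BoxB.β_mem B i y)).2.2 p h
    (B.D i y (Pi.single k 1)) (B.D i y (Pi.single l 1))
  rw [BoxB.c_β, ← BoxB.bil_G, ← fderiv_ta hc h, ← fderiv_ta hc h] at h1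
  unfold J.bil at h1
  simp only [fderiv_single (contDiffAt_ta hc h)] at h1
  have h2 : ∑ a, ∑ b, (Pi.single k (1 : ℝ) : E n) a * (Pi.single l (1 : ℝ) : E n) b *
      B.G g i y a b = B.G g i y k l := by
    simp [Pi.single_apply]
  rw [h2] at h1
  rw [h1]
  simp only [Matrix.mul_apply, Matrix.transpose_apply, Finset.sum_mul]
  rw [Finset.sum_comm]
  refine Finset.sum_congr rfl fun i _ => Finset.sum_congr rfl fun j _ => ?_
  unfold ta
  ring

include hc in
theorem det_ta {i : I} {p : M} {y : E n} (h : B.β i y ∈ (c p).source) :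
    0 < (jac (ta B i p) y).det := by
  have h1 := (((hc (B.a i)).2 p) _ (BoxB.β_mem B i y) h).2
  rw [BoxB.c_β] at h1
  have h2 : ContDiffAt ℝ ∞ (J.cm (c (B.a i)) (c p)) (B.x i y) := by
    rw [← BoxB.c_β]; exact BoxB.contDiffAt_cm hc (BoxB.β_mem B i y) h
  have h3 : jac (ta B i p) y = jac (J.cm (c (B.a i)) (c p)) (B.x i y) *
      Matrix.diagonal fun k => dth (B.r i) (y k) := by
    refine Matrix.ext_of_mulVec_single fun k => ?_
    rw [← fderiv_jac (contDiffAt_ta hc h), fderiv_ta hc h, fderiv_jac h2, ← Matrix.mulVec_mulVec]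
    congr 1
    rw [MetU.D_single, Matrix.diagonal_mulVec_single, mul_one]
  rw [h3, Matrix.det_mul, Bas2.det_jac h2, Matrix.det_diagonal]
  exact mul_pos h1 (Finset.prod_pos fun k _ => BoxB.dth_pos (B.pos i) (y k))

/-- the rotation from the frame of the box `i` to the frame at `q` -/
noncomputable def RR (S : J.SpinStr c' fun q => g (f q)) (B : Box c I)
    (β : I → E n → Matrix (Fin n) (Fin n) ℝ) (i : I) (q : X') (y : E n) :
    Matrix (Fin n) (Fin n) ℝ :=
  RM (S.β q (ta B i (f q) y)) (g (f q) (ta B i (f q) y)) (jac (ta B i (f q)) y) (β i y)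

section S
variable (hf : J.CovAtl c f c') (hg : J.Met c g) (S : J.SpinStr c' fun q => g (f q))
  {β : I → E n → Matrix (Fin n) (Fin n) ℝ} (hfr : ∀ i, Fr (B.G g i) (β i))
  {i : I} {y : E n} {q q' p : X'} (hp : p ∈ (c' q).source) (hp' : p ∈ (c' q').source)
  (hpy : f p = B.β i y)

include hf hp hpy in
theorem mem_ta : B.β i y ∈ (c (f q)).source ∧ c' q p = ta B i (f q) y := by
  have h := hf.eq q p hp
  rw [hpy] at h
  exact h

include hf hp hpy in
theorem S_orth : S.β q (ta B i (f q) y) * g (f q) (ta B i (f q) y) *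
    (S.β q (ta B i (f q) y))ᵀ = 1 ∧ 0 < (S.β q (ta B i (f q) y)).det := by
  obtain ⟨h1, h2⟩ := mem_ta hf hp hpy
  obtain ⟨h3, h4⟩ := S.frame q p hp
  rw [h2] at h3 h4
  refine ⟨?_, h3⟩
  ext k l
  have h5 := h4 k l
  rw [Matrix.one_apply, ← h5]
  unfold J.bil
  simp only [Matrix.mul_apply, Matrix.transpose_apply, Finset.sum_mul]
  rw [Finset.sum_comm]
  exact Finset.sum_congr rfl fun p _ => Finset.sum_congr rfl fun q _ => by ring

include hf hp hpy hg in
theorem g_symm : (g (f q) (ta B i (f q) y))ᵀ = g (f q) (ta B i (f q) y) := by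
  obtain ⟨h1, h2⟩ := mem_ta hf hp hpy
  exact symm_of_posDef (hg (f q) (B.β i y) h1).2.1

include hc hf hp hpy hg hfr in
theorem RR_orth : (RR S B β i q y)ᵀ * RR S B β i q y = 1 :=
  RM_orth (g_symm hf hg hp hpy) (S_orth hf S hp hpy).1 ((hfr i).orth y)
    (G_ta hc hg (mem_ta hf hp hpy).1)

include hc hf hp hpy hg hfr in
theorem RR_det : (RR S B β i q y).det = 1 :=
  RM_det (S_orth hf S hp hpy).1 (S_orth hf S hp hpy).2 ((hfr i).pos y)
    (det_ta hc (mem_ta hf hp hpy).1) (RR_orth hc hf hg S hfr hp hpy)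

include hc hf hp hpy hg hfr in
theorem RR_smooth (a b : Fin n) : ContDiffAt ℝ ∞ (fun z => RR S B β i q z a b) y := by
  obtain ⟨h1, h2⟩ := mem_ta hf hp hpy
  have hτ := contDiffAt_ta hc h1
  have e : (fun z => RR S B β i q z a b) = fun z =>
      ∑ m, (∑ l, (∑ r, S.β q (ta B i (f q) z) a r * g (f q) (ta B i (f q) z) r l) *
        jac (ta B i (f q)) z l m) * β i z b m := by
    funext z
    unfold RR RM
    simp only [Matrix.mul_apply, Matrix.transpose_apply]
  rw [e]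
  refine ContDiffAt.sum fun m _ => ContDiffAt.mul (ContDiffAt.sum fun l _ => ContDiffAt.mul
    (ContDiffAt.sum fun r _ => ContDiffAt.mul ?_ ?_) ?_) ((hfr i).smooth b m).contDiffAt
  · have h3 := S.smooth q p hp a r
    rw [h2] at h3
    exact sm_comp (h := fun w => S.β q w a r) hτ h3
  · have h3 := (hg (f q) (B.β i y) h1).1 r l
    exact sm_comp (h := fun w => g (f q) w r l) hτ h3
  · exact sm_jac hτ l m

include hf hp hp' in
/-- the coordinate changes in `X'` -/
theorem cm_ev : J.cm (c' q) (c' q') =ᶠ[𝓝 (c' q p)] J.cm (c (f q)) (c (f q')) := by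
  filter_upwards [BoxB.eventually_mem hp (c' q').open_source hp'] with z hz
  unfold J.cm
  have h1 : (c' q).symm z ∈ (c' q).source := (c' q).map_target hz.1
  obtain ⟨h2, h3⟩ := hf.eq q _ h1
  obtain ⟨h4, h5⟩ := hf.eq q' _ hz.2
  rw [(c' q).right_inv hz.1] at h3
  rw [h5]
  congr 1
  calc f ((c' q).symm z) = (c (f q)).symm (c (f q) (f ((c' q).symm z))) :=
        ((c (f q)).left_inv h2).symm
    _ = (c (f q)).symm z := by rw [← h3]

include hc hf hp hp' hpy hg in
theorem s_lift (x : E n) : S.s q q' p * CliffordAlgebra.ι (J.nq n) (RR S B β i q y *ᵥ x) =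
    CliffordAlgebra.ι (J.nq n) (RR S B β i q' y *ᵥ x) * S.s q q' p := by
  obtain ⟨h1, h2⟩ := mem_ta hf hp hpy
  obtain ⟨h1', h2'⟩ := mem_ta hf hp' hpy
  refine S.lift q q' p hp hp' _ _ ?_
  unfold J.FrEq
  have h3 : ContDiffAt ℝ ∞ (J.cm (c (f q)) (c (f q'))) (ta B i (f q) y) :=
    BoxB.contDiffAt_cm hc h1 h1'
  have e1 : ∀ (A : Matrix (Fin n) (Fin n) ℝ) (v : E n), ∑ k, v k • A k = Aᵀ *ᵥ v := by
    intro A v
    funext l
    simp only [Finset.sum_apply, Pi.smul_apply, smul_eq_mul, Matrix.mulVec, dotProduct,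
      Matrix.transpose_apply]
    exact Finset.sum_congr rfl fun k _ => mul_comm _ _
  rw [(cm_ev hf hp hp').fderiv_eq, h2, h2', e1, e1, fderiv_jac h3, Matrix.mulVec_mulVec,
    Matrix.mulVec_mulVec, Matrix.mulVec_mulVec]
  unfold RR
  rw [Matrix.mul_assoc (jac _ _) _ᵀ, RM_eq (g_symm hf hg hp hpy) (S_orth hf S hp hpy).1,
    RM_eq (g_symm hf hg hp' hpy) (S_orth hf S hp' hpy).1, jac_ta hc h1 h1', Matrix.mul_assoc]

variable {V : Type} [NormedAddCommGroup V] [InnerProductSpace ℂ V] {K : Cliff n V}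

/-- the operator of the transition function -/
noncomputable def rs' (K : Cliff n V) (S : J.SpinStr c' fun q => g (f q)) (q q' p : X') :
    V →L[ℂ] V := rep K (S.s q q' p)

include hc hf hp hp' hpy hg in
theorem Lf_s {u : V →L[ℂ] V} (hu : Lf K (RR S B β i q y) u) :
    Lf K (RR S B β i q' y) (rs' K S q q' p * u) where
  mem := mul_mem_W K (rep_mem_W K (spinGroup.mem_even (S.mem q q' p hp hp'))) hu.mem
  unit v w := by
    change ⟪rep K _ (u v), rep K _ (u w)⟫_ℂ = _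
    rw [rep_unit K (S.mem q q' p hp hp'), hu.unit]
  lift v := by
    have h := congrArg (rep K) (s_lift (β := β) hc hf hg S hp hp' hpy v)
    rw [map_mul, map_mul, rep_ι, rep_ι] at h
    unfold rs'
    rw [mul_assoc, hu.lift, ← mul_assoc, h, mul_assoc]

theorem rs'_coc {q'' : X'} (hp'' : p ∈ (c' q'').source) (hp : p ∈ (c' q).source)
    (hp' : p ∈ (c' q').source) :
    rs' K S q' q'' p * rs' K S q q' p = rs' K S q q'' p := by
  unfold rs'
  rw [← map_mul, S.coc q q' q'' p hp hp' hp'']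

theorem rs'_self (hp : p ∈ (c' q).source) : rs' K S q q p = 1 := by
  have h1 := S.coc q q q p hp hp hp
  have h2 := S.mem q q p hp hp
  have h3 : S.s q q p = 1 := by
    have h4 := congrArg (star (S.s q q p) * ·) h1
    simp only [← mul_assoc] at h4
    rwa [spinGroup.star_mul_self_of_mem h2, one_mul] at h4
  unfold rs'
  rw [h3, map_one]

theorem rs'_star [CompleteSpace V] (hp : p ∈ (c' q).source) (hp' : p ∈ (c' q').source) :
    star (rs' K S q q' p) * rs' K S q q' p = 1 := by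
  ext v
  refine ext_inner_left ℂ fun w => ?_
  change ⟪w, ContinuousLinearMap.adjoint (rs' K S q q' p) (rs' K S q q' p v)⟫_ℂ = ⟪w, v⟫_ℂ
  rw [ContinuousLinearMap.adjoint_inner_right]
  exact rep_unit K (S.mem q q' p hp hp') w v

end S

end geo

end Vale.Agent.P223.H441
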