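import Vale.Agent.P223.MathlibUsed
import Mathlib.Analysis.Matrix.Order
import Mathlib.Analysis.Matrix.PosDef

/-! Monotonicity of the determinant and of the inverse of positive definite matrices. -/

namespace Vale.Agent.P223.H441.Bil

open Matrix
open scoped MatrixOrder

variable {n : ℕ}

theorem exists_fac {B : Matrix (Fin n) (Fin n) ℝ} (hB : B.PosDef) :
    ∃ R : Matrix (Fin n) (Fin n) ℝ, R.det ≠ 0 ∧ B = Rᵀ * R := by
  obtain ⟨R, hR⟩ := CStarAlgebra.nonneg_iff_eq_star_mul_self.mp hB.posSemidef.nonneg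
  have e : B = Rᵀ * R := by rw [hR, star_eq_conjTranspose, conjTranspose_eq_transpose_of_trivial]
  refine ⟨R, fun h => ?_, e⟩
  have h1 := hB.det_pos
  rw [e, det_mul, h, mul_zero] at h1
  exact lt_irrefl _ h1

theorem det_le_one {A : Matrix (Fin n) (Fin n) ℝ} (hA : A.PosDef)
    (h : ∀ v, v ⬝ᵥ A *ᵥ v ≤ v ⬝ᵥ v) : A.det ≤ 1 := by
  have h1 : A.det = ∏ i, hA.1.eigenvalues i := by
    have := hA.1.det_eq_prod_eigenvalues
    simpa using this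
  rw [h1]
  refine Finset.prod_le_one (fun i _ => (hA.eigenvalues_pos i).le) fun i _ => ?_
  have h2 := hA.1.eigenvalues_eq i
  rw [h2]
  have h3 : star (⇑(hA.1.eigenvectorBasis i)) = (⇑(hA.1.eigenvectorBasis i) : Fin n → ℝ) := by
    funext j; simp
  rw [h3]
  refine (h _).trans (le_of_eq ?_)
  have h4 := hA.1.eigenvectorBasis.orthonormal.1 i
  have h5 : ‖hA.1.eigenvectorBasis i‖ ^ 2 = 1 := by rw [h4]; norm_num
  rw [EuclideanSpace.norm_sq_eq] at h5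
  rw [← h5]
  simp only [dotProduct]
  refine Finset.sum_congr rfl fun j _ => ?_
  rw [Real.norm_eq_abs, sq_abs, sq]

/-- the determinant is monotone -/
theorem det_mono {A B : Matrix (Fin n) (Fin n) ℝ} (hA : A.PosDef) (hB : B.PosDef)
    (h : ∀ v, v ⬝ᵥ A *ᵥ v ≤ v ⬝ᵥ B *ᵥ v) : A.det ≤ B.det := by
  obtain ⟨R, hR, rfl⟩ := exists_fac hB
  have hu : IsUnit R.det := hR.isUnit
  have hRi : R * R⁻¹ = 1 := mul_nonsing_inv R hu
  have hinj : Function.Injective (R⁻¹).mulVec := by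
    intro v w hvw
    have h1 : R *ᵥ (R⁻¹ *ᵥ v) = R *ᵥ (R⁻¹ *ᵥ w) := by rw [show R⁻¹ *ᵥ v = R⁻¹ *ᵥ w from hvw]
    rwa [mulVec_mulVec, mulVec_mulVec, hRi, one_mulVec, one_mulVec] at h1
  have hP : ((R⁻¹)ᵀ * A * R⁻¹).PosDef := by
    have := hA.conjTranspose_mul_mul_same hinj
    rwa [conjTranspose_eq_transpose_of_trivial] at this
  have h1 := det_le_one hP fun v => by
    have e1 : v ⬝ᵥ ((R⁻¹)ᵀ * A * R⁻¹) *ᵥ v = (R⁻¹ *ᵥ v) ⬝ᵥ A *ᵥ (R⁻¹ *ᵥ v) := by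
      rw [← mulVec_mulVec, ← mulVec_mulVec, dotProduct_mulVec, vecMul_transpose]
    have e2 : v ⬝ᵥ v = (R⁻¹ *ᵥ v) ⬝ᵥ (Rᵀ * R) *ᵥ (R⁻¹ *ᵥ v) := by
      rw [← mulVec_mulVec, mulVec_mulVec _ R, hRi, one_mulVec, dotProduct_mulVec, vecMul_transpose,
        mulVec_mulVec, hRi, one_mulVec]
    rw [e1, e2]
    exact h _
  rw [det_mul, det_mul, det_transpose] at h1
  rw [det_mul, det_transpose]
  have h2 : R.det * (R⁻¹).det = 1 := by rw [← det_mul, hRi, det_one]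
  have h3 : A.det = (R⁻¹.det * A.det * R⁻¹.det) * (R.det * R.det) := by
    linear_combination (-A.det) * (R.det * (R⁻¹).det + 1) * h2
  rw [h3]
  exact mul_le_of_le_one_left (mul_self_nonneg _) h1

/-- the inverse is antitone -/
theorem inv_anti {A B : Matrix (Fin n) (Fin n) ℝ} (hA : A.PosDef) (hB : B.PosDef)
    (h : ∀ v, v ⬝ᵥ A *ᵥ v ≤ v ⬝ᵥ B *ᵥ v) (w : Fin n → ℝ) :
    w ⬝ᵥ B⁻¹ *ᵥ w ≤ w ⬝ᵥ A⁻¹ *ᵥ w := by
  have hAu : IsUnit A.det := hA.det_pos.ne'.isUnit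
  have hBu : IsUnit B.det := hB.det_pos.ne'.isUnit
  set v := B⁻¹ *ᵥ w with hv
  set u := A⁻¹ *ᵥ w with hu
  have hBv : B *ᵥ v = w := by rw [hv, mulVec_mulVec, mul_nonsing_inv B hBu, one_mulVec]
  have hAu' : A *ᵥ u = w := by rw [hu, mulVec_mulVec, mul_nonsing_inv A hAu, one_mulVec]
  have hs : ∀ x y : Fin n → ℝ, x ⬝ᵥ A *ᵥ y = y ⬝ᵥ A *ᵥ x := fun x y => by
    have hAt : Aᵀ = A := by
      have := hA.1
      rwa [IsHermitian, conjTranspose_eq_transpose_of_trivial] at this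
    calc x ⬝ᵥ A *ᵥ y = (x ᵥ* A) ⬝ᵥ y := dotProduct_mulVec _ _ _
      _ = (A *ᵥ x) ⬝ᵥ y := by rw [← vecMul_transpose, hAt]
      _ = y ⬝ᵥ A *ᵥ x := dotProduct_comm _ _
  have h1 : 0 ≤ (v - u) ⬝ᵥ A *ᵥ (v - u) := by
    have := hA.posSemidef.dotProduct_mulVec_nonneg (v - u)
    simpa using this
  have h2 := h v
  rw [mulVec_sub, dotProduct_sub, sub_dotProduct, sub_dotProduct, hAu', hs u v, hAu'] at h1
  rw [hBv] at h2
  rw [dotProduct_comm w v, dotProduct_comm w u]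
  linarith

end Vale.Agent.P223.H441.Bil
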