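import Vale.Agent.P223.H441.Bil1
import Vale.Agent.P223.H440.Yc

/-! Comparison of the Sobolev inequalities of two bilipschitz metrics. -/

namespace Vale.Agent.P223.H441.Bil

open scoped ContDiff Topology
open MeasureTheory Matrix Vale.Agent.P223.H Vale.Agent.P223.X Vale.Agent.P223.H566
open Vale.Agent.P223.H66 (scX YamX ScGe Cc)
open Vale.Agent.P223.H440

section loc
variable {n : ℕ} {G₁ G : E n → Matrix (Fin n) (Fin n) ℝ} {L : ℝ}

theorem dens_le (h1 : ∀ y, (G₁ y).PosDef) (h2 : ∀ y, (G y).PosDef) (hL : 0 < L) {y : E n}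
    (h : ∀ v, v ⬝ᵥ G₁ y *ᵥ v ≤ L * (v ⬝ᵥ G y *ᵥ v)) :
    H.dens G₁ y ≤ √(L ^ n) * H.dens G y := by
  have h3 := det_mono (h1 y) ((h2 y).smul hL) fun v => by
    rw [smul_mulVec, dotProduct_smul, smul_eq_mul]; exact h v
  rw [det_smul, Fintype.card_fin] at h3
  unfold H.dens
  rw [← Real.sqrt_mul (pow_nonneg hL.le n)]
  exact Real.sqrt_le_sqrt h3

theorem gradSq_le (h1 : ∀ y, (G₁ y).PosDef) (h2 : ∀ y, (G y).PosDef) (hL : 0 < L) {y : E n}
    (h : ∀ v, v ⬝ᵥ G y *ᵥ v ≤ L * (v ⬝ᵥ G₁ y *ᵥ v)) (f : E n → ℝ) :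
    gradSq G₁ f y ≤ L * gradSq G f y := by
  have h3 := inv_anti (h2 y) ((h1 y).smul hL) (fun v => by
    rw [smul_mulVec, dotProduct_smul, smul_eq_mul]; exact h v) (fun i => H.pd i f y)
  have e : (L • G₁ y)⁻¹ = L⁻¹ • (G₁ y)⁻¹ := by
    refine Matrix.inv_eq_right_inv ?_
    rw [smul_mul_smul_comm, mul_inv_cancel₀ hL.ne', one_smul,
      mul_nonsing_inv _ (h1 y).det_pos.ne'.isUnit]
  rw [e, smul_mulVec, dotProduct_smul, smul_eq_mul] at h3
  unfold gradSq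
  rw [Common.gradIp_eq, Common.gradIp_eq]
  rw [inv_mul_le_iff₀ hL] at h3
  exact h3

end loc

section glob
variable {n : ℕ} {M X Γ I : Type} [TopologicalSpace M] [TopologicalSpace X]
  [Group Γ] [MulAction Γ X] [Fintype I] [T2Space X] [MeasurableSpace X] [BorelSpace X]
  {C : Cov n M X Γ I} {G₁ G : I → E n → Matrix (Fin n) (Fin n) ℝ} {μ₁ μ : Measure X}

theorem int_le (h1 : MetX C G₁) (h2 : MetX C G) (hV1 : VolX C G₁ μ₁) (hV2 : VolX C G μ) {K : ℝ}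
    (hd : ∀ i y, H.dens (G₁ i) y ≤ K * H.dens (G i) y) {F : X → ℝ} (hF : Continuous F)
    (hF0 : ∀ x, 0 ≤ F x) (hc : HasCompactSupport F) : ∫ x, F x ∂μ₁ ≤ K * ∫ x, F x ∂μ := by
  obtain ⟨χ, hχ⟩ := PartX.main n M X Γ I C
  obtain ⟨S, hS⟩ := exists_F (C := C) hχ hc.isCompact
  rw [int_dec h1 hV1 hχ hF hc S hS, int_dec h2 hV2 hχ hF hc S hS, Finset.mul_sum]
  refine Finset.sum_le_sum fun i _ => ?_
  rw [Finset.mul_sum]
  refine Finset.sum_le_sum fun γ _ => ?_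
  rw [← integral_const_mul]
  have hcF : Continuous fun y : E n => χ i y * F (γ⁻¹ • C.ψ i y) :=
    (hχ.smooth i).continuous.mul (hF.comp (Int.isOpenEmbedding_chart C γ⁻¹ i).continuous)
  have hcs : HasCompactSupport fun y : E n => χ i y * F (γ⁻¹ • C.ψ i y) := by
    refine HasCompactSupport.intro (isCompact_closedBall (0 : E n) 2) fun y hy => ?_
    rw [hχ.supp i y, zero_mul]
    simp only [Metric.mem_closedBall, dist_zero_right, not_le] at hy
    exact hy.le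
  have c1 := Int.cont_dens h1 i
  have c2 := Int.cont_dens h2 i
  refine integral_mono ((hcF.mul c1).integrable_of_hasCompactSupport hcs.mul_right)
    (((hcF.mul c2).integrable_of_hasCompactSupport hcs.mul_right).const_mul K) fun y => ?_
  simp only
  have h0 : 0 ≤ χ i y * F (γ⁻¹ • C.ψ i y) := mul_nonneg (hχ.nonneg i y) (hF0 _)
  calc χ i y * F (γ⁻¹ • C.ψ i y) * H.dens (G₁ i) y ≤
      χ i y * F (γ⁻¹ • C.ψ i y) * (K * H.dens (G i) y) := mul_le_mul_of_nonneg_left (hd i y) h0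
    _ = _ := by ring

omit [Fintype I] [T2Space X] [MeasurableSpace X] [BorelSpace X] in
theorem gsX_le (h1 : MetX C G₁) (h2 : MetX C G) {L : ℝ} (hL : 0 < L)
    (h : ∀ i y v, v ⬝ᵥ G i y *ᵥ v ≤ L * (v ⬝ᵥ G₁ i y *ᵥ v)) (f : X → ℝ) (x : X) :
    gsX C G₁ f x ≤ L * gsX C G f x := by
  obtain ⟨γ, i, y, -, rfl⟩ := C.cover x
  rw [gsX_eq h1, gsX_eq h2]
  exact gradSq_le (h1.pos i) (h2.pos i) hL (h i y) _

/-- COROLLARY L : the Sobolev inequality for a metric which is bilipschitz to a metric with a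
Yamabe inequality. -/
theorem sob_of_bil [ConnectedSpace X] [T2Space M] (hn : 3 ≤ n) (h1 : MetX C G₁) (h2 : MetX C G) (hV1 : VolX C G₁ μ₁)
    (hV2 : VolX C G μ) {L y : ℝ} (hL : 1 ≤ L) (hy : 0 < y)
    (hb1 : ∀ i y v, v ⬝ᵥ G₁ i y *ᵥ v ≤ L * (v ⬝ᵥ G i y *ᵥ v))
    (hb2 : ∀ i y v, v ⬝ᵥ G i y *ᵥ v ≤ L * (v ⬝ᵥ G₁ i y *ᵥ v)) (hY : YamX C G₁ μ₁ y)
    {f : X → ℝ} (hf : Cc C f) :
    y / L ^ n * (∫ x, |f x| ^ (2 * (n : ℝ) / (n - 2)) ∂μ) ^ (((n : ℝ) - 2) / n) ≤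
      ∫ x, (gsX C G f x + ((n : ℝ) - 2) / (4 * (n - 1)) * max 0 (scX C G₁ x) * f x ^ 2) ∂μ := by
  have hL0 : 0 < L := one_pos.trans_le hL
  have hn3 : (3 : ℝ) ≤ n := by exact_mod_cast hn
  have ha0 : 0 ≤ ((n : ℝ) - 2) / (4 * (n - 1)) := div_nonneg (by linarith) (by linarith)
  have hfin1 := finComp h1 hV1
  have hfin2 := finComp h2 hV2
  obtain ⟨hf1, hf2⟩ := hf
  have fc : Continuous f := Ck_continuous C fun γ i => (hf1 γ i).of_le (by simp)
  obtain ⟨g1, g1'⟩ := gsX_supp' h1 hf1 hf2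
  obtain ⟨g2, g2'⟩ := gsX_supp' h2 hf1 hf2
  have s1 := scX_cont h1
  have hp : 0 < 2 * (n : ℝ) / (n - 2) := by apply div_pos <;> linarith
  set a : ℝ := ((n : ℝ) - 2) / (4 * (n - 1)) with ha
  set P : X → ℝ := fun x => a * max 0 (scX C G₁ x) * f x ^ 2 with hP
  have hPc : Continuous P :=
    (continuous_const.mul (continuous_const.max s1)).mul (fc.pow 2)
  have hPs : HasCompactSupport P := by
    refine HasCompactSupport.intro hf2.isCompact fun x hx => ?_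
    simp only [hP]
    rw [image_eq_zero_of_notMem_tsupport hx]; simp
  have hP0 : ∀ x, 0 ≤ P x := fun x =>
    mul_nonneg (mul_nonneg ha0 (le_max_left _ _)) (sq_nonneg _)
  set T : X → ℝ := fun x => |f x| ^ (2 * (n : ℝ) / (n - 2)) with hT
  have hTc : Continuous T := fc.abs.rpow_const fun x => Or.inr hp.le
  have hTs : HasCompactSupport T := by
    refine HasCompactSupport.intro hf2.isCompact fun x hx => ?_
    simp only [hT]
    rw [image_eq_zero_of_notMem_tsupport hx, abs_zero, Real.zero_rpow hp.ne']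
  have hT0 : ∀ x, 0 ≤ T x := fun x => Real.rpow_nonneg (abs_nonneg _) _
  set K : ℝ := √(L ^ n) with hK
  have hK0 : 0 < K := Real.sqrt_pos.2 (pow_pos hL0 n)
  -- left-hand side
  have e1 : ∫ x, T x ∂μ ≤ K * ∫ x, T x ∂μ₁ :=
    int_le h2 h1 hV2 hV1 (fun i y => dens_le (h2.pos i) (h1.pos i) hL0 (hb2 i y)) hTc hT0 hTs
  have q0 : 0 ≤ ((n : ℝ) - 2) / n := div_nonneg (by linarith) (by linarith)
  have e2 : (∫ x, T x ∂μ) ^ (((n : ℝ) - 2) / n) ≤
      K ^ (((n : ℝ) - 2) / n) * (∫ x, T x ∂μ₁) ^ (((n : ℝ) - 2) / n) := by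
    rw [← Real.mul_rpow hK0.le (integral_nonneg hT0)]
    exact Real.rpow_le_rpow (integral_nonneg hT0) e1 q0
  -- right-hand side
  have i1 : Integrable (gsX C G₁ f) μ₁ := g1.integrable_of_hasCompactSupport g1'
  have i2 : Integrable (gsX C G f) μ := g2.integrable_of_hasCompactSupport g2'
  have i3 : Integrable P μ₁ := hPc.integrable_of_hasCompactSupport hPs
  have i4 : Integrable P μ := hPc.integrable_of_hasCompactSupport hPs
  have i5 : Integrable (fun x => a * scX C G₁ x * f x ^ 2) μ₁ := by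
    have hc : Continuous (fun x => a * scX C G₁ x * f x ^ 2) :=
      (continuous_const.mul s1).mul (fc.pow 2)
    refine hc.integrable_of_hasCompactSupport
      (HasCompactSupport.intro hf2.isCompact fun x hx => ?_)
    rw [image_eq_zero_of_notMem_tsupport hx]; simp
  have e3 := hY f ⟨hf1, hf2⟩
  have e4 : ∫ x, (gsX C G₁ f x + a * scX C G₁ x * f x ^ 2) ∂μ₁ ≤
      ∫ x, (gsX C G₁ f x + P x) ∂μ₁ := by
    refine integral_mono (i1.add i5) (i1.add i3) fun x => ?_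
    simp only [hP]
    refine add_le_add le_rfl (mul_le_mul_of_nonneg_right ?_ (sq_nonneg _))
    exact mul_le_mul_of_nonneg_left (le_max_right _ _) ha0
  have e5 : ∫ x, (gsX C G₁ f x + P x) ∂μ₁ ≤ K * ∫ x, (gsX C G₁ f x + P x) ∂μ :=
    int_le h1 h2 hV1 hV2 (fun i y => dens_le (h1.pos i) (h2.pos i) hL0 (hb1 i y)) (g1.add hPc)
      (fun x => add_nonneg (gsX_nonneg h1 f x) (hP0 x)) (g1'.add hPs)
  have i6 : Integrable (gsX C G₁ f) μ := g1.integrable_of_hasCompactSupport g1'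
  have e6 : ∫ x, (gsX C G₁ f x + P x) ∂μ ≤ L * ∫ x, (gsX C G f x + P x) ∂μ := by
    rw [← integral_const_mul]
    refine integral_mono (i6.add i4) ((i2.add i4).const_mul L) fun x => ?_
    simp only
    rw [mul_add]
    exact add_le_add (gsX_le h1 h2 hL0 hb2 f x) (le_mul_of_one_le_left (hP0 x) hL)
  -- combination
  set Q := ∫ x, (gsX C G f x + P x) ∂μ with hQ
  have e7 : y * (∫ x, T x ∂μ₁) ^ (((n : ℝ) - 2) / n) ≤ K * (L * Q) :=
    e3.trans (e4.trans (e5.trans (mul_le_mul_of_nonneg_left e6 hK0.le)))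
  have hKL : K ^ (((n : ℝ) - 2) / n) * (K * L) = L ^ n := by
    have hKr : K = L ^ ((n : ℝ) / 2) := by
      rw [hK, Real.sqrt_eq_rpow, ← Real.rpow_natCast, ← Real.rpow_mul hL0.le]
      congr 1; ring
    rw [hKr, ← Real.rpow_mul hL0.le]
    nth_rewrite 3 [← Real.rpow_one L]
    rw [← Real.rpow_add hL0, ← Real.rpow_add hL0, ← Real.rpow_natCast]
    congr 1
    field_simp
    ring
  rw [div_mul_eq_mul_div, div_le_iff₀ (pow_pos hL0 n), ← hKL]
  calc y * (∫ x, T x ∂μ) ^ (((n : ℝ) - 2) / n) ≤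
      y * (K ^ (((n : ℝ) - 2) / n) * (∫ x, T x ∂μ₁) ^ (((n : ℝ) - 2) / n)) :=
        mul_le_mul_of_nonneg_left e2 hy.le
    _ = K ^ (((n : ℝ) - 2) / n) * (y * (∫ x, T x ∂μ₁) ^ (((n : ℝ) - 2) / n)) := by ring
    _ ≤ K ^ (((n : ℝ) - 2) / n) * (K * (L * Q)) :=
        mul_le_mul_of_nonneg_left e7 (Real.rpow_nonneg hK0.le _)
    _ = Q * (K ^ (((n : ℝ) - 2) / n) * (K * L)) := by ring

end glob

end Vale.Agent.P223.H441.Bil
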