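import Vale.Agent.P223.MathlibUsed
import Mathlib.Topology.Homotopy.Lifting
import Mathlib.Topology.FiberBundle.Basic
import Mathlib.Topology.Covering.Basic

/-! Sign cocycles on simply connected spaces. -/

namespace Vale.Agent.P223.H441

open Topology

/-- Sign cocycles on a simply connected space are trivial. -/
theorem coc_triv {Y A : Type} [TopologicalSpace Y] [SimplyConnectedSpace Y]
    [LocallyPathConnectedSpace Y] (U : A → Set Y) (hU : ∀ a, IsOpen (U a))
    (hcov : ∀ y, ∃ a, y ∈ U a) (σ : A → A → Y → ℤˣ)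
    (hσ : ∀ a b, ContinuousOn (σ a b) (U a ∩ U b))
    (hc : ∀ a b d y, y ∈ U a → y ∈ U b → y ∈ U d → σ b d y * σ a b y = σ a d y) :
    ∃ ε : A → Y → ℤˣ, (∀ a, ContinuousOn (ε a) (U a)) ∧
      ∀ a b y, y ∈ U a → y ∈ U b → ε b y = σ a b y * ε a y := by
  classical
  choose ix hix using hcov
  let Z : FiberBundleCore A Y ℤˣ :=
    { baseSet := U
      isOpen_baseSet := hU
      indexAt := ix
      mem_baseSet_at := hix
      coordChange := fun a b y v => σ a b y * v
      coordChange_self := fun a y hy v => by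
        have h := hc a a a y hy hy hy
        have : σ a a y = 1 := mul_eq_left.1 h
        rw [this, one_mul]
      continuousOn_coordChange := fun a b => by
        refine ContinuousOn.mul ?_ continuousOn_snd
        exact (hσ a b).comp continuousOn_fst fun p hp => hp.1
      coordChange_comp := fun a b d y hy v => by
        rw [← mul_assoc, hc a b d y hy.1.1 hy.1.2 hy.2] }
  have hcm : IsCoveringMap (Bundle.TotalSpace.proj : Bundle.TotalSpace ℤˣ Z.Fiber → Y) :=
    FiberBundle.isCoveringMap
  obtain ⟨y₀⟩ := (inferInstance : Nonempty Y)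
  obtain ⟨s, ⟨-, hs⟩, -⟩ := hcm.existsUnique_continuousMap_lifts (ContinuousMap.id Y) y₀
    (⟨y₀, (1 : ℤˣ)⟩ : Bundle.TotalSpace ℤˣ Z.Fiber) rfl
  have hs' : ∀ y, (s y).1 = y := fun y => congrFun hs y
  refine ⟨fun a y => (Z.localTriv a (s y)).2, fun a => ?_, fun a b y ha hb => ?_⟩
  · refine continuousOn_snd.comp ((Z.localTriv a).continuousOn_toFun.comp
      s.continuous.continuousOn fun y hy => ?_) fun _ _ => Set.mem_univ _
    rw [Bundle.Trivialization.mem_source]
    change (s y).1 ∈ U a
    rwa [hs' y]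
  · let v : ℤˣ := (s y).2
    have h1 : (Z.localTriv a (s y)).2 = σ (ix (s y).1) a (s y).1 * v := rfl
    have h2 : (Z.localTriv b (s y)).2 = σ (ix (s y).1) b (s y).1 * v := rfl
    dsimp only
    rw [h1, h2, ← mul_assoc, hs' y, hc (ix y) a b y (hix y) ha hb]

end Vale.Agent.P223.H441
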