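import Vale.Agent.P223.H441.Conn2
import Vale.Agent.P223.H441.Coc
import Vale.Agent.P223.X.Basic

/-! Spinor bundles on the universal covering: equivariance up to signs. -/

namespace Vale.Agent.P223.H441

open Vale.Agent.P223.H566 Vale.Agent.P223.H Vale.Agent.P223.X
open scoped ContDiff Topology Matrix InnerProductSpace

section charts
variable {n : ℕ} {M X Γ I : Type} [TopologicalSpace M] [TopologicalSpace X] [Group Γ]
    [MulAction Γ X] (C : Cov n M X Γ I)

/-- the point with coordinates `y` in the chart `a` -/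
def pt (a : Γ × I) (y : E n) : X := a.1 • C.ψ a.2 y

/-- domain of the coordinate change -/
def dm (a b : Γ × I) : Set (E n) := C.dom a.2 b.2 (b.1⁻¹ * a.1)

/-- coordinate change -/
noncomputable def tt (a b : Γ × I) : E n → E n := C.tr a.2 b.2 (b.1⁻¹ * a.1)

/-- translation of charts -/
def sh (g : Γ) (a : Γ × I) : Γ × I := (g * a.1, a.2)

variable {C}

theorem mem_dm {a b : Γ × I} {y y' : E n} (h : pt C a y = pt C b y') :
    y ∈ dm C a b ∧ tt C a b y = y' := chart_eq C h

theorem pt_tt {a b : Γ × I} {y : E n} (h : y ∈ dm C a b) : pt C b (tt C a b y) = pt C a y := by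
  unfold pt tt
  rw [tr_spec C h, mul_smul, smul_inv_smul]

theorem mem_dm_iff {a b : Γ × I} {y : E n} : y ∈ dm C a b ↔ pt C a y ∈ Set.range (pt C b) :=
  ⟨fun h => ⟨_, pt_tt h⟩, fun ⟨_, h⟩ => (mem_dm h.symm).1⟩

theorem dm_self (a : Γ × I) (y : E n) : y ∈ dm C a a ∧ tt C a a y = y := mem_dm rfl

theorem tt_tt {a b d : Γ × I} {y : E n} (h : y ∈ dm C a b) (h' : tt C a b y ∈ dm C b d) :
    y ∈ dm C a d ∧ tt C b d (tt C a b y) = tt C a d y := by
  have h1 : pt C a y = pt C d (tt C b d (tt C a b y)) := by rw [pt_tt h', pt_tt h]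
  exact ⟨(mem_dm h1).1, (mem_dm h1).2.symm⟩

theorem sh_inv_mul (g : Γ) (a b : Γ × I) : (sh g b).1⁻¹ * (sh g a).1 = b.1⁻¹ * a.1 := by
  unfold sh; group

theorem dm_sh (g : Γ) (a b : Γ × I) : dm C (sh g a) (sh g b) = dm C a b := by
  unfold dm; rw [sh_inv_mul]; rfl

theorem tt_sh (g : Γ) (a b : Γ × I) : tt C (sh g a) (sh g b) = tt C a b := by
  unfold tt; rw [sh_inv_mul]; rfl

theorem isOpen_dm (a b : Γ × I) : IsOpen (dm C a b) := isOpen_dom C _ _ _

theorem pt_emb (a : Γ × I) : Topology.IsOpenEmbedding (pt C a) := Bas3.chart_emb C a.1 a.2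

theorem pt_cover (x : X) : ∃ (a : Γ × I) (y : E n), pt C a y = x := by
  obtain ⟨γ, i, y, -, h⟩ := Vale.Agent.P223.X.exists_chart C x
  exact ⟨(γ, i), y, h⟩

theorem contDiffAt_tt {a b : Γ × I} {y : E n} (h : y ∈ dm C a b) : ContDiffAt ℝ ∞ (tt C a b) y :=
  contDiffAt_tr C h

end charts

section Sp0
variable {n : ℕ} {M X Γ I : Type} [TopologicalSpace M] [TopologicalSpace X] [Group Γ]
    [MulAction Γ X] {V : Type} [NormedAddCommGroup V] [InnerProductSpace ℂ V]

/-- spinor bundle on `X` -/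
structure Sp0 (C : Cov n M X Γ I) (G : I → E n → Matrix (Fin n) (Fin n) ℝ) (K : Cliff n V) where
  met : MetX C G
  β : I → E n → Matrix (Fin n) (Fin n) ℝ
  fr : ∀ i, Fr (G i) (β i)
  T : Γ × I → Γ × I → E n → V →L[ℂ] V
  smooth : ∀ a b, ∀ y ∈ dm C a b, ContDiffAt ℝ ∞ (T a b) y
  lf : ∀ a b, ∀ y ∈ dm C a b, Lf K (Rm (G b.2) (β a.2) (β b.2) (tt C a b) y) (T a b y)
  coc : ∀ a b d y, y ∈ dm C a b → tt C a b y ∈ dm C b d →
    T b d (tt C a b y) * T a b y = T a d y
  one : ∀ a y, T a a y = 1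

/-- spinor bundle on `X`, equivariant up to signs -/
structure Sp1 (C : Cov n M X Γ I) (G : I → E n → Matrix (Fin n) (Fin n) ℝ) (K : Cliff n V)
    extends Sp0 C G K where
  sg : Γ → Γ → ℤˣ
  equi : ∀ g a b, ∀ y ∈ dm C a b, T (sh g a) (sh g b) y = ((sg g a.1 * sg g b.1 : ℤˣ) : ℤ) • T a b y

theorem zs_eq {u : V →L[ℂ] V} (hu : u ≠ 0) {ε ε' : ℤˣ} (h : (ε : ℤ) • u = (ε' : ℤ) • u) :
    ε = ε' := by
  have h1 : u ≠ -u := by
    intro h2
    apply hu
    have h3 : (2 : ℝ) • u = 0 := by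
      rw [two_smul]; nth_rewrite 1 [h2]; rw [neg_add_cancel]
    exact (smul_eq_zero.1 h3).resolve_left two_ne_zero
  rcases Int.units_eq_one_or ε with rfl | rfl <;> rcases Int.units_eq_one_or ε' with rfl | rfl
  · rfl
  · exfalso; apply h1; simpa using h
  · exfalso; apply h1; simpa using h.symm
  · rfl

theorem zs_zs (ε ε' : ℤˣ) (u : V →L[ℂ] V) : (ε : ℤ) • (ε' : ℤ) • u = ((ε * ε' : ℤˣ) : ℤ) • u := by
  rw [smul_smul, Units.val_mul]

theorem Lf.ne_zero [Nontrivial V] {K : Cliff n V} {Q : Matrix (Fin n) (Fin n) ℝ} {u : V →L[ℂ] V}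
    (h : Lf K Q u) : u ≠ 0 := by
  rintro rfl
  obtain ⟨v, hv⟩ := exists_ne (0 : V)
  have := h.unit v v
  simp only [zero_apply, inner_zero_left] at this
  exact hv (inner_self_eq_zero.1 this.symm)

/-- continuity of signs -/
theorem cont_sign {Y : Type} [TopologicalSpace Y] {A B : Y → V →L[ℂ] V} {σ : Y → ℤˣ} {s : Set Y}
    {y : Y} (hA : ContinuousWithinAt A s y) (hB : ContinuousWithinAt B s y)
    (h : ∀ z ∈ s, B z = (σ z : ℤ) • A z) (hy : y ∈ s) (h0 : A y ≠ 0) :
    ContinuousWithinAt σ s y := by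
  -- `B z - σ y • A z → 0`, `B z + σ y • A z → 2 σ y • A y ≠ 0`
  have h1 : ContinuousWithinAt (fun z => B z + (σ y : ℤ) • A z) s y :=
    hB.add (hA.const_smul (σ y : ℤ))
  have h2 : B y + (σ y : ℤ) • A y ≠ 0 := by
    rw [h y hy, ← two_smul ℝ]
    refine smul_ne_zero two_ne_zero ?_
    rcases Int.units_eq_one_or (σ y) with h3 | h3 <;> rw [h3]
    · simpa using h0
    · simpa using h0
  have h3 : ∀ᶠ z in 𝓝[s] y, B z + (σ y : ℤ) • A z ≠ 0 := h1.eventually_ne h2
  refine (continuousWithinAt_const (b := σ y)).congr_of_eventuallyEq ?_ rfl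
  filter_upwards [h3, self_mem_nhdsWithin] with z hz hzs
  rw [h z hzs] at hz
  rcases Int.units_eq_one_or (σ z) with h4 | h4 <;> rcases Int.units_eq_one_or (σ y) with h5 | h5
  · rw [h4, h5]
  · exfalso; apply hz; rw [h4, h5]; simp
  · exfalso; apply hz; rw [h4, h5]; simp
  · rw [h4, h5]

end Sp0

section signs
variable {n : ℕ} {M X Γ I : Type} [TopologicalSpace M] [TopologicalSpace X] [Group Γ]
    [MulAction Γ X] {V : Type} [NormedAddCommGroup V] [InnerProductSpace ℂ V]
    {C : Cov n M X Γ I} {G : I → E n → Matrix (Fin n) (Fin n) ℝ} {K : Cliff n V}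

theorem lpc (C : Cov n M X Γ I) : LocallyPathConnectedSpace X := by
  rw [locallyPathConnectedSpace_iff_pathComponentIn_mem_nhds]
  intro x u hu hx
  obtain ⟨a, y, rfl⟩ := pt_cover (C := C) x
  have h1 : (pt C a) ⁻¹' u ∈ 𝓝 y := (hu.preimage (pt_emb a).continuous).mem_nhds hx
  obtain ⟨w, hw, hwu⟩ := (path_connected_basis y).mem_iff.1 h1
  refine Filter.mem_of_superset ((pt_emb a).isOpenMap.image_mem_nhds hw.1) ?_
  exact (hw.2.image (pt_emb a).continuous).subset_pathComponentIn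
    ⟨y, mem_of_mem_nhds hw.1, rfl⟩ (Set.image_subset_iff.2 hwu)

/-- coordinates in the chart `a` -/
noncomputable def cc (C : Cov n M X Γ I) (a : Γ × I) (x : X) : E n := C.co a.2 (a.1⁻¹ • x)

theorem cc_pt (a : Γ × I) (y : E n) : cc C a (pt C a y) = y := by
  unfold cc pt
  rw [inv_smul_smul, co_ψ]

theorem pt_cc {a : Γ × I} {x : X} (h : x ∈ Set.range (pt C a)) : pt C a (cc C a x) = x := by
  obtain ⟨y, rfl⟩ := h
  rw [cc_pt]

theorem cc_tt {a b : Γ × I} {y : E n} (h : y ∈ dm C a b) : cc C b (pt C a y) = tt C a b y := by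
  rw [← pt_tt h, cc_pt]

theorem cont_cc {Z : Type} [TopologicalSpace Z] {a : Γ × I} {f : E n → Z} {y : E n}
    (hf : ContinuousAt f y) : ContinuousAt (fun x => f (cc C a x)) (pt C a y) := by
  rw [← (pt_emb a).continuousAt_iff]
  have : (fun x => f (cc C a x)) ∘ pt C a = f := by
    funext z
    exact congrArg f (cc_pt a z)
  rwa [this]

variable [CompleteSpace V] [FiniteDimensional ℂ V] [Nontrivial V] (S : Sp0 C G K)

omit [CompleteSpace V] [FiniteDimensional ℂ V] [Nontrivial V] in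
theorem Rm_orthT {a b : Γ × I} {y : E n} (h : y ∈ dm C a b) :
    Rm (G b.2) (S.β a.2) (S.β b.2) (tt C a b) y *
      (Rm (G b.2) (S.β a.2) (S.β b.2) (tt C a b) y)ᵀ = 1 :=
  Rm_orth' (S.met.pos _) (S.fr _).orth (S.fr _).orth (Bas2.compat S.met h)

omit [CompleteSpace V] [FiniteDimensional ℂ V] [Nontrivial V] in
theorem lf_sh (g : Γ) {a b : Γ × I} {y : E n} (h : y ∈ dm C a b) :
    Lf K (Rm (G b.2) (S.β a.2) (S.β b.2) (tt C a b) y) (S.T (sh g a) (sh g b) y) := by
  have h1 := S.lf (sh g a) (sh g b) y (by rwa [dm_sh])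
  rw [tt_sh] at h1
  exact h1

open Classical in
/-- the sign -/
noncomputable def sgn (g : Γ) (a b : Γ × I) (y : E n) : ℤˣ :=
  if h : ∃ ε : ℤˣ, S.T (sh g a) (sh g b) y = (ε : ℤ) • S.T a b y then h.choose else 1

theorem sgn_spec (g : Γ) {a b : Γ × I} {y : E n} (h : y ∈ dm C a b) :
    S.T (sh g a) (sh g b) y = (sgn S g a b y : ℤ) • S.T a b y := by
  have h1 : ∃ ε : ℤˣ, S.T (sh g a) (sh g b) y = (ε : ℤ) • S.T a b y :=
    (S.lf a b y h).uniq (lf_sh S g h) (Rm_orthT S h)
  unfold sgn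
  rw [dif_pos h1]
  exact h1.choose_spec

theorem cont_sgn (g : Γ) {a b : Γ × I} {y : E n} (h : y ∈ dm C a b) :
    ContinuousAt (sgn S g a b) y := by
  have h1 := cont_sign (A := S.T a b) (B := S.T (sh g a) (sh g b)) (σ := sgn S g a b)
    (s := dm C a b) (y := y) (S.smooth a b y h).continuousAt.continuousWithinAt
    (S.smooth _ _ y (by rwa [dm_sh])).continuousAt.continuousWithinAt
    (fun z hz => sgn_spec S g hz) h (S.lf a b y h).ne_zero
  exact h1.continuousAt ((isOpen_dm a b).mem_nhds h)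

theorem exists_E [SimplyConnectedSpace X] (g : Γ) : ∃ e : Γ × I → ℤˣ, ∀ a b, ∀ y ∈ dm C a b,
    S.T (sh g a) (sh g b) y = ((e a * e b : ℤˣ) : ℤ) • S.T a b y := by
  have := lpc C
  obtain ⟨ε, h1, h2⟩ := coc_triv (fun a : Γ × I => Set.range (pt C a))
    (fun a => (pt_emb a).isOpen_range)
    (fun x => by obtain ⟨a, y, h⟩ := pt_cover (C := C) x; exact ⟨a, y, h⟩)
    (fun a b x => sgn S g a b (cc C a x))
    (fun a b x hx => by
      obtain ⟨⟨y, rfl⟩, hy⟩ := hx
      exact (cont_cc (cont_sgn S g (mem_dm_iff.2 hy))).continuousWithinAt)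
    (fun a b d x ha hb hd => by
      obtain ⟨y, rfl⟩ := ha
      have hab : y ∈ dm C a b := mem_dm_iff.2 hb
      have had : y ∈ dm C a d := mem_dm_iff.2 hd
      have hbd : tt C a b y ∈ dm C b d := mem_dm_iff.2 (by rwa [pt_tt hab])
      rw [cc_pt, cc_tt hab]
      have e1 := S.coc (sh g a) (sh g b) (sh g d) y (by rwa [dm_sh]) (by rwa [tt_sh, dm_sh])
      rw [tt_sh, sgn_spec S g hab, sgn_spec S g hbd, sgn_spec S g had, smul_mul_smul_comm,
        S.coc a b d y hab hbd, ← Units.val_mul] at e1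
      exact zs_eq (S.lf a d y had).ne_zero e1)
  have h3 : ∀ a (y : E n), ε a (pt C a y) = ε a (pt C a 0) := by
    intro a y
    refine PreconnectedSpace.constant (α := E n) inferInstance (f := fun y => ε a (pt C a y)) ?_
    exact (h1 a).comp_continuous (pt_emb a).continuous fun y => ⟨y, rfl⟩
  refine ⟨fun a => ε a (pt C a 0), fun a b y hy => ?_⟩
  have h4 := h2 a b (pt C a y) ⟨y, rfl⟩ (mem_dm_iff.1 hy)
  rw [cc_pt, h3 a] at h4
  rw [← pt_tt hy, h3 b] at h4
  rw [sgn_spec S g hy]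
  congr 2
  dsimp only
  rw [h4, mul_comm (sgn S g a b y), ← mul_assoc, Int.units_mul_self, one_mul]

/-- choice of the signs -/
theorem exists_Sp1 [SimplyConnectedSpace X] : ∃ S' : Sp1 C G K, S'.β = S.β := by
  choose e he using exists_E S
  set δ : Γ → Γ → Γ × I → ℤˣ := fun g h a => e (g * h) a * (e g (sh h a) * e h a) with hδ
  have sh_sh : ∀ (g h : Γ) (a : Γ × I), sh g (sh h a) = sh (g * h) a := by
    intro g h a; unfold sh; rw [mul_assoc]
  have h1 : ∀ g h a b, ∀ y ∈ dm C a b, δ g h a = δ g h b := by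
    intro g h a b y hy
    have e1 := he g (sh h a) (sh h b) y (by rwa [dm_sh])
    rw [sh_sh, sh_sh, he (g * h) a b y hy, he h a b y hy, zs_zs] at e1
    have e2 := zs_eq (S.lf a b y hy).ne_zero e1
    rw [hδ]
    dsimp only
    have e3 : (e (g * h) a * (e g (sh h a) * e h a)) * (e (g * h) b * (e g (sh h b) * e h b)) =
        1 := by
      calc (e (g * h) a * (e g (sh h a) * e h a)) * (e (g * h) b * (e g (sh h b) * e h b))
          = (e (g * h) a * e (g * h) b) *
            ((e g (sh h a) * e g (sh h b)) * (e h a * e h b)) := by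
            simp only [mul_comm, mul_left_comm, mul_assoc]
        _ = 1 := by rw [← e2, Int.units_mul_self]
    calc _ = (e (g * h) a * (e g (sh h a) * e h a)) * ((e (g * h) b * (e g (sh h b) * e h b)) *
          (e (g * h) b * (e g (sh h b) * e h b))) := by rw [Int.units_mul_self, mul_one]
      _ = _ := by rw [← mul_assoc, e3, one_mul]
  choose ch hch using pt_cover (C := C)
  have h2 : ∀ g h, ∃ z : ℤˣ, ∀ a, δ g h a = z := by
    intro g h
    have hcont : Continuous fun x : X => δ g h (ch x) := by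
      rw [continuous_iff_continuousAt]
      intro x
      refine (continuousAt_const (y := δ g h (ch x))).congr ?_
      obtain ⟨y, hy⟩ := hch x
      have : Set.range (pt C (ch x)) ∈ 𝓝 x := (pt_emb (ch x)).isOpen_range.mem_nhds ⟨y, hy⟩
      filter_upwards [this] with x' hx'
      obtain ⟨y', hy'⟩ := hx'
      obtain ⟨y'', hy''⟩ := hch x'
      exact h1 g h _ _ y' (mem_dm (hy'.trans hy''.symm)).1
    have hconn : ConnectedSpace X := inferInstance
    obtain ⟨x₀⟩ : Nonempty X := inferInstance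
    refine ⟨δ g h (ch x₀), fun a => ?_⟩
    have h3 : δ g h (ch (pt C a 0)) = δ g h (ch x₀) :=
      PreconnectedSpace.constant (α := X) inferInstance (f := fun x : X => δ g h (ch x)) hcont
    obtain ⟨y, hy⟩ := hch (pt C a 0)
    rw [← h3]
    exact h1 g h a _ 0 (mem_dm hy.symm).1
  choose z hz using h2
  have h4 : ∀ g h a, e (g * h) a = z g h * (e g (sh h a) * e h a) := by
    intro g h a
    rw [← hz g h a, hδ]
    dsimp only
    rw [mul_assoc, Int.units_mul_self, mul_one]
  set η : Γ × I → ℤˣ := fun a => e a.1 (1, a.2) with hη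
  have h5 : ∀ (g : Γ) (a : Γ × I), η (sh g a) = z g a.1 * (e g a * η a) := by
    intro g a
    rw [hη]
    change e (g * a.1) (1, a.2) = _
    rw [h4]
    congr 3
    exact Prod.ext (mul_one _) rfl
  refine ⟨{ met := S.met, β := S.β, fr := S.fr
            T := fun a b y => ((η a * η b : ℤˣ) : ℤ) • S.T a b y
            smooth := fun a b y hy => (S.smooth a b y hy).const_smul _
            lf := fun a b y hy => (S.lf a b y hy).sgn _
            coc := fun a b d y hy hy' => ?_
            one := fun a y => ?_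
            sg := z
            equi := fun g a b y hy => ?_ }, rfl⟩
  · rw [smul_mul_smul_comm, S.coc a b d y hy hy', ← Units.val_mul]
    congr 2
    calc η b * η d * (η a * η b) = (η b * η b) * (η a * η d) := by
          simp only [mul_comm, mul_left_comm, mul_assoc]
      _ = η a * η d := by rw [Int.units_mul_self, one_mul]
  · rw [Int.units_mul_self, Units.val_one, one_smul, S.one]
  · rw [he g a b y hy, zs_zs, zs_zs, h5, h5]
    congr 2
    calc z g a.1 * (e g a * η a) * (z g b.1 * (e g b * η b)) * (e g a * e g b)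
        = (z g a.1 * z g b.1) * (η a * η b) * ((e g a * e g b) * (e g a * e g b)) := by
          simp only [mul_comm, mul_left_comm, mul_assoc]
      _ = (z g a.1 * z g b.1) * (η a * η b) := by rw [Int.units_mul_self, mul_one]

/-- the structure `SpX` -/
noncomputable def Sp1.toSpX (S : Sp1 C G K) : SpX C G K where
  met := S.met
  β := S.β
  fr := S.fr
  T γ i γ' j := S.T (γ, i) (γ', j)
  sg g h := ((S.sg g h : ℤ) : ℂ)
  sg_sq a b := by
    rcases Int.units_eq_one_or (S.sg a b) with h | h <;> rw [h] <;> simp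
  smooth γ i γ' j y hy := (S.smooth (γ, i) (γ', j) y hy).contDiffWithinAt
  unit γ i γ' j y hy := (S.lf (γ, i) (γ', j) y hy).unit
  vol γ i γ' j y hy := W_vol (S.lf (γ, i) (γ', j) y hy).mem
  cliff γ i γ' j y hy l := by
    have h := cliff_Lf (S.met.pos j) (S.fr i) (S.fr j) (Bas2.compat S.met hy)
      (S.lf (γ, i) (γ', j) y hy) l
    have e : ∀ k, Jc C i j (γ'⁻¹ * γ) y l k = jac (C.tr i j (γ'⁻¹ * γ)) y l k := fun k =>
      fderiv_single (contDiffAt_tr C hy) k l
    simp only [e]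
    exact h
  conn γ i γ' j y hy k := by
    have hd : ∀ᶠ z in 𝓝 y, z ∈ C.dom i j (γ'⁻¹ * γ) := (isOpen_dom C i j _).mem_nhds hy
    have h := conn_Lf (Bas2.metOn S.met i) (Bas2.metOn S.met j) (contDiffAt_tr C hy)
      (hd.mono fun z hz => Bas2.compat S.met hz) (S.fr i) (S.fr j)
      (S.smooth (γ, i) (γ', j) y hy) (hd.mono fun z hz => S.lf (γ, i) (γ', j) z hz) k
    have e : ∀ l, Jc C i j (γ'⁻¹ * γ) y l k = jac (C.tr i j (γ'⁻¹ * γ)) y l k := fun l =>
      fderiv_single (contDiffAt_tr C hy) k l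
    simp only [e]
    exact h
  coc γ i γ' j γ'' k y hy hy' := S.coc (γ, i) (γ', j) (γ'', k) y hy hy'
  one γ i y := S.one (γ, i) y
  equi g γ i γ' j y hy := by
    have h := S.equi g (γ, i) (γ', j) y hy
    change S.T (g * γ, i) (g * γ', j) y = _ at h
    rw [h]
    rcases Int.units_eq_one_or (S.sg g γ) with h1 | h1 <;>
      rcases Int.units_eq_one_or (S.sg g γ') with h2 | h2 <;> rw [h1, h2] <;> simp

end signs

end Vale.Agent.P223.H441
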