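import Vale.Agent.P223.H441.CocG
import Vale.Agent.P223.H441.Sg
import Vale.Agent.P223.H765.Liou
import Vale.Agent.P223.H66.S2

/-! The developing map of a simply connected locally conformally flat manifold. -/

namespace Vale.Agent.P223.H441

open Vale.Agent.P223.H566 Vale.Agent.P223.H Vale.Agent.P223.X Vale.Agent.P223.H66
open Vale.Agent.P223.H765
open scoped ContDiff Topology Matrix InnerProductSpace

section lor

/-- Lorentz transformations -/
def Lor (n : ℕ) : Submonoid (Matrix (Fin (n + 2)) (Fin (n + 2)) ℝ) where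
  carrier := {A | ∀ v w, mkp (A *ᵥ v) (A *ᵥ w) = mkp v w}
  one_mem' := fun v w => by rw [Matrix.one_mulVec, Matrix.one_mulVec]
  mul_mem' := by
    intro A B hA hB v w
    rw [← Matrix.mulVec_mulVec, ← Matrix.mulVec_mulVec, hA, hB]

/-- the matrix -/
def mx {n : ℕ} (q : (Lor n)ˣ) : Matrix (Fin (n + 2)) (Fin (n + 2)) ℝ := ((q : Lor n) : Matrix _ _ ℝ)

theorem mx_mul {n : ℕ} (q r : (Lor n)ˣ) : mx (q * r) = mx q * mx r := rfl

theorem mx_one {n : ℕ} : mx (1 : (Lor n)ˣ) = 1 := rfl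

theorem mx_mkp {n : ℕ} (q : (Lor n)ˣ) (v w : Fin (n + 2) → ℝ) :
    mkp (mx q *ᵥ v) (mx q *ᵥ w) = mkp v w := (q : Lor n).2 v w

theorem mx_inj {n : ℕ} {q r : (Lor n)ˣ} (h : mx q = mx r) : q = r := Units.ext (Subtype.ext h)

end lor

section dev
variable {n : ℕ} {M X Γ I : Type} [TopologicalSpace M] [TopologicalSpace X] [Group Γ]
    [MulAction Γ X] {C : Cov n M X Γ I} {G : I → E n → Matrix (Fin n) (Fin n) ℝ}

theorem isOpen_trs {a b : Γ × I} {U : Set (E n)} (hU : IsOpen U) :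
    IsOpen {z | z ∈ dm C a b ∧ tt C a b z ∈ U} := by
  rw [isOpen_iff_mem_nhds]
  rintro z ⟨h1, h2⟩
  exact Filter.inter_mem ((isOpen_dm a b).mem_nhds h1)
    ((contDiffAt_tt h1).continuousAt.eventually_mem (hU.mem_nhds h2))

theorem LSol_tr (hm : MetX C G) {a b : Γ × I} {U : Set (E n)} (hU : IsOpen U)
    {F : E n → Fin (n + 2) → ℝ} (h : LSol (G b.2) U F) :
    LSol (G a.2) {z | z ∈ dm C a b ∧ tt C a b z ∈ U} (fun z => F (tt C a b z)) where
  smooth := fun z hz =>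
    ((h.cd hU hz.2).comp z (contDiffAt_tt hz.1)).contDiffWithinAt
  null := fun z hz => h.null _ hz.2
  iso := by
    intro z hz v w
    have e : ∀ v, fderiv ℝ (fun z => F (tt C a b z)) z v =
        fderiv ℝ F (tt C a b z) (fderiv ℝ (tt C a b) z v) := by
      intro v
      have := (h.df hU hz.2).hasFDerivAt.comp z
        ((contDiffAt_tt hz.1).differentiableAt (by simp)).hasFDerivAt
      have e : (fun z => F (tt C a b z)) = F ∘ tt C a b := rfl
      rw [e, this.fderiv, ContinuousLinearMap.comp_apply]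
    rw [e, e, h.iso _ hz.2]
    have h1 := hm.inv a.2 b.2 _ z hz.1 v w
    refine Eq.trans (Eq.trans ?_ h1) ?_
    · refine Finset.sum_congr rfl fun i _ => Finset.sum_congr rfl fun j _ => ?_
      unfold tt
      ring
    · refine Finset.sum_congr rfl fun i _ => Finset.sum_congr rfl fun j _ => by ring

/-- the indices of local solutions -/
abbrev Ix (Γ I : Type) (n : ℕ) := (Γ × I) × E n

/-- local solutions -/
structure Ls (C : Cov n M X Γ I) (G : I → E n → Matrix (Fin n) (Fin n) ℝ) where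
  N : Ix Γ I n → Set (E n)
  F : Ix Γ I n → E n → Fin (n + 2) → ℝ
  isOpen : ∀ α, IsOpen (N α)
  mem : ∀ α, α.2 ∈ N α
  sol : ∀ α, LSol (G α.1.2) (N α) (F α)

theorem exists_Ls (hL : LcfX C G) : Nonempty (Ls C G) := by
  have h : ∀ α : Ix Γ I n, ∃ (U : Set (E n)) (F : E n → Fin (n + 2) → ℝ), IsOpen U ∧
      α.2 ∈ U ∧ LSol (G α.1.2) U F ∧ ∀ y ∈ U, 0 < F y (Fin.last _) := fun α =>
    exists_LSol (hL α.1.2 α.2)
  choose U F h1 h2 h3 h4 using h
  exact ⟨⟨U, F, h1, h2, h3⟩⟩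

variable (L : Ls C G)

/-- the open set -/
def Ls.U (α : Ix Γ I n) : Set X := pt C α.1 '' L.N α

/-- the local solution as a function on `X` -/
noncomputable def Ls.Φ (α : Ix Γ I n) (x : X) : Fin (n + 2) → ℝ := L.F α (cc C α.1 x)

theorem Ls.isOpen_U (α : Ix Γ I n) : IsOpen (L.U α) := (pt_emb α.1).isOpenMap _ (L.isOpen α)

theorem Ls.cover (x : X) : ∃ α, x ∈ L.U α := by
  obtain ⟨a, y, rfl⟩ := pt_cover (C := C) x
  exact ⟨(a, y), y, L.mem (a, y), rfl⟩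

theorem Ls.Φ_pt (α : Ix Γ I n) (y : E n) : L.Φ α (pt C α.1 y) = L.F α y := by
  unfold Ls.Φ; rw [cc_pt]

theorem ev_pt {a : Γ × I} {y : E n} {P : X → Prop} (h : ∀ᶠ x in 𝓝 (pt C a y), P x) :
    ∀ᶠ z in 𝓝 y, P (pt C a z) := (pt_emb a).continuous.continuousAt.eventually h

theorem pt_ev {a : Γ × I} {y : E n} {P : X → Prop} (h : ∀ᶠ z in 𝓝 y, P (pt C a z)) :
    ∀ᶠ x in 𝓝 (pt C a y), P x := by
  have := (pt_emb (C := C) a).isOpenMap.image_mem_nhds h
  filter_upwards [this] with x hx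
  obtain ⟨z, hz, rfl⟩ := hx
  exact hz

theorem Ls.inj (hn : 1 ≤ n) (hm : MetX C G) (hL : LcfX C G) {α : Ix Γ I n} {x : X}
    (hx : x ∈ L.U α) {A A' : Matrix (Fin (n + 2)) (Fin (n + 2)) ℝ}
    (h : ∀ᶠ z in 𝓝 x, A *ᵥ L.Φ α z = A' *ᵥ L.Φ α z) : A = A' := by
  obtain ⟨y, hy, rfl⟩ := hx
  have h1 := ev_pt h
  simp only [L.Φ_pt] at h1
  exact LSol.inj hn (hm.pos _ y) (hL α.1.2 y) (L.isOpen α) hy (L.sol α) h1

theorem Ls.ex (hn : 3 ≤ n) (hm : MetX C G) (hL : LcfX C G) {α β : Ix Γ I n} {x : X}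
    (hx : x ∈ L.U α) (hx' : x ∈ L.U β) : ∃ A ∈ Lor n, ∀ᶠ z in 𝓝 x, L.Φ β z = A *ᵥ L.Φ α z := by
  obtain ⟨y, hy, rfl⟩ := hx
  obtain ⟨y', hy', he⟩ := hx'
  obtain ⟨h1, h2⟩ := mem_dm he.symm
  have hW : IsOpen (L.N α ∩ {z | z ∈ dm C α.1 β.1 ∧ tt C α.1 β.1 z ∈ L.N β}) :=
    (L.isOpen α).inter (isOpen_trs (L.isOpen β))
  have hyW : y ∈ L.N α ∩ {z | z ∈ dm C α.1 β.1 ∧ tt C α.1 β.1 z ∈ L.N β} :=
    ⟨hy, h1, by rwa [h2]⟩
  obtain ⟨A, hA, h3⟩ := LSol.unique hn (hm.pos _ y) (hL α.1.2 y) hW hyW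
    ((L.sol α).mono Set.inter_subset_left)
    ((LSol_tr hm (L.isOpen β) (L.sol β)).mono Set.inter_subset_right)
  refine ⟨A, hA, pt_ev ?_⟩
  filter_upwards [h3, hW.mem_nhds hyW] with z hz1 hz2
  rw [L.Φ_pt, ← hz1]
  unfold Ls.Φ
  rw [cc_tt hz2.2.1]

theorem Ls.exq (hn : 3 ≤ n) (hm : MetX C G) (hL : LcfX C G) {α β : Ix Γ I n} {x : X}
    (hx : x ∈ L.U α) (hx' : x ∈ L.U β) :
    ∃ q : (Lor n)ˣ, ∀ᶠ z in 𝓝 x, L.Φ β z = mx q *ᵥ L.Φ α z := by
  obtain ⟨A, hA, h1⟩ := L.ex hn hm hL hx hx'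
  obtain ⟨B, hB, h2⟩ := L.ex hn hm hL hx' hx
  have e1 : B * A = 1 := L.inj (by omega) hm hL hx (by
    filter_upwards [h1, h2] with z hz1 hz2
    rw [← Matrix.mulVec_mulVec, ← hz1, ← hz2, Matrix.one_mulVec])
  have e2 : A * B = 1 := L.inj (by omega) hm hL hx' (by
    filter_upwards [h1, h2] with z hz1 hz2
    rw [← Matrix.mulVec_mulVec, ← hz2, ← hz1, Matrix.one_mulVec])
  exact ⟨⟨⟨A, hA⟩, ⟨B, hB⟩, Subtype.ext e2, Subtype.ext e1⟩, h1⟩

open Classical in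
/-- the transition functions -/
noncomputable def Ls.σ (α β : Ix Γ I n) (x : X) : (Lor n)ˣ :=
  if h : ∃ q : (Lor n)ˣ, ∀ᶠ z in 𝓝 x, L.Φ β z = mx q *ᵥ L.Φ α z then h.choose else 1

theorem Ls.σ_spec (hn : 3 ≤ n) (hm : MetX C G) (hL : LcfX C G) {α β : Ix Γ I n} {x : X}
    (hx : x ∈ L.U α) (hx' : x ∈ L.U β) :
    ∀ᶠ z in 𝓝 x, L.Φ β z = mx (L.σ α β x) *ᵥ L.Φ α z := by
  have h := L.exq hn hm hL hx hx'
  have : L.σ α β x = h.choose := dif_pos h
  rw [this]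
  exact h.choose_spec

theorem Ls.σ_uniq (hn : 3 ≤ n) (hm : MetX C G) (hL : LcfX C G) {α β : Ix Γ I n} {x : X}
    (hx : x ∈ L.U α) (hx' : x ∈ L.U β) {q : (Lor n)ˣ}
    (h : ∀ᶠ z in 𝓝 x, L.Φ β z = mx q *ᵥ L.Φ α z) : L.σ α β x = q := by
  refine mx_inj (L.inj (by omega) hm hL hx ?_)
  filter_upwards [L.σ_spec hn hm hL hx hx', h] with z h1 h2
  rw [← h1, h2]

/-- The developing map. -/
theorem exists_dev [SimplyConnectedSpace X] (hn : 3 ≤ n) (hm : MetX C G) (hL : LcfX C G) :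
    ∃ Ψ : X → Fin (n + 2) → ℝ, ∀ (a : Γ × I) (y : E n), ∃ (U : Set (E n))
      (F : E n → Fin (n + 2) → ℝ), IsOpen U ∧ y ∈ U ∧ LSol (G a.2) U F ∧
        ∀ᶠ z in 𝓝 y, Ψ (pt C a z) = F z := by
  have hlpc := lpc C
  obtain ⟨L⟩ := exists_Ls hL
  obtain ⟨ε, h1, h2⟩ := coc_trivG L.U L.isOpen_U L.cover L.σ (fun α β x hx => by
      have h3 := L.σ_spec hn hm hL hx.1 hx.2
      filter_upwards [eventually_eventually_nhds.2 h3, (L.isOpen_U α).mem_nhds hx.1,
        (L.isOpen_U β).mem_nhds hx.2] with z hz1 hz2 hz3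
      exact L.σ_uniq hn hm hL hz2 hz3 hz1) (fun α β δ x ha hb hd => by
      refine (L.σ_uniq hn hm hL ha hd ?_).symm
      filter_upwards [L.σ_spec hn hm hL ha hb, L.σ_spec hn hm hL hb hd] with z hz1 hz2
      rw [hz2, hz1, mx_mul, Matrix.mulVec_mulVec])
  choose α hα using L.cover
  have key : ∀ β x, x ∈ L.U β →
      mx (ε (α x) x)⁻¹ *ᵥ L.Φ (α x) x = mx (ε β x)⁻¹ *ᵥ L.Φ β x := by
    intro β x hx
    have e1 := h2 β (α x) x hx (hα x)
    have e2 := (L.σ_spec hn hm hL hx (hα x)).self_of_nhds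
    rw [e1, e2, mul_inv_rev, mx_mul, Matrix.mulVec_mulVec, Matrix.mul_assoc, ← mx_mul (L.σ _ _ _)⁻¹,
      inv_mul_cancel, mx_one, Matrix.mul_one]
  refine ⟨fun x => mx (ε (α x) x)⁻¹ *ᵥ L.Φ (α x) x, fun a y => ?_⟩
  have hy : pt C a y ∈ L.U (a, y) := ⟨y, L.mem (a, y), rfl⟩
  refine ⟨L.N (a, y), fun z => mx (ε (a, y) (pt C a y))⁻¹ *ᵥ L.F (a, y) z, L.isOpen _, L.mem (a, y),
    (L.sol (a, y)).mul (L.isOpen _) (mx_mkp _), ?_⟩
  filter_upwards [ev_pt (h1 (a, y) _ hy), (L.isOpen (a, y)).mem_nhds (L.mem (a, y))] with z hz1 hz2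
  have hz : pt C a z ∈ L.U (a, y) := ⟨z, hz2, rfl⟩
  rw [key _ _ hz, hz1]
  congr 1
  exact L.Φ_pt (a, y) z

/-- Simply connected locally conformally flat manifolds have isometric immersions into the light
cone. -/
theorem exists_DevX [SimplyConnectedSpace X] (hn : 3 ≤ n) (hm : MetX C G) (hL : LcfX C G) :
    ∃ (D : Fin (n + 1) → X → ℝ) (t : X → ℝ), DevX C G D t := by
  obtain ⟨Ψ, hΨ⟩ := exists_dev hn hm hL
  have hsm : ∀ k, C.Ck ∞ fun x => Ψ x k := by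
    intro k γ i
    rw [contDiff_iff_contDiffAt]
    intro y
    obtain ⟨U, F, hU, hy, hF, h1⟩ := hΨ (γ, i) y
    have h2 : C.rep (fun x => Ψ x k) γ i =ᶠ[𝓝 y] fun z => F z k := by
      filter_upwards [h1] with z hz
      exact congrFun hz k
    exact (contDiffAt_pi.1 (hF.cd hU hy) k).congr_of_eventuallyEq h2
  have hpd : ∀ (a : Γ × I) (y : E n), ∃ (U : Set (E n)) (F : E n → Fin (n + 2) → ℝ), IsOpen U ∧
      y ∈ U ∧ LSol (G a.2) U F ∧ Ψ (pt C a y) = F y ∧ ∀ k l,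
        H.pd l (C.rep (fun x => Ψ x k) a.1 a.2) y = fderiv ℝ F y (Pi.single l 1) k := by
    intro a y
    obtain ⟨U, F, hU, hy, hF, h1⟩ := hΨ a y
    refine ⟨U, F, hU, hy, hF, h1.self_of_nhds, fun k l => ?_⟩
    have h2 : C.rep (fun x => Ψ x k) a.1 a.2 =ᶠ[𝓝 y] fun z => F z k := by
      filter_upwards [h1] with z hz
      exact congrFun hz k
    unfold H.pd
    rw [h2.fderiv_eq]
    have h3 := hasFDerivAt_pi'.1 (hF.df hU hy).hasFDerivAt k
    rw [h3.fderiv]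
    rfl
  have hnull : ∀ x, mkp (Ψ x) (Ψ x) = 0 := by
    intro x
    obtain ⟨a, y, rfl⟩ := pt_cover (C := C) x
    obtain ⟨U, F, hU, hy, hF, h1, -⟩ := hpd a y
    rw [h1]
    exact hF.null y hy
  have hne : ∀ x, Ψ x (Fin.last _) ≠ 0 := by
    intro x h0
    have h1 := hnull x
    obtain ⟨a, y, rfl⟩ := pt_cover (C := C) x
    obtain ⟨U, F, hU, hy, hF, h2, -⟩ := hpd a y
    refine LSol.ne (by omega) (hm.pos _ y) hU hy hF ?_
    rw [← h2]
    unfold mkp at h1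
    rw [h0, mul_zero, sub_zero] at h1
    have h3 := (Finset.sum_eq_zero_iff_of_nonneg fun k _ => mul_self_nonneg _).1 h1
    funext k
    refine Fin.lastCases h0 (fun k => ?_) k
    exact mul_self_eq_zero.1 (h3 k (Finset.mem_univ _))
  have hcont : Continuous fun x => Ψ x (Fin.last _) :=
    Vale.Agent.P223.X.Ck_continuous C fun γ i => (hsm _ γ i).of_le (by simp)
  -- the sign of the last coordinate
  obtain ⟨s, hs, hpos⟩ : ∃ s : ℝ, s * s = 1 ∧ ∀ x, 0 < s * Ψ x (Fin.last _) := by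
    have h1 : IsClopen {x | 0 < Ψ x (Fin.last _)} := by
      refine ⟨?_, isOpen_lt continuous_const hcont⟩
      have : {x | 0 < Ψ x (Fin.last _)} = {x | 0 ≤ Ψ x (Fin.last _)} := by
        ext x
        change 0 < Ψ x (Fin.last _) ↔ 0 ≤ Ψ x (Fin.last _)
        exact ⟨le_of_lt, fun h => lt_of_le_of_ne h (hne x).symm⟩
      rw [this]
      exact isClosed_le continuous_const hcont
    rcases isClopen_iff.1 h1 with h2 | h2
    · refine ⟨-1, by norm_num, fun x => ?_⟩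
      have h3 : ¬ 0 < Ψ x (Fin.last _) := fun h => by
        have : x ∈ {x | 0 < Ψ x (Fin.last _)} := h
        rw [h2] at this
        exact this
      have h4 := lt_of_le_of_ne (not_lt.1 h3) (hne x)
      linarith
    · refine ⟨1, by norm_num, fun x => ?_⟩
      have : x ∈ {x | 0 < Ψ x (Fin.last _)} := by rw [h2]; trivial
      rw [one_mul]
      exact this
  refine ⟨fun k x => s * Ψ x k.castSucc, fun x => s * Ψ x (Fin.last _), fun k γ i =>
    contDiff_const.mul (hsm _ γ i), fun γ i => contDiff_const.mul (hsm _ γ i), hpos, fun x => ?_,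
    fun γ i y a b => ?_⟩
  · have h1 := hnull x
    unfold mkp at h1
    have h7 : ∀ k : Fin (n + 1), (s * Ψ x k.castSucc) ^ 2 =
        (s * s) * (Ψ x k.castSucc * Ψ x k.castSucc) := fun k => by ring
    rw [Finset.sum_congr rfl fun k _ => h7 k, ← Finset.mul_sum]
    linear_combination (s * s) * h1
  · obtain ⟨U, F, hU, hy, hF, -, h2⟩ := hpd (γ, i) y
    have h3 : ∀ k l, H.pd l (C.rep (fun x => s * Ψ x k) γ i) y =
        s * fderiv ℝ F y (Pi.single l 1) k := by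
      intro k l
      have : C.rep (fun x => s * Ψ x k) γ i = fun z => s * C.rep (fun x => Ψ x k) γ i z := rfl
      rw [this, H.pd, fderiv_const_mul ((hsm k γ i).contDiffAt.differentiableAt (by simp)), ← h2 k l]
      rfl
    have h4 := hF.iso y hy (Pi.single a 1) (Pi.single b 1)
    have h5 : ∑ k, ∑ l, G i y k l * (Pi.single a (1 : ℝ) : E n) k * (Pi.single b (1 : ℝ) : E n) l =
        G i y a b := by
      simp [Pi.single_apply]
    simp only [h3]
    have h6 : mkp (fderiv ℝ F y (Pi.single a 1)) (fderiv ℝ F y (Pi.single b 1)) = G i y a b :=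
      h4.trans h5
    rw [← h6]
    unfold mkp
    have h7 : ∀ k : Fin (n + 1), s * fderiv ℝ F y (Pi.single a 1) k.castSucc *
        (s * fderiv ℝ F y (Pi.single b 1) k.castSucc) =
        (s * s) * (fderiv ℝ F y (Pi.single a 1) k.castSucc *
          fderiv ℝ F y (Pi.single b 1) k.castSucc) := fun k => by ring
    rw [Finset.sum_congr rfl fun k _ => h7 k, ← Finset.mul_sum]
    rw [mul_mul_mul_comm s _ s _, hs, one_mul, one_mul]

end dev

theorem specDev : SpecDev := by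
  intro n M X Γ I _ _ _ _ _ _ _ _ C G hn hm hL
  exact exists_DevX hn hm hL

end Vale.Agent.P223.H441
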