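import Vale.Agent.P223.MathlibUsed
import Mathlib.Analysis.CStarAlgebra.Matrix
import Mathlib.Analysis.Calculus.InverseFunctionTheorem.ContDiff

/-! The square root of matrices near `1`. -/

namespace Vale.Agent.P223.H441

open scoped ContDiff Topology Matrix Matrix.Norms.L2Operator

section sqrt
variable {n : ℕ}

/-- squaring -/
def sqm (B : Matrix (Fin n) (Fin n) ℝ) : Matrix (Fin n) (Fin n) ℝ := B * B

/-- the neighbourhood of `1` -/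
def UU (n : ℕ) : Set (Matrix (Fin n) (Fin n) ℝ) := Metric.ball 1 1

theorem mem_UU {B : Matrix (Fin n) (Fin n) ℝ} : B ∈ UU n ↔ ‖B - 1‖ < 1 := mem_ball_iff_norm

theorem sqm_inj {B D : Matrix (Fin n) (Fin n) ℝ} (hB : B ∈ UU n) (hD : D ∈ UU n)
    (h : sqm B = sqm D) : B = D := by
  rw [mem_UU] at hB hD
  have h1 : (2 : ℝ) • (B - D) = -((B - 1) * (B - D) + (B - D) * (D - 1)) := by
    have h2 : B * B = D * D := h
    have h3 : (B - 1) * (B - D) + (B - D) * (D - 1) = B * B - D * D - (2 : ℝ) • (B - D) := by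
      rw [two_smul]; noncomm_ring
    rw [h3, h2, sub_self, zero_sub, neg_neg]
  have h4 := congrArg norm h1
  rw [norm_smul, norm_neg, Real.norm_ofNat] at h4
  have h5 : ‖(B - 1) * (B - D) + (B - D) * (D - 1)‖ ≤
      ‖B - 1‖ * ‖B - D‖ + ‖B - D‖ * ‖D - 1‖ :=
    (norm_add_le _ _).trans (add_le_add (norm_mul_le _ _) (norm_mul_le _ _))
  have h6 : ‖B - D‖ = 0 := by
    by_contra h7
    have h8 : 0 < ‖B - D‖ := lt_of_le_of_ne (norm_nonneg _) (Ne.symm h7)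
    nlinarith
  exact sub_eq_zero.1 (norm_eq_zero.1 h6)

/-- the derivative of squaring -/
noncomputable def dsq (B : Matrix (Fin n) (Fin n) ℝ) :
    Matrix (Fin n) (Fin n) ℝ →L[ℝ] Matrix (Fin n) (Fin n) ℝ :=
  ContinuousLinearMap.mul ℝ _ B + (ContinuousLinearMap.mul ℝ _).flip B

theorem dsq_apply (B Y : Matrix (Fin n) (Fin n) ℝ) : dsq B Y = B * Y + Y * B := rfl

theorem dsq_inj {B : Matrix (Fin n) (Fin n) ℝ} (hB : B ∈ UU n) :
    Function.Injective (dsq B : Matrix (Fin n) (Fin n) ℝ →ₗ[ℝ] Matrix (Fin n) (Fin n) ℝ) := by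
  rw [mem_UU] at hB
  rw [injective_iff_map_eq_zero]
  intro Y hY
  have h1 : B * Y + Y * B = 0 := hY
  have h2 : (2 : ℝ) • Y = -((B - 1) * Y + Y * (B - 1)) := by
    have h3 : (B - 1) * Y + Y * (B - 1) = (B * Y + Y * B) - (2 : ℝ) • Y := by
      rw [two_smul]; noncomm_ring
    rw [h3, h1, zero_sub, neg_neg]
  have h4 := congrArg norm h2
  rw [norm_smul, norm_neg, Real.norm_ofNat] at h4
  have h5 : ‖(B - 1) * Y + Y * (B - 1)‖ ≤ ‖B - 1‖ * ‖Y‖ + ‖Y‖ * ‖B - 1‖ :=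
    (norm_add_le _ _).trans (add_le_add (norm_mul_le _ _) (norm_mul_le _ _))
  by_contra h7
  have h8 : 0 < ‖Y‖ := norm_pos_iff.2 h7
  nlinarith

/-- the derivative of squaring as an equivalence -/
noncomputable def dsqE {B : Matrix (Fin n) (Fin n) ℝ} (hB : B ∈ UU n) :
    Matrix (Fin n) (Fin n) ℝ ≃L[ℝ] Matrix (Fin n) (Fin n) ℝ :=
  (LinearEquiv.ofInjectiveEndo _ (dsq_inj hB)).toContinuousLinearEquiv

theorem dsqE_coe {B : Matrix (Fin n) (Fin n) ℝ} (hB : B ∈ UU n) :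
    (dsqE hB : Matrix (Fin n) (Fin n) ℝ →L[ℝ] Matrix (Fin n) (Fin n) ℝ) = dsq B := by
  ext1 Y
  rfl

theorem hasFDerivAt_sqm (B : Matrix (Fin n) (Fin n) ℝ) : HasFDerivAt sqm (dsq B) B := by
  have h := (hasFDerivAt_id (𝕜 := ℝ) B).mul' (hasFDerivAt_id (𝕜 := ℝ) B)
  exact h

theorem contDiff_sqm : ContDiff ℝ ∞ (sqm (n := n)) := contDiff_id.mul contDiff_id

open Classical in
/-- the square root -/
noncomputable def rho (A : Matrix (Fin n) (Fin n) ℝ) : Matrix (Fin n) (Fin n) ℝ :=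
  if h : ∃ B ∈ UU n, sqm B = A then h.choose else 1

/-- the domain of the square root -/
def NN' (n : ℕ) : Set (Matrix (Fin n) (Fin n) ℝ) := sqm '' UU n

theorem rho_mem {A : Matrix (Fin n) (Fin n) ℝ} (h : A ∈ NN' n) : rho A ∈ UU n ∧ sqm (rho A) = A := by
  have h1 : ∃ B ∈ UU n, sqm B = A := h
  unfold rho
  rw [dif_pos h1]
  exact h1.choose_spec

theorem rho_sqm {B : Matrix (Fin n) (Fin n) ℝ} (h : B ∈ UU n) : rho (sqm B) = B :=
  sqm_inj (rho_mem ⟨B, h, rfl⟩).1 h (rho_mem ⟨B, h, rfl⟩).2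

theorem contDiffAt_rho {A : Matrix (Fin n) (Fin n) ℝ} (h : A ∈ NN' n) : ContDiffAt ℝ ∞ rho A := by
  obtain ⟨B, hB, rfl⟩ := h
  have h1 : ContDiffAt ℝ ∞ (sqm (n := n)) B := contDiff_sqm.contDiffAt
  have h2 : HasFDerivAt sqm (dsqE hB : Matrix (Fin n) (Fin n) ℝ →L[ℝ] _) B := by
    rw [dsqE_coe]; exact hasFDerivAt_sqm B
  have h3 := h1.to_localInverse h2 (by simp)
  refine h3.congr_of_eventuallyEq ?_
  refine (h1.hasStrictFDerivAt' h2 (by simp)).localInverse_unique ?_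
  filter_upwards [Metric.isOpen_ball.mem_nhds hB] with D hD
  exact rho_sqm hD

theorem NN'_nhds : NN' n ∈ 𝓝 (1 : Matrix (Fin n) (Fin n) ℝ) := by
  have h0 : (1 : Matrix (Fin n) (Fin n) ℝ) ∈ UU n := by rw [mem_UU, sub_self, norm_zero]; norm_num
  have h1 : ContDiffAt ℝ ∞ (sqm (n := n)) 1 := contDiff_sqm.contDiffAt
  have h2 : HasFDerivAt sqm (dsqE h0 : Matrix (Fin n) (Fin n) ℝ →L[ℝ] _) 1 := by
    rw [dsqE_coe]; exact hasFDerivAt_sqm 1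
  have h3 : Filter.map (sqm (n := n)) (𝓝 1) = 𝓝 (sqm 1) :=
    (h1.hasStrictFDerivAt' h2 (by simp)).map_nhds_eq_of_equiv
  have h4 : sqm (1 : Matrix (Fin n) (Fin n) ℝ) = 1 := Matrix.one_mul 1
  rw [h4] at h3
  rw [← h3]
  exact Filter.image_mem_map (Metric.isOpen_ball.mem_nhds h0)

theorem norm_T (A : Matrix (Fin n) (Fin n) ℝ) : ‖Aᵀ‖ = ‖A‖ := by
  rw [← Matrix.conjTranspose_eq_transpose_of_trivial]
  exact Matrix.l2_opNorm_conjTranspose A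

theorem norm_orth_le {Q : Matrix (Fin n) (Fin n) ℝ} (hQ : Qᵀ * Q = 1)
    (A : Matrix (Fin n) (Fin n) ℝ) : ‖Qᵀ * A * Q‖ ≤ ‖A‖ := by
  have h1 : ‖Q‖ * ‖Q‖ = ‖(1 : Matrix (Fin n) (Fin n) ℝ)‖ := by
    rw [← hQ, ← Matrix.conjTranspose_eq_transpose_of_trivial]
    exact (Matrix.l2_opNorm_conjTranspose_mul_self Q).symm
  have h2 : ‖(1 : Matrix (Fin n) (Fin n) ℝ)‖ ≤ 1 := by
    rcases Nat.eq_zero_or_pos n with rfl | hn
    · have : (1 : Matrix (Fin 0) (Fin 0) ℝ) = 0 := Subsingleton.elim _ _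
      rw [this, norm_zero]; norm_num
    · have : Nonempty (Fin n) := ⟨⟨0, hn⟩⟩
      rw [← Matrix.diagonal_one, Matrix.l2_opNorm_diagonal]
      exact (pi_norm_le_iff_of_nonneg zero_le_one).2 fun i => by simp
  calc ‖Qᵀ * A * Q‖ ≤ ‖Qᵀ‖ * ‖A‖ * ‖Q‖ :=
        (norm_mul_le _ _).trans (mul_le_mul_of_nonneg_right (norm_mul_le _ _) (norm_nonneg _))
    _ = (‖Q‖ * ‖Q‖) * ‖A‖ := by rw [norm_T]; ring
    _ ≤ ‖A‖ := by rw [h1]; exact mul_le_of_le_one_left (norm_nonneg _) h2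

theorem UU_conj {Q B : Matrix (Fin n) (Fin n) ℝ} (hQ : Qᵀ * Q = 1) (hB : B ∈ UU n) :
    Qᵀ * B * Q ∈ UU n := by
  rw [mem_UU] at hB ⊢
  have : Qᵀ * B * Q - 1 = Qᵀ * (B - 1) * Q := by
    rw [Matrix.mul_sub, Matrix.sub_mul, Matrix.mul_one, hQ]
  rw [this]
  exact (norm_orth_le hQ _).trans_lt hB

theorem UU_T {B : Matrix (Fin n) (Fin n) ℝ} (hB : B ∈ UU n) : Bᵀ ∈ UU n := by
  rw [mem_UU] at hB ⊢
  have : Bᵀ - 1 = (B - 1)ᵀ := by rw [Matrix.transpose_sub, Matrix.transpose_one]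
  rwa [this, norm_T]

theorem NN'_conj {Q A : Matrix (Fin n) (Fin n) ℝ} (hQ : Qᵀ * Q = 1) (hA : A ∈ NN' n) :
    Qᵀ * A * Q ∈ NN' n ∧ rho (Qᵀ * A * Q) = Qᵀ * rho A * Q := by
  obtain ⟨B, hB, rfl⟩ := hA
  have hQ' : Q * Qᵀ = 1 := mul_eq_one_comm.1 hQ
  have h1 : sqm (Qᵀ * B * Q) = Qᵀ * sqm B * Q := by
    unfold sqm
    calc Qᵀ * B * Q * (Qᵀ * B * Q) = Qᵀ * B * (Q * Qᵀ) * B * Q := by
          simp only [Matrix.mul_assoc]
      _ = Qᵀ * (B * B) * Q := by rw [hQ', Matrix.mul_one]; simp only [Matrix.mul_assoc]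
  refine ⟨⟨_, UU_conj hQ hB, h1⟩, ?_⟩
  rw [← h1, rho_sqm (UU_conj hQ hB), rho_sqm hB]

theorem rho_T {A : Matrix (Fin n) (Fin n) ℝ} (hA : A ∈ NN' n) (hs : Aᵀ = A) :
    (rho A)ᵀ = rho A := by
  obtain ⟨h1, h2⟩ := rho_mem hA
  refine sqm_inj (UU_T h1) h1 ?_
  rw [h2]
  have : sqm (rho A)ᵀ = (sqm (rho A))ᵀ := (Matrix.transpose_mul _ _).symm
  rw [this, h2, hs]

theorem isUnit_UU {B : Matrix (Fin n) (Fin n) ℝ} (hB : B ∈ UU n) : IsUnit B := by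
  rw [mem_UU] at hB
  have h1 : IsUnit (1 - (1 - B)) := isUnit_one_sub_of_norm_lt_one (by rwa [norm_sub_rev])
  rwa [sub_sub_cancel] at h1

theorem det_UU {B : Matrix (Fin n) (Fin n) ℝ} (hB : B ∈ UU n) : 0 < B.det := by
  -- the segment from `1` to `B`
  have h1 : ∀ t ∈ Set.Icc (0 : ℝ) 1, ((1 : Matrix (Fin n) (Fin n) ℝ) + t • (B - 1)).det ≠ 0 := by
    intro t ht
    have h2 : (1 : Matrix (Fin n) (Fin n) ℝ) + t • (B - 1) ∈ UU n := by
      rw [mem_UU] at hB ⊢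
      rw [add_sub_cancel_left, norm_smul, Real.norm_of_nonneg ht.1]
      exact lt_of_le_of_lt (mul_le_of_le_one_left (norm_nonneg _) ht.2) hB
    exact ((Matrix.isUnit_iff_isUnit_det _).1 (isUnit_UU h2)).ne_zero
  have h3 : ContinuousOn (fun t : ℝ => ((1 : Matrix (Fin n) (Fin n) ℝ) + t • (B - 1)).det)
      (Set.Icc 0 1) := by
    apply Continuous.continuousOn
    fun_prop
  by_contra h4
  have h5 : B.det ≤ 0 := not_lt.1 h4
  have h6 : (0 : ℝ) ∈ (fun t : ℝ => ((1 : Matrix (Fin n) (Fin n) ℝ) + t • (B - 1)).det) ''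
      Set.Icc 0 1 := by
    refine intermediate_value_Icc' zero_le_one h3 ⟨?_, ?_⟩
    · simpa using h5
    · simp
  obtain ⟨t, ht, h7⟩ := h6
  exact h1 t ht h7

end sqrt

end Vale.Agent.P223.H441
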