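import Vale.Agent.P223.H441.Sg
import Vale.Agent.P223.H441.Sqrt

/-! Change of the metric. -/

namespace Vale.Agent.P223.H441

open Vale.Agent.P223.H566 Vale.Agent.P223.H Vale.Agent.P223.X
open scoped ContDiff Topology Matrix Matrix.Norms.L2Operator

section ent
variable {n : ℕ} {F : Type} [NormedAddCommGroup F] [NormedSpace ℝ F]

theorem cd_of_entries {A : F → Matrix (Fin n) (Fin n) ℝ} {y : F}
    (h : ∀ a b, ContDiffAt ℝ ∞ (fun z => A z a b) y) : ContDiffAt ℝ ∞ A y := by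
  have e : A = fun z => ∑ a, ∑ b, A z a b • Matrix.single a b (1 : ℝ) := by
    funext z
    conv_lhs => rw [Matrix.matrix_eq_sum_single (A z)]
    refine Finset.sum_congr rfl fun a _ => Finset.sum_congr rfl fun b _ => ?_
    rw [Matrix.smul_single, smul_eq_mul, mul_one]
  rw [e]
  exact ContDiffAt.sum fun a _ => ContDiffAt.sum fun b _ => (h a b).smul contDiffAt_const

theorem cd_entry {A : F → Matrix (Fin n) (Fin n) ℝ} {y : F} (h : ContDiffAt ℝ ∞ A y)
    (a b : Fin n) : ContDiffAt ℝ ∞ (fun z => A z a b) y := by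
  let L : Matrix (Fin n) (Fin n) ℝ →L[ℝ] ℝ :=
    LinearMap.toContinuousLinearMap (Matrix.entryLinearMap ℝ ℝ a b)
  exact L.contDiff.contDiffAt.comp y h

end ent

section step
variable {n : ℕ} {M X Γ I : Type} [TopologicalSpace M] [TopologicalSpace X] [Group Γ]
    [MulAction Γ X] {V : Type} [NormedAddCommGroup V] [InnerProductSpace ℂ V]
    {C : Cov n M X Γ I} {G G₁ : I → E n → Matrix (Fin n) (Fin n) ℝ} {K : Cliff n V}

/-- the new frames -/
noncomputable def nfr (G₁ β : I → E n → Matrix (Fin n) (Fin n) ℝ) (i : I) (y : E n) :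
    Matrix (Fin n) (Fin n) ℝ := (rho (β i y * G₁ i y * (β i y)ᵀ))⁻¹ * β i y

theorem cd_gr {β : I → E n → Matrix (Fin n) (Fin n) ℝ} {i : I} {y : E n}
    (hG : ∀ a b, ContDiffAt ℝ ∞ (fun z => G₁ i z a b) y)
    (hβ : ∀ a b, ContDiffAt ℝ ∞ (fun z => β i z a b) y) :
    ContDiffAt ℝ ∞ (fun z => β i z * G₁ i z * (β i z)ᵀ) y := by
  have h1 := cd_of_entries hG
  have h2 := cd_of_entries hβ
  have h3 : ContDiffAt ℝ ∞ (fun z => (β i z)ᵀ) y := cd_of_entries fun a b => hβ b a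
  exact (h2.mul h1).mul h3

theorem nfr_fr (h₁ : MetX C G₁) {β : I → E n → Matrix (Fin n) (Fin n) ℝ}
    (hfr : ∀ i, Fr (G i) (β i)) (hN : ∀ i y, β i y * G₁ i y * (β i y)ᵀ ∈ NN' n) (i : I) :
    Fr (G₁ i) (nfr G₁ β i) := by
  have hu : ∀ y, IsUnit (rho (β i y * G₁ i y * (β i y)ᵀ)) := fun y => isUnit_UU (rho_mem (hN i y)).1
  have hsym : ∀ y, (β i y * G₁ i y * (β i y)ᵀ)ᵀ = β i y * G₁ i y * (β i y)ᵀ := by
    intro y
    rw [Matrix.transpose_mul, Matrix.transpose_mul, Matrix.transpose_transpose,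
      symm_of_posDef (h₁.pos i y), Matrix.mul_assoc]
  refine ⟨fun a k => contDiff_iff_contDiffAt.2 fun y => ?_, fun y => ?_, fun y => ?_⟩
  · refine cd_entry (A := fun z => nfr G₁ β i z) ?_ a k
    have h1 := cd_gr (β := β) (i := i) (y := y) (fun a b => (h₁.smooth i a b).contDiffAt)
      (fun a b => ((hfr i).smooth a b).contDiffAt)
    have h2 : ContDiffAt ℝ ∞ (fun z => rho (β i z * G₁ i z * (β i z)ᵀ)) y :=
      ContDiffAt.comp (g := rho) y (contDiffAt_rho (hN i y)) h1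
    have h3 : ContDiffAt ℝ ∞ (fun z => (rho (β i z * G₁ i z * (β i z)ᵀ))⁻¹) y := by
      obtain ⟨x, hx⟩ := hu y
      have h4 := contDiffAt_ringInverse ℝ (n := ∞) x
      rw [hx] at h4
      have h5 := h4.comp y h2
      refine h5.congr_of_eventuallyEq (Filter.Eventually.of_forall fun z => ?_)
      exact Matrix.nonsing_inv_eq_ringInverse _
    exact h3.mul (cd_of_entries fun a b => ((hfr i).smooth a b).contDiffAt)
  · set A := β i y * G₁ i y * (β i y)ᵀ with hA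
    set r := rho A with hr
    have hrT : rᵀ = r := rho_T (hN i y) (hsym y)
    have hrr : r * r = A := (rho_mem (hN i y)).2
    have hd : IsUnit r.det := (Matrix.isUnit_iff_isUnit_det _).1 (hu y)
    have e : nfr G₁ β i y = r⁻¹ * β i y := rfl
    rw [e, Matrix.transpose_mul, Matrix.transpose_nonsing_inv, hrT]
    calc r⁻¹ * β i y * G₁ i y * ((β i y)ᵀ * r⁻¹) = r⁻¹ * (β i y * G₁ i y * (β i y)ᵀ) * r⁻¹ := by
          simp only [Matrix.mul_assoc]
      _ = r⁻¹ * (r * r) * r⁻¹ := by rw [← hA, hrr]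
      _ = 1 := by
          rw [← Matrix.mul_assoc, Matrix.nonsing_inv_mul _ hd, Matrix.one_mul,
            Matrix.mul_nonsing_inv _ hd]
  · unfold nfr
    rw [Matrix.det_mul, Matrix.det_nonsing_inv, Ring.inverse_eq_inv']
    exact mul_pos (inv_pos.2 (det_UU (rho_mem (hN i y)).1)) ((hfr i).pos y)

theorem Rm_nfr (hG : MetX C G) (h₁ : MetX C G₁) {β : I → E n → Matrix (Fin n) (Fin n) ℝ}
    (hfr : ∀ i, Fr (G i) (β i)) (hN : ∀ i y, β i y * G₁ i y * (β i y)ᵀ ∈ NN' n) {a b : Γ × I}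
    {y : E n} (h : y ∈ dm C a b) :
    Rm (G₁ b.2) (nfr G₁ β a.2) (nfr G₁ β b.2) (tt C a b) y =
      Rm (G b.2) (β a.2) (β b.2) (tt C a b) y := by
  set J := jac (tt C a b) y with hJ
  set b₁ := β a.2 y with hb₁
  set b₂ := β b.2 (tt C a b y) with hb₂
  set R := Rm (G b.2) (β a.2) (β b.2) (tt C a b) y with hR
  have hRT : Rᵀ * b₂ = b₁ * Jᵀ := Rm_mul (hG.pos _) (hfr b.2).orth y
  have hRo : Rᵀ * R = 1 := Rm_orth (hG.pos _) (hfr a.2).orth (hfr b.2).orth (Bas2.compat hG h)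
  have hRo' : R * Rᵀ = 1 := mul_eq_one_comm.1 hRo
  have hRT' : b₂ᵀ * R = J * b₁ᵀ := by
    have := congrArg Matrix.transpose hRT
    rwa [Matrix.transpose_mul, Matrix.transpose_mul, Matrix.transpose_transpose,
      Matrix.transpose_transpose] at this
  have hc : G₁ a.2 y = Jᵀ * G₁ b.2 (tt C a b y) * J := Bas2.compat h₁ h
  set A₂ := b₂ * G₁ b.2 (tt C a b y) * b₂ᵀ with hA₂
  have hA₁ : b₁ * G₁ a.2 y * b₁ᵀ = Rᵀ * A₂ * R := by
    calc b₁ * G₁ a.2 y * b₁ᵀ = (b₁ * Jᵀ) * G₁ b.2 (tt C a b y) * (J * b₁ᵀ) := by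
          rw [hc]; simp only [Matrix.mul_assoc]
      _ = Rᵀ * A₂ * R := by rw [← hRT, ← hRT', hA₂]; simp only [Matrix.mul_assoc]
  have hN₂ : A₂ ∈ NN' n := hN b.2 _
  set r := rho A₂ with hr
  have hsym : A₂ᵀ = A₂ := by
    rw [hA₂, Matrix.transpose_mul, Matrix.transpose_mul, Matrix.transpose_transpose,
      symm_of_posDef (h₁.pos _ _), Matrix.mul_assoc]
  have hrT : rᵀ = r := rho_T hN₂ hsym
  have hrr : r * r = A₂ := (rho_mem hN₂).2
  have hu : IsUnit r := isUnit_UU (rho_mem hN₂).1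
  have hd : IsUnit r.det := (Matrix.isUnit_iff_isUnit_det _).1 hu
  have hr₁ : rho (b₁ * G₁ a.2 y * b₁ᵀ) = Rᵀ * r * R := by
    rw [hA₁]; exact (NN'_conj hRo hN₂).2
  have hinv : (Rᵀ * r * R)⁻¹ = Rᵀ * r⁻¹ * R := by
    refine Matrix.inv_eq_right_inv ?_
    calc Rᵀ * r * R * (Rᵀ * r⁻¹ * R) = Rᵀ * r * (R * Rᵀ) * r⁻¹ * R := by
          simp only [Matrix.mul_assoc]
      _ = 1 := by
          rw [hRo', Matrix.mul_one, Matrix.mul_assoc Rᵀ, Matrix.mul_nonsing_inv _ hd,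
            Matrix.mul_one, hRo]
  have e1 : nfr G₁ β a.2 y = Rᵀ * r⁻¹ * R * b₁ := by
    unfold nfr
    rw [← hb₁, hr₁, hinv]
  have e2 : nfr G₁ β b.2 (tt C a b y) = r⁻¹ * b₂ := rfl
  have e3 : Rm (G₁ b.2) (nfr G₁ β a.2) (nfr G₁ β b.2) (tt C a b) y =
      nfr G₁ β b.2 (tt C a b y) * G₁ b.2 (tt C a b y) * J * (nfr G₁ β a.2 y)ᵀ := rfl
  rw [e3, e1, e2]
  have e4 : (Rᵀ * r⁻¹ * R * b₁)ᵀ = b₁ᵀ * (Rᵀ * r⁻¹ * R) := by
    rw [Matrix.transpose_mul, Matrix.transpose_mul, Matrix.transpose_mul,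
      Matrix.transpose_transpose, Matrix.transpose_nonsing_inv, hrT]
    simp only [Matrix.mul_assoc]
  rw [e4]
  calc r⁻¹ * b₂ * G₁ b.2 (tt C a b y) * J * (b₁ᵀ * (Rᵀ * r⁻¹ * R))
      = r⁻¹ * b₂ * G₁ b.2 (tt C a b y) * (J * b₁ᵀ) * (Rᵀ * r⁻¹ * R) := by
        simp only [Matrix.mul_assoc]
    _ = r⁻¹ * A₂ * (R * Rᵀ) * r⁻¹ * R := by rw [← hRT', hA₂]; simp only [Matrix.mul_assoc]
    _ = R := by
        rw [hRo', Matrix.mul_one, ← hrr, ← Matrix.mul_assoc, Matrix.nonsing_inv_mul _ hd,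
          Matrix.one_mul, Matrix.mul_nonsing_inv _ hd, Matrix.one_mul]

/-- small changes of the metric -/
theorem Sp1.step (S : Sp1 C G K) (h₁ : MetX C G₁)
    (hN : ∀ i y, S.β i y * G₁ i y * (S.β i y)ᵀ ∈ NN' n) : Nonempty (Sp1 C G₁ K) :=
  ⟨{ met := h₁
     β := nfr G₁ S.β
     fr := nfr_fr h₁ S.fr hN
     T := S.T
     smooth := S.smooth
     lf := fun a b y hy => by rw [Rm_nfr S.met h₁ S.fr hN hy]; exact S.lf a b y hy
     coc := S.coc
     one := S.one
     sg := S.sg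
     equi := S.equi }⟩

/-- the segment between two metrics -/
noncomputable def Gt (G G₁ : I → E n → Matrix (Fin n) (Fin n) ℝ) (t : ℝ) (i : I) (y : E n) :
    Matrix (Fin n) (Fin n) ℝ := G i y + t • (G₁ i y - G i y)

theorem Gt_zero : Gt G G₁ 0 = G := by
  funext i y; unfold Gt; rw [zero_smul, add_zero]

theorem Gt_one : Gt G G₁ 1 = G₁ := by
  funext i y; unfold Gt; rw [one_smul, add_sub_cancel]

theorem metX_Gt (hG : MetX C G) (h₁ : MetX C G₁) {t : ℝ} (h0 : 0 ≤ t) (h1 : t ≤ 1) :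
    MetX C (Gt G G₁ t) where
  smooth i a b := (hG.smooth i a b).add (contDiff_const.mul ((h₁.smooth i a b).sub
    (hG.smooth i a b)))
  pos i y := by
    rw [MetU.posDef_iff]
    obtain ⟨s1, p1⟩ := (MetU.posDef_iff _).1 (hG.pos i y)
    obtain ⟨s2, p2⟩ := (MetU.posDef_iff _).1 (h₁.pos i y)
    refine ⟨fun k l => ?_, fun v hv => ?_⟩
    · change G i y k l + t * (G₁ i y k l - G i y k l) = G i y l k + t * (G₁ i y l k - G i y l k)
      rw [s1 k l, s2 k l]
    · have e : J.bil (Gt G G₁ t i y) v v = (1 - t) * J.bil (G i y) v v + t * J.bil (G₁ i y) v v := by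
        unfold J.bil
        rw [Finset.mul_sum, Finset.mul_sum, ← Finset.sum_add_distrib]
        refine Finset.sum_congr rfl fun k _ => ?_
        rw [Finset.mul_sum, Finset.mul_sum, ← Finset.sum_add_distrib]
        refine Finset.sum_congr rfl fun l _ => ?_
        change v k * v l * (G i y k l + t * (G₁ i y k l - G i y k l)) = _
        ring
      rw [e]
      have q1 := p1 v hv
      have q2 := p2 v hv
      rcases eq_or_lt_of_le h0 with h | h
      · rw [← h]; simpa using q1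
      · have : 0 ≤ (1 - t) * J.bil (G i y) v v := mul_nonneg (sub_nonneg.2 h1) q1.le
        have := mul_pos h q2
        linarith
  inv i j γ y hy v w := by
    have e1 := hG.inv i j γ y hy v w
    have e2 := h₁.inv i j γ y hy v w
    have e3 : ∀ (A B : Matrix (Fin n) (Fin n) ℝ) (x z : E n),
        ∑ a, ∑ b, x a * z b * (A + t • (B - A)) a b =
        (1 - t) * ∑ a, ∑ b, x a * z b * A a b + t * ∑ a, ∑ b, x a * z b * B a b := by
      intro A B x z
      rw [Finset.mul_sum, Finset.mul_sum, ← Finset.sum_add_distrib]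
      refine Finset.sum_congr rfl fun k _ => ?_
      rw [Finset.mul_sum, Finset.mul_sum, ← Finset.sum_add_distrib]
      refine Finset.sum_congr rfl fun l _ => ?_
      change x k * z l * (A k l + t * (B k l - A k l)) = _
      ring
    unfold Gt
    rw [e3, e3, e1, e2]

theorem norm_gr_le {A D b : Matrix (Fin n) (Fin n) ℝ} (h : b * A * bᵀ = 1) :
    ‖b * D * bᵀ‖ ≤ ‖A⁻¹‖ * ‖D‖ := by
  have h1 : A⁻¹ = bᵀ * b := by
    refine Matrix.inv_eq_right_inv ?_
    rw [← Matrix.mul_assoc]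
    exact frame_inv h
  have h2 : ‖bᵀ * b‖ = ‖b‖ * ‖b‖ := by
    rw [← Matrix.conjTranspose_eq_transpose_of_trivial]
    exact Matrix.l2_opNorm_conjTranspose_mul_self b
  calc ‖b * D * bᵀ‖ ≤ ‖b‖ * ‖D‖ * ‖bᵀ‖ :=
        (norm_mul_le _ _).trans (mul_le_mul_of_nonneg_right (norm_mul_le _ _) (norm_nonneg _))
    _ = ‖A⁻¹‖ * ‖D‖ := by rw [norm_T, h1, h2]; ring

theorem bound_gr [Finite I] (hG : MetX C G) (h₁ : MetX C G₁) : ∃ c : ℝ, 0 < c ∧
    ∀ t, 0 ≤ t → t ≤ 1 → ∀ i y (b : Matrix (Fin n) (Fin n) ℝ), b * Gt G G₁ t i y * bᵀ = 1 →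
      ‖b * (G₁ i y - G i y) * bᵀ‖ ≤ c := by
  have := Fintype.ofFinite I
  have hK : IsCompact (Set.Icc (0 : ℝ) 1 ×ˢ Metric.closedBall (0 : E n) 1) :=
    isCompact_Icc.prod (isCompact_closedBall _ _)
  have hc : ∀ i, ∃ c : ℝ, ∀ p ∈ Set.Icc (0 : ℝ) 1 ×ˢ Metric.closedBall (0 : E n) 1,
      ‖‖(Gt G G₁ p.1 i p.2)⁻¹‖ * ‖G₁ i p.2 - G i p.2‖‖ ≤ c := by
    intro i
    refine hK.exists_bound_of_continuousOn ?_
    have c1 : Continuous fun p : ℝ × E n => G i p.2 := by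
      refine continuous_matrix fun a b => ?_
      exact (hG.smooth i a b).continuous.comp continuous_snd
    have c2 : Continuous fun p : ℝ × E n => G₁ i p.2 := by
      refine continuous_matrix fun a b => ?_
      exact (h₁.smooth i a b).continuous.comp continuous_snd
    have c3 : Continuous fun p : ℝ × E n => Gt G G₁ p.1 i p.2 :=
      c1.add (continuous_fst.smul (c2.sub c1))
    refine ContinuousOn.mul (ContinuousOn.norm ?_) (c2.sub c1).norm.continuousOn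
    intro p hp
    have hp' := (metX_Gt hG h₁ hp.1.1 hp.1.2).pos i p.2
    have hu : IsUnit (Gt G G₁ p.1 i p.2) := hp'.isUnit
    obtain ⟨x, hx⟩ := hu
    have h4 := NormedRing.inverse_continuousAt x
    rw [hx] at h4
    have h5 : ContinuousAt (fun p : ℝ × E n => Ring.inverse (Gt G G₁ p.1 i p.2)) p :=
      ContinuousAt.comp (g := Ring.inverse) h4 c3.continuousAt
    refine (h5.congr (Filter.Eventually.of_forall fun z => ?_)).continuousWithinAt
    exact (Matrix.nonsing_inv_eq_ringInverse _).symm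
  choose c hc using hc
  refine ⟨∑ i, |c i| + 1, by positivity, fun t h0 h1 i y b hb => ?_⟩
  obtain ⟨γ', j, y', hy', he⟩ := Vale.Agent.P223.X.exists_chart C ((1 : Γ) • C.ψ i y)
  have he' : pt C ((1 : Γ), i) y = pt C (γ', j) y' := he.symm
  obtain ⟨hd, ht⟩ := mem_dm he'
  have k1 := Bas2.compat (metX_Gt hG h₁ h0 h1) hd
  have k2 := Bas2.compat hG hd
  have k3 := Bas2.compat h₁ hd
  set J := jac (tt C ((1 : Γ), i) (γ', j)) y with hJ
  change Gt G G₁ t i y = Jᵀ * Gt G G₁ t j (tt C ((1 : Γ), i) (γ', j) y) * J at k1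
  change G i y = Jᵀ * G j (tt C ((1 : Γ), i) (γ', j) y) * J at k2
  change G₁ i y = Jᵀ * G₁ j (tt C ((1 : Γ), i) (γ', j) y) * J at k3
  rw [ht] at k1 k2 k3
  have e1 : (b * Jᵀ) * Gt G G₁ t j y' * (b * Jᵀ)ᵀ = 1 := by
    rw [Matrix.transpose_mul, Matrix.transpose_transpose, ← hb, k1]
    simp only [Matrix.mul_assoc]
  have e2 : b * (G₁ i y - G i y) * bᵀ = (b * Jᵀ) * (G₁ j y' - G j y') * (b * Jᵀ)ᵀ := by
    rw [Matrix.transpose_mul, Matrix.transpose_transpose, k2, k3, ← Matrix.sub_mul,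
      ← Matrix.mul_sub]
    simp only [Matrix.mul_assoc]
  rw [e2]
  refine (norm_gr_le e1).trans ?_
  have h3 := hc j (t, y') ⟨⟨h0, h1⟩, by rw [mem_closedBall_zero_iff]; exact hy'.le⟩
  refine ((le_abs_self _).trans h3).trans ((le_abs_self _).trans ?_)
  have h4 : |c j| ≤ ∑ i, |c i| :=
    Finset.single_le_sum (f := fun i => |c i|) (fun i _ => abs_nonneg _) (Finset.mem_univ j)
  linarith

/-- A spinor bundle for one metric gives spinor bundles for all metrics. -/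
theorem Sp1.change [Finite I] (S : Sp1 C G K) (h₁ : MetX C G₁) : Nonempty (Sp1 C G₁ K) := by
  have hG := S.met
  obtain ⟨c, hc0, hc⟩ := bound_gr hG h₁
  obtain ⟨ε, hε, hNε⟩ := Metric.mem_nhds_iff.1 (NN'_nhds (n := n))
  obtain ⟨N, hN⟩ := exists_nat_gt (c / ε)
  have hN0 : 0 < (N : ℝ) := lt_of_le_of_lt (by positivity) hN
  have key : ∀ k : ℕ, k ≤ N → Nonempty (Sp1 C (Gt G G₁ (k / N)) K) := by
    intro k
    induction k with
    | zero => intro _; rw [Nat.cast_zero, zero_div, Gt_zero]; exact ⟨S⟩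
    | succ k ih =>
      intro hk
      obtain ⟨S'⟩ := ih (by omega)
      have hk' : ((k : ℝ) + 1) ≤ N := by exact_mod_cast hk
      have t0 : (0 : ℝ) ≤ (k : ℝ) / N := by positivity
      have t1 : (k : ℝ) / N ≤ 1 := (div_le_one hN0).2 (by linarith)
      have t0' : (0 : ℝ) ≤ ((k + 1 : ℕ) : ℝ) / N := by positivity
      have t1' : ((k + 1 : ℕ) : ℝ) / N ≤ 1 := (div_le_one hN0).2 (by push_cast; linarith)
      refine S'.step (metX_Gt hG h₁ t0' t1') fun i y => hNε ?_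
      rw [mem_ball_iff_norm]
      have e1 : Gt G G₁ (((k + 1 : ℕ) : ℝ) / N) i y =
          Gt G G₁ ((k : ℝ) / N) i y + (1 / (N : ℝ)) • (G₁ i y - G i y) := by
        unfold Gt
        rw [add_assoc, ← add_smul]
        congr 2
        push_cast
        rw [add_div]
      have e2 := (S'.fr i).orth y
      have e3 : S'.β i y * Gt G G₁ (((k + 1 : ℕ) : ℝ) / N) i y * (S'.β i y)ᵀ - 1 =
          (1 / (N : ℝ)) • (S'.β i y * (G₁ i y - G i y) * (S'.β i y)ᵀ) := by
        rw [e1, Matrix.mul_add, Matrix.add_mul, e2, add_sub_cancel_left, Matrix.mul_smul,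
          Matrix.smul_mul]
      rw [e3, norm_smul, Real.norm_of_nonneg (by positivity)]
      have h5 := hc _ t0 t1 i y _ e2
      calc 1 / (N : ℝ) * _ ≤ 1 / (N : ℝ) * c := mul_le_mul_of_nonneg_left h5 (by positivity)
        _ < ε := by
          rw [one_div, inv_mul_lt_iff₀ hN0]
          rwa [div_lt_iff₀ hε] at hN
  have h6 := key N le_rfl
  rwa [div_self hN0.ne', Gt_one] at h6

end step

end Vale.Agent.P223.H441
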