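import Vale.Agent.P223.H441.DevSp
import Vale.Agent.P223.H441.MetCh
import Vale.Agent.P223.H66.S3

/-! Block F2: simply connected coverings with a developing map are spin. -/

namespace Vale.Agent.P223.H441

open Vale.Agent.P223.H566 Vale.Agent.P223.H Vale.Agent.P223.X Vale.Agent.P223.H66
open scoped ContDiff Topology Matrix InnerProductSpace

section
variable {n : ℕ} {M X Γ I V : Type} [TopologicalSpace M] [TopologicalSpace X]
  [Group Γ] [MulAction Γ X] [NormedAddCommGroup V] [InnerProductSpace ℂ V]

/-- the trivial case -/
theorem spX_of_subsingleton [Subsingleton V] {C : Cov n M X Γ I}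
    {G : I → E n → Matrix (Fin n) (Fin n) ℝ} (hm : MetX C G) (K : Cliff n V) :
    Nonempty (SpX C G K) := by
  choose β hβ using fun i => exists_frame (hm.smooth i) (hm.pos i)
  have hs : Subsingleton (V →L[ℂ] V) := ⟨fun A B => by ext v; exact Subsingleton.elim _ _⟩
  exact ⟨{ met := hm
           β := β
           fr := hβ
           T := fun _ _ _ _ _ => 1
           sg := fun _ _ => 1
           sg_sq := fun _ _ => one_mul 1
           smooth := fun _ _ _ _ => contDiffOn_const
           unit := fun _ _ _ _ _ _ _ _ => rfl
           vol := fun _ _ _ _ _ _ => Subsingleton.elim _ _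
           cliff := fun _ _ _ _ _ _ _ => Subsingleton.elim _ _
           conn := fun _ _ _ _ _ _ _ => Subsingleton.elim _ _
           coc := fun _ _ _ _ _ _ _ _ _ => Subsingleton.elim _ _
           one := fun _ _ _ => rfl
           equi := fun _ _ _ _ _ _ _ => Subsingleton.elim _ _ }⟩

end

theorem specF2 : SpecF2 := by
  intro n M X Γ I V _ _ _ _ _ _ _ _ _ _ _ C G K D t hn hm h G' hm'
  rcases subsingleton_or_nontrivial V with hV | hV
  · exact spX_of_subsingleton hm' K
  · have : CompleteSpace V := FiniteDimensional.complete ℂ V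
    obtain ⟨S⟩ := exists_Sp1_of_dev h hm K
    obtain ⟨S'⟩ := S.change hm'
    exact ⟨S'.toSpX⟩

end Vale.Agent.P223.H441
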