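import Vale.Agent.P223.H441.Cl

/-! A Clifford module: the exterior algebra. -/

namespace Vale.Agent.P223.H441

open Vale.Agent.P223.H566
open scoped InnerProductSpace

section ext
variable {n : ℕ}

/-- the exterior algebra -/
abbrev Sp (n : ℕ) := EuclideanSpace ℂ (Finset (Fin n))

/-- signs -/
noncomputable def sg (a : Fin n) (S : Finset (Fin n)) : ℝ := ∏ s ∈ S, if s < a then -1 else 1

/-- symmetric difference with `{a}` -/
def tog (a : Fin n) (S : Finset (Fin n)) : Finset (Fin n) := symmDiff S {a}

theorem tog_tog (a : Fin n) (S : Finset (Fin n)) : tog a (tog a S) = S := by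
  unfold tog; rw [symmDiff_assoc, symmDiff_self]; simp

theorem tog_comm (a b : Fin n) (S : Finset (Fin n)) : tog a (tog b S) = tog b (tog a S) := by
  unfold tog; rw [symmDiff_assoc, symmDiff_assoc]; exact congrArg _ (symmDiff_comm _ _)

theorem prod_tog (f : Fin n → ℝ) (b : Fin n) (hb : f b * f b = 1) (S : Finset (Fin n)) :
    ∏ s ∈ tog b S, f s = (∏ s ∈ S, f s) * f b := by
  classical
  by_cases h : b ∈ S
  · have h1 : tog b S = S.erase b := by
      ext s
      unfold tog
      simp only [Finset.mem_symmDiff, Finset.mem_singleton, Finset.mem_erase]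
      constructor
      · rintro (⟨h1, h2⟩ | ⟨h1, h2⟩)
        · exact ⟨h2, h1⟩
        · exact absurd (h1 ▸ h) h2
      · rintro ⟨h1, h2⟩
        exact Or.inl ⟨h2, h1⟩
    rw [h1, ← Finset.mul_prod_erase S f h, mul_comm (f b), mul_assoc, hb, mul_one]
  · have h1 : tog b S = insert b S := by
      ext s
      unfold tog
      simp only [Finset.mem_symmDiff, Finset.mem_singleton, Finset.mem_insert]
      constructor
      · rintro (⟨h1, h2⟩ | ⟨h1, h2⟩)
        · exact Or.inr h1
        · exact Or.inl h1
      · rintro (h1 | h1)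
        · exact Or.inr ⟨h1, h1 ▸ h⟩
        · exact Or.inl ⟨h1, fun h2 => h (h2 ▸ h1)⟩
    rw [h1, Finset.prod_insert h, mul_comm]

theorem sg_tog (a b : Fin n) (S : Finset (Fin n)) :
    sg a (tog b S) = sg a S * if b < a then -1 else 1 := by
  unfold sg
  rw [prod_tog]
  split_ifs <;> norm_num

theorem sg_mul_self (a : Fin n) (S : Finset (Fin n)) : sg a S * sg a S = 1 := by
  unfold sg
  rw [← Finset.prod_mul_distrib]
  refine Finset.prod_eq_one fun s _ => ?_
  split_ifs <;> norm_num

/-- the generators -/
noncomputable def cex (a : Fin n) : Sp n →L[ℂ] Sp n :=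
  LinearMap.toContinuousLinearMap
    { toFun := fun v => WithLp.toLp 2 fun S => (sg a S : ℂ) * v (tog a S)
      map_add' := fun v w => by
        ext S; simp [mul_add]
      map_smul' := fun r v => by
        ext S; simp [mul_left_comm] }

theorem cex_apply (a : Fin n) (v : Sp n) (S : Finset (Fin n)) :
    cex a v S = (sg a S : ℂ) * v (tog a S) := rfl

/-- the exterior algebra as a Clifford module -/
noncomputable def Kex (n : ℕ) : Cliff n (Sp n) where
  c := cex
  symm a v w := by
    rw [PiLp.inner_apply, PiLp.inner_apply]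
    let e : Finset (Fin n) ≃ Finset (Fin n) := ⟨tog a, tog a, tog_tog a, tog_tog a⟩
    rw [← Equiv.sum_comp e]
    refine Finset.sum_congr rfl fun S _ => ?_
    change ⟪cex a v (tog a S), w (tog a S)⟫_ℂ = ⟪v S, cex a w S⟫_ℂ
    rw [cex_apply, cex_apply, tog_tog, sg_tog, if_neg (lt_irrefl a), mul_one]
    simp only [RCLike.inner_apply, map_mul, Complex.conj_ofReal]
    ring
  rel a b := by
    ext v S
    change cex a (cex b v) S + cex b (cex a v) S = _
    rw [cex_apply, cex_apply, cex_apply, cex_apply, sg_tog, sg_tog]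
    by_cases h : a = b
    · subst h
      rw [if_pos rfl, if_neg (lt_irrefl a), mul_one, tog_tog]
      have h1 : (sg a S : ℂ) * (sg a S : ℂ) = 1 := by exact_mod_cast sg_mul_self a S
      have h2 : ((2 : Sp n →L[ℂ] Sp n) v) S = 2 * v S := by
        have h3 : (2 : Sp n →L[ℂ] Sp n) = 1 + 1 := one_add_one_eq_two.symm
        rw [h3]
        change v S + v S = _
        ring
      rw [h2]
      linear_combination 2 * v S * h1
    · rw [if_neg h, tog_comm b a]
      rcases lt_or_gt_of_ne h with h1 | h1
      · rw [if_pos h1, if_neg (not_lt.2 h1.le)]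
        push_cast
        simp
        ring
      · rw [if_pos h1, if_neg (not_lt.2 h1.le)]
        push_cast
        simp
        ring

theorem finrank_Sp : Module.finrank ℂ (Sp n) ≠ 0 := by
  rw [finrank_euclideanSpace]
  exact Fintype.card_ne_zero

end ext

end Vale.Agent.P223.H441
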