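import Vale.Agent.P223.H441.XSp3
import Vale.Agent.P223.H441.MetCh
import Vale.Agent.P223.H441.Mod

/-! The spinor bundle on the universal covering, final form. -/

namespace Vale.Agent.P223.H441

open Vale.Agent.P223.H566 Vale.Agent.P223.H Vale.Agent.P223.X
open scoped ContDiff Topology Matrix InnerProductSpace

section
variable {n : ℕ} {M X Γ I : Type} [TopologicalSpace M] [TopologicalSpace X]
  [Group Γ] [MulAction Γ X] {c : M → J.Ch n M} {B : Box c I}
  {C : Cov n M X Γ I} {g : M → J.Mtx n}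
  {V : Type} [NormedAddCommGroup V] [InnerProductSpace ℂ V]

/-- the lift of the universal covering -/
theorem exists_lift [SimplyConnectedSpace X] (C : Cov n M X Γ I) {X' : Type}
    [TopologicalSpace X'] {f : X' → M} {c' : X' → J.Ch n X'} (hf : J.CovAtl c f c') :
    ∃ F : C(X, X'), ∀ x, f (F x) = C.π x := by
  have := lpc C
  obtain ⟨x₀⟩ : Nonempty X := inferInstance
  obtain ⟨q₀, hq⟩ := hf.surj (C.π x₀)
  obtain ⟨F, ⟨-, hF⟩, -⟩ := hf.cov.existsUnique_continuousMap_lifts C.π x₀ q₀ hq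
  exact ⟨F, fun x => congrFun hF x⟩

/-- The spinor bundle on the universal covering, if some covering is spin. -/
theorem exists_Sp1_of_covSpin [SimplyConnectedSpace X] [FiniteDimensional ℂ V] [Nontrivial V]
    (hc : J.Atl c) (hβ : ∀ i y, C.π (C.ψ i y) = B.β i y) (hg : J.Met c g) (K : Cliff n V)
    (h : J.CovSpin c g) : Nonempty (Sp1 C (B.G g) K) := by
  have : CompleteSpace V := FiniteDimensional.complete ℂ V
  obtain ⟨X', _, f, c', hf, ⟨S⟩⟩ := h
  obtain ⟨F, hF⟩ := exists_lift C hf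
  have hm := MetU.metX hc hβ hg
  choose β hfr using fun i => exists_frame (hm.smooth i) (hm.pos i)
  obtain ⟨S0⟩ := exists_Sp0 hc hβ hf hg S F hF hfr K
  obtain ⟨S1, -⟩ := exists_Sp1 S0
  exact ⟨S1⟩

theorem exists_SpX_of_covSpin [SimplyConnectedSpace X] [FiniteDimensional ℂ V] [Nontrivial V]
    (hc : J.Atl c) (hβ : ∀ i y, C.π (C.ψ i y) = B.β i y) (hg : J.Met c g) (K : Cliff n V)
    (h : J.CovSpin c g) : Nonempty (SpX C (B.G g) K) := by
  have : CompleteSpace V := FiniteDimensional.complete ℂ V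
  obtain ⟨S⟩ := exists_Sp1_of_covSpin (V := V) hc hβ hg K h
  exact ⟨S.toSpX⟩

/-- The spinor bundle for any metric, if some covering is spin for some metric. -/
theorem exists_SpX_of_covSpin' [SimplyConnectedSpace X] [FiniteDimensional ℂ V] [Nontrivial V]
    [Finite I] (hc : J.Atl c) (hβ : ∀ i y, C.π (C.ψ i y) = B.β i y) (K : Cliff n V)
    {g₀ : M → J.Mtx n} (hg₀ : J.Met c g₀) (h : J.CovSpin c g₀)
    {G : I → E n → Matrix (Fin n) (Fin n) ℝ} (hG : MetX C G) : Nonempty (SpX C G K) := by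
  have : CompleteSpace V := FiniteDimensional.complete ℂ V
  obtain ⟨S⟩ := exists_Sp1_of_covSpin (V := V) hc hβ hg₀ K h
  obtain ⟨S'⟩ := S.change hG
  exact ⟨S'.toSpX⟩

end

end Vale.Agent.P223.H441
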