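import Vale.Agent.P223.H765.Assembly
import Vale.Agent.P223.H441.XSp4

/-! P223: simplicial volume of spin manifolds, from the block `SpecPair`. -/

namespace Vale.Agent.P223.H441

open scoped ContDiff
open MeasureTheory Vale.Agent.P223.H Vale.Agent.P223.X H566

/-- coverings with a spinor bundle -/
theorem svX_zero (hp : SpecPair) {n : ℕ} {M X Γ I V : Type} [TopologicalSpace M]
    [TopologicalSpace X] [Group Γ] [MulAction Γ X] [Fintype I] [T2Space X]
    [SimplyConnectedSpace X] [T2Space M] [NormedAddCommGroup V] [InnerProductSpace ℂ V]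
    [FiniteDimensional ℂ V] {C : Cov n M X Γ I} {G : I → E n → Matrix (Fin n) (Fin n) ℝ}
    {K : Cliff n V} (S : SpX C G K) (hn : 1 ≤ n) (hV : 0 < Module.finrank ℂ V)
    (hinf : ∃ s : ℕ → X, MT.Dist Γ s) {s : ℝ} {w : X → ℝ} (hs : 0 < s) (hw : Gst C G s w) :
    svX C = 0 := by
  let _ : MeasurableSpace X := borel X
  have : BorelSpace X := ⟨rfl⟩
  obtain ⟨χ, hχ⟩ := Vale.Agent.P223.X.hb.part n M X Γ I C
  obtain ⟨Q, -, hQ⟩ := H765.exists_pus C hχ
  exact H765.svX_eq_zero C hn hinf hχ Q fun F hF =>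
    hp n M X Γ I V C G K S I Q χ s w F hn hV hQ hχ hs hw hF

/-- the function `1` -/
theorem gst_one {n : ℕ} {M X Γ I : Type} [TopologicalSpace M]
    [TopologicalSpace X] [Group Γ] [MulAction Γ X] (C : Cov n M X Γ I)
    (G : I → E n → Matrix (Fin n) (Fin n) ℝ) (s : ℝ) (h : ∀ i y, s ≤ H.scal (G i) y / 4) :
    Gst C G s (fun _ => 1) where
  smooth _ _ := contDiff_const
  pos _ := one_pos
  grad := ⟨0, fun x => by
    have : gsX C G (fun _ => 1) x = 0 := by
      unfold gsX Cov.gl gradSq gradIp Cov.rep H.pd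
      simp
    rw [this]
    positivity⟩
  ineq γ i y := by
    have : lap (G i) (C.rep (fun _ => 1) γ i) y = 0 := by
      unfold lap Cov.rep H.pd
      simp
    rw [this]
    simpa using h i y

instance nontrivial_Sp (n : ℕ) : Nontrivial (Sp n) := by
  refine Module.nontrivial_of_finrank_pos (R := ℂ) (Nat.pos_of_ne_zero finrank_Sp)

/-- manifolds with a spin covering (for some metric `g₀`); `G` is any other metric -/
theorem sv_zero_of_gst (hp : SpecPair) {n : ℕ} (hn : 1 ≤ n) {M : Type} [TopologicalSpace M]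
    [CompactSpace M] [T2Space M] [ConnectedSpace M] {c : M → J.Ch n M} (hc : J.Atl c)
    {g₀ : M → J.Mtx n} (hg₀ : J.Met c g₀) (hS : J.CovSpin c g₀) (d : FinalM.Data c)
    {G : d.I → E n → Matrix (Fin n) (Fin n) ℝ} (hG : MetX d.C G) {s : ℝ}
    {w : d.X → ℝ} (hs : 0 < s) (hw : Gst d.C G s w) : J.sv c = 0 := by
  have hu := Vale.Agent.P223.X.hu
  refine le_antisymm ((hu.sv n M d.X d.Γ d.I c d.B d.C hc d.hCB).trans ?_) bot_le
  obtain ⟨S⟩ := exists_SpX_of_covSpin' hc d.hCB (Kex n) hg₀ hS hG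
  exact (svX_zero hp S hn (Nat.pos_of_ne_zero finrank_Sp) d.inf hs hw).le

/-- positive scalar curvature -/
theorem sv_zero_of_pos (hp : SpecPair) {n : ℕ} (hn : 1 ≤ n) {M : Type} [TopologicalSpace M]
    [CompactSpace M] [T2Space M] [ConnectedSpace M] {c : M → J.Ch n M} (hc : J.Atl c)
    {g₀ : M → J.Mtx n} (hg₀ : J.Met c g₀) (hS : J.CovSpin c g₀)
    {g : M → J.Mtx n} (hg : J.Met c g) (h : ∀ p, 0 < J.scal (g p) (c p p)) : J.sv c = 0 := by
  have hu := Vale.Agent.P223.X.hu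
  obtain ⟨d⟩ := FinalM.exists_data hu hn c hc
  have hm := (hu.met n M d.X d.Γ d.I c d.B d.C hc d.hCB).1 g hg
  have hsc : Continuous (scM d.C (d.B.G g)) := Final.continuous_scM hm
  obtain ⟨p₀, -, hp₀⟩ := isCompact_univ.exists_isMinOn Set.univ_nonempty hsc.continuousOn
  have h1 : ∀ q, scM d.C (d.B.G g) q = J.scal (g q) (c q q) := FinalM.scM_eq hu hc d hg
  have h2 : ∀ i y, J.scal (g p₀) (c p₀ p₀) / 4 ≤ H.scal (d.B.G g i) y / 4 := by
    intro i y
    have h3 := hp₀ (Set.mem_univ (d.C.π (d.C.ψ i y)))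
    simp only [Set.mem_ofPred_eq] at h3
    rw [h1 p₀, Final.scM_eq hm i y] at h3
    exact div_le_div_of_nonneg_right h3 (by norm_num)
  have hw := gst_one d.C (d.B.G g) _ h2
  refine sv_zero_of_gst hp hn hc hg₀ hS d hm ?_ hw
  have := h p₀
  positivity

end Vale.Agent.P223.H441
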