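import Vale.Agent.P223.H441.Bil2
import Vale.Agent.P223.H441.BilDef
import Vale.Agent.P223.H441.Dev
import Vale.Agent.P223.H441.F2
import Vale.Agent.P223.H441.Final
import Vale.Agent.P223.H620.Sob
import Vale.Agent.P223.H850.UL
import Vale.Agent.P223.H691.UYW

/-! Corollary L: metrics which are bilipschitz to a locally conformally flat metric. -/

namespace Vale.Agent.P223.H441.Bil

open scoped ContDiff Topology
open MeasureTheory Matrix Vale.Agent.P223.H Vale.Agent.P223.X Vale.Agent.P223.H566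
open Vale.Agent.P223.H66 (scX YamX ScGe Cc)
open Vale.Agent.P223.H440

theorem bil_eq {n : ℕ} (A : Matrix (Fin n) (Fin n) ℝ) (v : E n) :
    J.bil A v v = v ⬝ᵥ A *ᵥ v := by
  simp only [J.bil, dotProduct, Matrix.mulVec, Finset.mul_sum]
  exact Finset.sum_congr rfl fun i _ => Finset.sum_congr rfl fun j _ => by ring

section
variable {n : ℕ} {M X Γ I : Type} [TopologicalSpace M] [TopologicalSpace X]
  [Group Γ] [MulAction Γ X] [Fintype I] [T2Space X] [SimplyConnectedSpace X] [T2Space M]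
  [MeasurableSpace X] [BorelSpace X] {C : Cov n M X Γ I}

/-- monotonicity in the potential -/
theorem sobXW_mono {G : I → E n → Matrix (Fin n) (Fin n) ℝ} {μ : Measure X}
    (hG : MetX C G) (hV : VolX C G μ) {k k' : X → ℝ} (hk : Continuous k) (hk' : Continuous k')
    (h : ∀ x, k x ≤ k' x) {y : ℝ} (hS : H691.SobXW C G μ k y) : H691.SobXW C G μ k' y := by
  intro f hf
  refine (hS f hf).trans ?_
  obtain ⟨hf1, hf2⟩ := hf
  have hfin := finComp hG hV
  have fc : Continuous f := Ck_continuous C fun γ i => (hf1 γ i).of_le (by simp)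
  obtain ⟨g1, g1'⟩ := gsX_supp' hG hf1 hf2
  have i1 : Integrable (gsX C G f) μ := g1.integrable_of_hasCompactSupport g1'
  have i2 : ∀ k : X → ℝ, Continuous k → Integrable (fun x => k x * f x ^ 2) μ := fun k hk => by
    refine (hk.mul (fc.pow 2)).integrable_of_hasCompactSupport
      (HasCompactSupport.intro hf2.isCompact fun x hx => ?_)
    simp [image_eq_zero_of_notMem_tsupport hx]
  exact integral_mono (i1.add (i2 k hk)) (i1.add (i2 k' hk')) fun x =>
    add_le_add le_rfl (mul_le_mul_of_nonneg_right (h x) (sq_nonneg _))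

theorem bilX_of {c : M → J.Ch n M} {B : Box c I} {g₁ g : M → J.Mtx n} {L : ℝ}
    (hb : J.Bil c g₁ g L) (i : I) (y v : E n) :
    v ⬝ᵥ B.G g₁ i y *ᵥ v ≤ L * (v ⬝ᵥ B.G g i y *ᵥ v) ∧
      v ⬝ᵥ B.G g i y *ᵥ v ≤ L * (v ⬝ᵥ B.G g₁ i y *ᵥ v) := by
  rw [← bil_eq, ← bil_eq, BoxB.bil_G, BoxB.bil_G]
  exact hb (B.a i) (B.x i y) (B.sub i y) _

end

/-- COROLLARY L -/
theorem main (n : ℕ) (hn : 3 ≤ n) : ∃ y₁ : ℝ, 0 < y₁ ∧ ∀ (M X Γ I : Type) [TopologicalSpace M]
    [TopologicalSpace X] [Group Γ] [MulAction Γ X] [Fintype I] [T2Space X]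
    [SimplyConnectedSpace X] [T2Space M] [MeasurableSpace X] [BorelSpace X]
    (c : M → J.Ch n M) (B : Box c I) (C : Cov n M X Γ I) (g₁ g : M → J.Mtx n) (μ : Measure X)
    (L : ℝ), J.Atl c → (∀ i z, C.π (C.ψ i z) = B.β i z) → J.Met c g₁ → J.Met c g →
    VolX C (B.G g) μ → J.Lcf c g₁ → J.Bil c g₁ g L → 1 ≤ L →
    H691.SobXW C (B.G g) μ (fun x => max 0 (J.scal (g₁ (C.π x)) (c (C.π x) (C.π x))))
      (y₁ / L ^ n) ∧ ∀ G', MetX C G' → Nonempty (SpX C G' (H441.Kex n)) := by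
  obtain ⟨y₁, hy₁, hsob⟩ := H620.specSob n hn
  refine ⟨y₁, hy₁, ?_⟩
  intro M X Γ I _ _ _ _ _ _ _ _ _ _ c B C g₁ g μ L hc hβ hg₁ hg hμ hL hb h1
  have hu := Vale.Agent.P223.X.hu
  have hM := hu.met n M X Γ I c B C hc hβ
  have m1 := hM.1 g₁ hg₁
  have m2 := hM.1 g hg
  have h2 := H850.specUL n M X Γ I c B C g₁ hc hβ hg₁ hL
  obtain ⟨D, t, h3⟩ := specDev n M X Γ I C (B.G g₁) hn m1 h2
  let _ : MeasurableSpace M := borel M
  have : BorelSpace M := ⟨rfl⟩
  obtain ⟨-, ⟨μ₁, hμ₁⟩, -⟩ := Vale.Agent.P223.X.hb.vol n M X Γ I C (B.G g₁) m1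
  have h4 := hsob M X Γ I C (B.G g₁) μ₁ D t m1 hμ₁ h3
  refine ⟨?_, fun G' hG' => specF2 n M X Γ I (H441.Sp n) C (B.G g₁) (H441.Kex n) D t hn m1 h3
    G' hG'⟩
  have hk : ∀ x, J.scal (g₁ (C.π x)) (c (C.π x) (C.π x)) = scX C (B.G g₁) x := fun x =>
    (H691.scX_eq hc hβ hg₁ x).symm
  simp only [hk]
  have hn3 : (3 : ℝ) ≤ n := by exact_mod_cast hn
  have s1 := scX_cont m1
  refine sobXW_mono m2 hμ (k := fun x => ((n : ℝ) - 2) / (4 * (n - 1)) * max 0 (scX C (B.G g₁) x))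
    (continuous_const.mul (continuous_const.max s1)) (continuous_const.max s1)
    (fun x => mul_le_of_le_one_left (le_max_left _ _) ?_) fun f hf =>
      sob_of_bil hn m1 m2 hμ₁ hμ h1 hy₁ (fun i y v => (bilX_of hb i y v).1)
        (fun i y v => (bilX_of hb i y v).2) h4 hf
  rw [div_le_one (by linarith)]
  linarith

end Vale.Agent.P223.H441.Bil
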