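import Vale.Agent.P223.H441.Bil3

/-! Comparison of Sobolev inequalities with a potential, of two bilipschitz metrics. -/

namespace Vale.Agent.P223.H441.Bil

open scoped ContDiff Topology
open MeasureTheory Matrix Vale.Agent.P223.H Vale.Agent.P223.X Vale.Agent.P223.H566
open Vale.Agent.P223.H66 (Cc)
open Vale.Agent.P223.H440

/-- The Sobolev inequality with a potential `k ≥ 0` for a bilipschitz metric. -/
theorem sobXW_bil {n : ℕ} {M X Γ I : Type} [TopologicalSpace M] [TopologicalSpace X]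
    [Group Γ] [MulAction Γ X] [Fintype I] [T2Space X] [MeasurableSpace X] [BorelSpace X]
    [ConnectedSpace X] [T2Space M] {C : Cov n M X Γ I}
    {G₁ G : I → E n → Matrix (Fin n) (Fin n) ℝ} {μ₁ μ : Measure X} (hn : 3 ≤ n)
    (h1 : MetX C G₁) (h2 : MetX C G) (hV1 : VolX C G₁ μ₁) (hV2 : VolX C G μ) {L y : ℝ}
    (hL : 1 ≤ L) (hy : 0 < y)
    (hb1 : ∀ i y v, v ⬝ᵥ G₁ i y *ᵥ v ≤ L * (v ⬝ᵥ G i y *ᵥ v))
    (hb2 : ∀ i y v, v ⬝ᵥ G i y *ᵥ v ≤ L * (v ⬝ᵥ G₁ i y *ᵥ v)) {k : X → ℝ} (hk : Continuous k)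
    (hk0 : ∀ x, 0 ≤ k x) (hS : H691.SobXW C G₁ μ₁ k y) : H691.SobXW C G μ k (y / L ^ n) := by
  intro f hf
  have hL0 : 0 < L := one_pos.trans_le hL
  have hn3 : (3 : ℝ) ≤ n := by exact_mod_cast hn
  have hfin1 := finComp h1 hV1
  have hfin2 := finComp h2 hV2
  obtain ⟨hf1, hf2⟩ := hf
  have fc : Continuous f := Ck_continuous C fun γ i => (hf1 γ i).of_le (by simp)
  obtain ⟨g1, g1'⟩ := gsX_supp' h1 hf1 hf2
  obtain ⟨g2, g2'⟩ := gsX_supp' h2 hf1 hf2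
  have hp : 0 < 2 * (n : ℝ) / (n - 2) := by apply div_pos <;> linarith
  set P : X → ℝ := fun x => k x * f x ^ 2 with hP
  have hPc : Continuous P := hk.mul (fc.pow 2)
  have hPs : HasCompactSupport P := by
    refine HasCompactSupport.intro hf2.isCompact fun x hx => ?_
    simp only [hP]
    rw [image_eq_zero_of_notMem_tsupport hx]; simp
  have hP0 : ∀ x, 0 ≤ P x := fun x => mul_nonneg (hk0 x) (sq_nonneg _)
  set T : X → ℝ := fun x => |f x| ^ (2 * (n : ℝ) / (n - 2)) with hT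
  have hTc : Continuous T := fc.abs.rpow_const fun x => Or.inr hp.le
  have hTs : HasCompactSupport T := by
    refine HasCompactSupport.intro hf2.isCompact fun x hx => ?_
    simp only [hT]
    rw [image_eq_zero_of_notMem_tsupport hx, abs_zero, Real.zero_rpow hp.ne']
  have hT0 : ∀ x, 0 ≤ T x := fun x => Real.rpow_nonneg (abs_nonneg _) _
  set K : ℝ := √(L ^ n) with hK
  have hK0 : 0 < K := Real.sqrt_pos.2 (pow_pos hL0 n)
  -- left-hand side
  have e1 : ∫ x, T x ∂μ ≤ K * ∫ x, T x ∂μ₁ :=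
    int_le h2 h1 hV2 hV1 (fun i y => dens_le (h2.pos i) (h1.pos i) hL0 (hb2 i y)) hTc hT0 hTs
  have q0 : 0 ≤ ((n : ℝ) - 2) / n := div_nonneg (by linarith) (by linarith)
  have e2 : (∫ x, T x ∂μ) ^ (((n : ℝ) - 2) / n) ≤
      K ^ (((n : ℝ) - 2) / n) * (∫ x, T x ∂μ₁) ^ (((n : ℝ) - 2) / n) := by
    rw [← Real.mul_rpow hK0.le (integral_nonneg hT0)]
    exact Real.rpow_le_rpow (integral_nonneg hT0) e1 q0
  -- right-hand side
  have i2 : Integrable (gsX C G f) μ := g2.integrable_of_hasCompactSupport g2'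
  have i4 : Integrable P μ := hPc.integrable_of_hasCompactSupport hPs
  have e3 := hS f ⟨hf1, hf2⟩
  have e5 : ∫ x, (gsX C G₁ f x + P x) ∂μ₁ ≤ K * ∫ x, (gsX C G₁ f x + P x) ∂μ :=
    int_le h1 h2 hV1 hV2 (fun i y => dens_le (h1.pos i) (h2.pos i) hL0 (hb1 i y)) (g1.add hPc)
      (fun x => add_nonneg (gsX_nonneg h1 f x) (hP0 x)) (g1'.add hPs)
  have i6 : Integrable (gsX C G₁ f) μ := g1.integrable_of_hasCompactSupport g1'
  have e6 : ∫ x, (gsX C G₁ f x + P x) ∂μ ≤ L * ∫ x, (gsX C G f x + P x) ∂μ := by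
    rw [← integral_const_mul]
    refine integral_mono (i6.add i4) ((i2.add i4).const_mul L) fun x => ?_
    simp only
    rw [mul_add]
    exact add_le_add (gsX_le h1 h2 hL0 hb2 f x) (le_mul_of_one_le_left (hP0 x) hL)
  -- combination
  set Q := ∫ x, (gsX C G f x + P x) ∂μ with hQ
  have e7 : y * (∫ x, T x ∂μ₁) ^ (((n : ℝ) - 2) / n) ≤ K * (L * Q) :=
    e3.trans (e5.trans (mul_le_mul_of_nonneg_left e6 hK0.le))
  have hKL : K ^ (((n : ℝ) - 2) / n) * (K * L) = L ^ n := by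
    have hKr : K = L ^ ((n : ℝ) / 2) := by
      rw [hK, Real.sqrt_eq_rpow, ← Real.rpow_natCast, ← Real.rpow_mul hL0.le]
      congr 1; ring
    rw [hKr, ← Real.rpow_mul hL0.le]
    nth_rewrite 3 [← Real.rpow_one L]
    rw [← Real.rpow_add hL0, ← Real.rpow_add hL0, ← Real.rpow_natCast]
    congr 1
    field_simp
    ring
  rw [div_mul_eq_mul_div, div_le_iff₀ (pow_pos hL0 n), ← hKL]
  calc y * (∫ x, T x ∂μ) ^ (((n : ℝ) - 2) / n) ≤
      y * (K ^ (((n : ℝ) - 2) / n) * (∫ x, T x ∂μ₁) ^ (((n : ℝ) - 2) / n)) :=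
        mul_le_mul_of_nonneg_left e2 hy.le
    _ = K ^ (((n : ℝ) - 2) / n) * (y * (∫ x, T x ∂μ₁) ^ (((n : ℝ) - 2) / n)) := by ring
    _ ≤ K ^ (((n : ℝ) - 2) / n) * (K * (L * Q)) :=
        mul_le_mul_of_nonneg_left e7 (Real.rpow_nonneg hK0.le _)
    _ = Q * (K ^ (((n : ℝ) - 2) / n) * (K * L)) := by ring

/-- The pure Sobolev inequality and bilipschitz metrics, for metrics on `M`. -/
theorem sob0_of_bil {n : ℕ} (hn : 3 ≤ n) {M X Γ I : Type} [TopologicalSpace M]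
    [TopologicalSpace X] [Group Γ] [MulAction Γ X] [Fintype I] [T2Space X]
    [ConnectedSpace X] [T2Space M] [MeasurableSpace X] [BorelSpace X]
    {c : M → J.Ch n M} {B : Box c I} {C : Cov n M X Γ I} {g₁ g : M → J.Mtx n} {μ₁ μ : Measure X}
    {L y : ℝ} (hc : J.Atl c) (hβ : ∀ i z, C.π (C.ψ i z) = B.β i z) (hg₁ : J.Met c g₁)
    (hg : J.Met c g) (hμ₁ : VolX C (B.G g₁) μ₁) (hμ : VolX C (B.G g) μ) (hb : J.Bil c g₁ g L)
    (hL : 1 ≤ L) (hy : 0 < y) {k : X → ℝ} (hk : Continuous k) (hk0 : ∀ x, 0 ≤ k x)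
    (hS : H691.SobXW C (B.G g₁) μ₁ k y) : H691.SobXW C (B.G g) μ k (y / L ^ n) := by
  have hM := (Vale.Agent.P223.X.hu).met n M X Γ I c B C hc hβ
  exact sobXW_bil hn (hM.1 g₁ hg₁) (hM.1 g hg) hμ₁ hμ hL hy (fun i y v => (bilX_of hb i y v).1)
    (fun i y v => (bilX_of hb i y v).2) hk hk0 hS

end Vale.Agent.P223.H441.Bil
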