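import Vale.Agent.P223.MathlibUsed
import Mathlib.Topology.Homotopy.Lifting
import Mathlib.Topology.FiberBundle.Basic
import Mathlib.Topology.Covering.Basic

/-! Locally constant cocycles on simply connected spaces. -/

namespace Vale.Agent.P223.H441

open Topology

/-- Locally constant cocycles on a simply connected space are trivial. -/
theorem coc_trivG {Y A Q : Type} [Group Q] [TopologicalSpace Y] [SimplyConnectedSpace Y]
    [LocallyPathConnectedSpace Y] (U : A → Set Y) (hU : ∀ a, IsOpen (U a))
    (hcov : ∀ y, ∃ a, y ∈ U a) (σ : A → A → Y → Q)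
    (hσ : ∀ a b, ∀ y ∈ U a ∩ U b, ∀ᶠ z in 𝓝 y, σ a b z = σ a b y)
    (hc : ∀ a b d y, y ∈ U a → y ∈ U b → y ∈ U d → σ b d y * σ a b y = σ a d y) :
    ∃ ε : A → Y → Q, (∀ a, ∀ y ∈ U a, ∀ᶠ z in 𝓝 y, ε a z = ε a y) ∧
      ∀ a b y, y ∈ U a → y ∈ U b → ε b y = σ a b y * ε a y := by
  classical
  let _ : TopologicalSpace Q := ⊥
  have : DiscreteTopology Q := ⟨rfl⟩
  choose ix hix using hcov
  have hσ' : ∀ a b, ContinuousOn (σ a b) (U a ∩ U b) := by
    intro a b y hy
    refine ContinuousAt.continuousWithinAt ?_
    have := hσ a b y hy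
    exact continuousAt_const.congr (by filter_upwards [this] with z hz; exact hz.symm)
  let Z : FiberBundleCore A Y Q :=
    { baseSet := U
      isOpen_baseSet := hU
      indexAt := ix
      mem_baseSet_at := hix
      coordChange := fun a b y v => σ a b y * v
      coordChange_self := fun a y hy v => by
        have h := hc a a a y hy hy hy
        have : σ a a y = 1 := mul_eq_left.1 h
        rw [this, one_mul]
      continuousOn_coordChange := fun a b => by
        have h1 : ContinuousOn (fun p : Y × Q => (σ a b p.1, p.2)) ((U a ∩ U b) ×ˢ Set.univ) :=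
          ((hσ' a b).comp continuousOn_fst fun p hp => hp.1).prodMk continuousOn_snd
        have h2 : Continuous fun p : Q × Q => p.1 * p.2 := continuous_of_discreteTopology
        exact h2.comp_continuousOn h1
      coordChange_comp := fun a b d y hy v => by
        rw [← mul_assoc, hc a b d y hy.1.1 hy.1.2 hy.2] }
  have hcm : IsCoveringMap (Bundle.TotalSpace.proj : Bundle.TotalSpace Q Z.Fiber → Y) :=
    FiberBundle.isCoveringMap
  obtain ⟨y₀⟩ := (inferInstance : Nonempty Y)
  obtain ⟨s, ⟨-, hs⟩, -⟩ := hcm.existsUnique_continuousMap_lifts (ContinuousMap.id Y) y₀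
    (⟨y₀, (1 : Q)⟩ : Bundle.TotalSpace Q Z.Fiber) rfl
  have hs' : ∀ y, (s y).1 = y := fun y => congrFun hs y
  refine ⟨fun a y => (Z.localTriv a (s y)).2, fun a y hy => ?_, fun a b y ha hb => ?_⟩
  · have h1 : ContinuousOn (fun y => (Z.localTriv a (s y)).2) (U a) := by
      refine continuousOn_snd.comp ((Z.localTriv a).continuousOn_toFun.comp
        s.continuous.continuousOn fun y hy => ?_) fun _ _ => Set.mem_univ _
      rw [Bundle.Trivialization.mem_source]
      change (s y).1 ∈ U a
      rwa [hs' y]
    exact (h1.continuousAt ((hU a).mem_nhds hy)).eventually_mem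
      ((isOpen_discrete {(Z.localTriv a (s y)).2}).mem_nhds rfl)
  · let v : Q := (s y).2
    have h1 : (Z.localTriv a (s y)).2 = σ (ix (s y).1) a (s y).1 * v := rfl
    have h2 : (Z.localTriv b (s y)).2 = σ (ix (s y).1) b (s y).1 * v := rfl
    dsimp only
    rw [h1, h2, ← mul_assoc, hs' y, hc (ix y) a b y (hix y) ha hb]

end Vale.Agent.P223.H441
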