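import Vale.Agent.P223.H441.Loc
import Mathlib.Analysis.InnerProductSpace.Calculus

/-! The derivative of a lift to the spin group. -/

namespace Vale.Agent.P223.H441

open Vale.Agent.P223.H566 Vale.Agent.P223.H
open scoped ContDiff Topology Matrix InnerProductSpace

section lam
variable {n : ℕ} {V : Type} [NormedAddCommGroup V] [InnerProductSpace ℂ V] (K : Cliff n V)

/-- the Lie algebra homomorphism `so(n) → Cl` -/
noncomputable def lam (A : Fin n → Fin n → ℝ) : V →L[ℂ] V :=
  ∑ a, ∑ b, (A a b / 4) • (K.c a * K.c b)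

theorem lam_add (A B : Fin n → Fin n → ℝ) :
    lam K (fun a b => A a b + B a b) = lam K A + lam K B := by
  unfold lam
  rw [← Finset.sum_add_distrib]
  refine Finset.sum_congr rfl fun a _ => ?_
  rw [← Finset.sum_add_distrib]
  refine Finset.sum_congr rfl fun b _ => ?_
  rw [add_div, add_smul]

theorem lam_smul (r : ℝ) (A : Fin n → Fin n → ℝ) :
    lam K (fun a b => r * A a b) = r • lam K A := by
  unfold lam
  rw [Finset.smul_sum]
  refine Finset.sum_congr rfl fun a _ => ?_
  rw [Finset.smul_sum]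
  refine Finset.sum_congr rfl fun b _ => ?_
  rw [smul_smul, mul_div_assoc]

theorem lam_sum {ι : Type} (s : Finset ι) (A : ι → Fin n → Fin n → ℝ) :
    lam K (fun a b => ∑ i ∈ s, A i a b) = ∑ i ∈ s, lam K (A i) := by
  classical
  induction s using Finset.induction_on with
  | empty => simp [lam]
  | insert i s hi ih =>
    simp only [Finset.sum_insert hi]
    rw [lam_add, ih]

theorem lam_mem_W (A : Fin n → Fin n → ℝ) : lam K A ∈ W K :=
  Submodule.sum_mem _ fun a _ => Submodule.sum_mem _ fun b _ =>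
    Submodule.smul_mem _ _ (cc_mem_W K a b)

theorem cc_comm (a d b : Fin n) :
    K.c a * K.c d * K.c b - K.c b * (K.c a * K.c d) =
      (if d = b then (2 : ℝ) else 0) • K.c a - (if a = b then (2 : ℝ) else 0) • K.c d := by
  have h1 : K.c d * K.c b = (if d = b then (2 : ℝ) else 0) • (1 : V →L[ℂ] V) - K.c b * K.c d := by
    rw [eq_sub_iff_add_eq, K.rel]
    split_ifs
    · rw [two_smul, one_add_one_eq_two]
    · rw [zero_smul]
  have h2 : K.c a * K.c b = (if a = b then (2 : ℝ) else 0) • (1 : V →L[ℂ] V) - K.c b * K.c a := by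
    rw [eq_sub_iff_add_eq, K.rel]
    split_ifs
    · rw [two_smul, one_add_one_eq_two]
    · rw [zero_smul]
  rw [mul_assoc, h1, mul_sub, mul_smul_comm, mul_one, ← mul_assoc, h2, sub_mul, smul_mul_assoc,
    one_mul, mul_assoc]
  abel

theorem lam_comm {A : Fin n → Fin n → ℝ} (hA : ∀ a b, A a b = -A b a) (b : Fin n) :
    lam K A * K.c b - K.c b * lam K A = ∑ p, A p b • K.c p := by
  unfold lam
  rw [Finset.sum_mul, Finset.mul_sum, ← Finset.sum_sub_distrib]
  have h1 : ∀ a, (∑ d, (A a d / 4) • (K.c a * K.c d)) * K.c b -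
      K.c b * ∑ d, (A a d / 4) • (K.c a * K.c d) =
      (A a b / 2) • K.c a - (if a = b then ∑ d, (A a d / 2) • K.c d else 0) := by
    intro a
    rw [Finset.sum_mul, Finset.mul_sum, ← Finset.sum_sub_distrib]
    have h2 : ∀ d, (A a d / 4) • (K.c a * K.c d) * K.c b -
        K.c b * (A a d / 4) • (K.c a * K.c d) =
        (if d = b then (A a d / 2) • K.c a else 0) - (if a = b then (A a d / 2) • K.c d else 0) := by
      intro d
      rw [smul_mul_assoc, mul_smul_comm, ← smul_sub, cc_comm, smul_sub, smul_smul, smul_smul]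
      congr 1
      · split_ifs
        · congr 1; ring
        · rw [mul_zero, zero_smul]
      · split_ifs
        · congr 1; ring
        · rw [mul_zero, zero_smul]
    simp only [h2]
    rw [Finset.sum_sub_distrib, Finset.sum_ite_eq' Finset.univ b, if_pos (Finset.mem_univ b)]
    congr 1
    split_ifs
    · rfl
    · exact Finset.sum_const_zero
  simp only [h1]
  rw [Finset.sum_sub_distrib, Finset.sum_ite_eq' Finset.univ b, if_pos (Finset.mem_univ b),
    ← Finset.sum_sub_distrib]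
  refine Finset.sum_congr rfl fun a _ => ?_
  rw [hA b a, ← sub_smul]
  congr 1
  ring

theorem lam_adj {A : Fin n → Fin n → ℝ} (hA : ∀ a b, A a b = -A b a) (v w : V) :
    ⟪lam K A v, w⟫_ℂ = -⟪v, lam K A w⟫_ℂ := by
  unfold lam
  simp only [sum_apply, sum_inner, inner_sum]
  have h : ∀ a b, ⟪((A a b / 4) • (K.c a * K.c b)) v, w⟫_ℂ =
      -⟪v, ((A b a / 4) • (K.c b * K.c a)) w⟫_ℂ := by
    intro a b
    change ⟪((A a b / 4 : ℝ) : ℂ) • K.c a (K.c b v), w⟫_ℂ =
      -⟪v, ((A b a / 4 : ℝ) : ℂ) • K.c b (K.c a w)⟫_ℂ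
    rw [inner_smul_left, inner_smul_right, K.symm, K.symm, Complex.conj_ofReal, hA a b]
    push_cast
    ring
  simp only [h, Finset.sum_neg_distrib]
  rw [Finset.sum_comm]

end lam

section der
variable {n : ℕ} {V : Type} [NormedAddCommGroup V] [InnerProductSpace ℂ V] (K : Cliff n V)

theorem line {F : Type} [NormedAddCommGroup F] [NormedSpace ℝ F] {f : E n → F} {y : E n}
    (hf : DifferentiableAt ℝ f y) (e : E n) :
    HasDerivAt (fun t : ℝ => f (y + t • e)) (fderiv ℝ f y e) 0 := by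
  have h1 : HasDerivAt (fun t : ℝ => y + t • e) e 0 := by
    simpa using ((hasDerivAt_id (0 : ℝ)).smul_const e).const_add y
  have h2 : HasFDerivAt f (fderiv ℝ f y) (y + (0 : ℝ) • e) := by
    rw [zero_smul, add_zero]; exact hf.hasFDerivAt
  exact h2.comp_hasDerivAt 0 h1

theorem ev_line {p : E n → Prop} {y : E n} (h : ∀ᶠ z in 𝓝 y, p z) (e : E n) :
    ∀ᶠ t : ℝ in 𝓝 0, p (y + t • e) := by
  have h1 : Filter.Tendsto (fun t : ℝ => y + t • e) (𝓝 0) (𝓝 y) := by
    have : Continuous fun t : ℝ => y + t • e := by fun_prop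
    have h2 := this.tendsto 0
    simpa using h2
  exact h1.eventually h

variable [FiniteDimensional ℂ V]

instance fdR : FiniteDimensional ℝ (V →L[ℂ] V) := FiniteDimensional.complexToReal (V →L[ℂ] V)

theorem contDiffAt_rep {s : E n → CliffordAlgebra (J.nq n)} {y : E n}
    (hs : ∀ f : CliffordAlgebra (J.nq n) →ₗ[ℝ] ℝ, ContDiffAt ℝ ∞ (fun z => f (s z)) y) :
    ContDiffAt ℝ ∞ (fun z => rep K (s z)) y := by
  let b := Module.finBasis ℝ (V →L[ℂ] V)
  have h : (fun z => rep K (s z)) = fun z => ∑ i, b.coord i (rep K (s z)) • b i := by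
    funext z
    exact (b.sum_equivFun (rep K (s z))).symm
  rw [h]
  exact ContDiffAt.sum fun i _ => (hs ((b.coord i) ∘ₗ (rep K).toLinearMap)).smul contDiffAt_const

theorem fderiv_mem_W {U : E n → V →L[ℂ] V} {y : E n} (hU : DifferentiableAt ℝ U y)
    (h : ∀ᶠ z in 𝓝 y, U z ∈ W K) (e : E n) : fderiv ℝ U y e ∈ W K := by
  by_contra hn
  obtain ⟨f, hf, hW⟩ := Submodule.exists_le_ker_of_notMem hn
  let F : (V →L[ℂ] V) →L[ℝ] ℝ := LinearMap.toContinuousLinearMap f
  have h1 := (F.hasFDerivAt (x := U y)).comp y hU.hasFDerivAt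
  have h2 : (fun z => F (U z)) =ᶠ[𝓝 y] fun _ => 0 := by
    filter_upwards [h] with z hz
    exact LinearMap.mem_ker.1 (hW hz)
  have h3 : HasFDerivAt (fun z => F (U z)) (0 : E n →L[ℝ] ℝ) y :=
    (hasFDerivAt_const 0 y).congr_of_eventuallyEq h2
  have h4 := congrArg (fun T : E n →L[ℝ] ℝ => T e) (h1.unique h3)
  exact hf h4

variable {s : E n → CliffordAlgebra (J.nq n)} {R : E n → Matrix (Fin n) (Fin n) ℝ} {y : E n}

omit [FiniteDimensional ℂ V] in
theorem U_c {x : CliffordAlgebra (J.nq n)} {Q : Matrix (Fin n) (Fin n) ℝ}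
    (h : ∀ v, x * CliffordAlgebra.ι (J.nq n) v = CliffordAlgebra.ι (J.nq n) (Q *ᵥ v) * x)
    (b : Fin n) : rep K x * K.c b = ∑ d, Q d b • (K.c d * rep K x) := by
  have h1 := congrArg (rep K) (h (Pi.single b 1))
  rw [map_mul, map_mul, rep_ι, rep_ι, cv_single, cv_apply, Finset.sum_mul] at h1
  rw [h1]
  refine Finset.sum_congr rfl fun d _ => ?_
  rw [Matrix.mulVec_single_one, smul_mul_assoc]
  rfl

omit [FiniteDimensional ℂ V] in
theorem U_c_inv {x : CliffordAlgebra (J.nq n)} (hx : x ∈ spinGroup (J.nq n))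
    {Q : Matrix (Fin n) (Fin n) ℝ} (hQ : Q * Qᵀ = 1)
    (h : ∀ v, x * CliffordAlgebra.ι (J.nq n) v = CliffordAlgebra.ι (J.nq n) (Q *ᵥ v) * x)
    (p : Fin n) : rep K (star x) * K.c p * rep K x = ∑ b, Q p b • K.c b := by
  have h1 : ∀ b, K.c b = ∑ d, Q d b • (rep K (star x) * K.c d * rep K x) := by
    intro b
    have h2 := congrArg (rep K (star x) * ·) (U_c K h b)
    simp only [← mul_assoc] at h2
    rw [rep_spin_star_mul K hx, one_mul, Finset.mul_sum] at h2
    rw [h2]
    refine Finset.sum_congr rfl fun d _ => ?_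
    rw [mul_smul_comm, mul_assoc]
  have h3 : ∑ b, Q p b • K.c b =
      ∑ b, Q p b • ∑ d, Q d b • (rep K (star x) * K.c d * rep K x) :=
    Finset.sum_congr rfl fun b _ => congrArg _ (h1 b)
  rw [h3]
  simp only [Finset.smul_sum, smul_smul]
  rw [Finset.sum_comm]
  have h4 : ∀ d, ∑ b, (Q p b * Q d b) • (rep K (star x) * K.c d * rep K x) =
      (if p = d then (1 : ℝ) else 0) • (rep K (star x) * K.c d * rep K x) := by
    intro d
    rw [← Finset.sum_smul]
    congr 1
    have := congrFun (congrFun hQ p) d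
    rw [Matrix.mul_apply, Matrix.one_apply] at this
    exact this
  simp only [h4]
  simp

omit [FiniteDimensional ℂ V] in
theorem U_c_inv' {x : CliffordAlgebra (J.nq n)} (hx : x ∈ spinGroup (J.nq n))
    {Q : Matrix (Fin n) (Fin n) ℝ} (hQ : Q * Qᵀ = 1)
    (h : ∀ v, x * CliffordAlgebra.ι (J.nq n) v = CliffordAlgebra.ι (J.nq n) (Q *ᵥ v) * x)
    (p : Fin n) : rep K (star x) * K.c p = ∑ b, Q p b • (K.c b * rep K (star x)) := by
  have h1 := congrArg (· * rep K (star x)) (U_c_inv K hx hQ h p)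
  simp only [mul_assoc] at h1
  rw [rep_spin_mul_star K hx, mul_one, Finset.sum_mul] at h1
  rw [h1]
  exact Finset.sum_congr rfl fun b _ => smul_mul_assoc _ _ _

omit [FiniteDimensional ℂ V] in
theorem U_w {x : CliffordAlgebra (J.nq n)} (hx : x ∈ spinGroup (J.nq n))
    {Q : Matrix (Fin n) (Fin n) ℝ} (hQ : Q * Qᵀ = 1)
    (h : ∀ v, x * CliffordAlgebra.ι (J.nq n) v = CliffordAlgebra.ι (J.nq n) (Q *ᵥ v) * x)
    (p : Fin n) : rep K x * ∑ b, Q p b • K.c b = K.c p * rep K x := by
  rw [← U_c_inv K hx hQ h p, ← mul_assoc, ← mul_assoc, rep_spin_mul_star K hx, one_mul]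

theorem sum4_comm {A : Type} [AddCommMonoid A] (F : Fin n → Fin n → Fin n → Fin n → A) :
    ∑ a, ∑ b, ∑ d, ∑ c, F a b d c = ∑ d, ∑ c, ∑ a, ∑ b, F a b d c := by
  calc ∑ a, ∑ b, ∑ d, ∑ c, F a b d c = ∑ a, ∑ d, ∑ b, ∑ c, F a b d c :=
        Finset.sum_congr rfl fun a _ => Finset.sum_comm
    _ = ∑ d, ∑ a, ∑ b, ∑ c, F a b d c := Finset.sum_comm
    _ = ∑ d, ∑ a, ∑ c, ∑ b, F a b d c :=
        Finset.sum_congr rfl fun d _ => Finset.sum_congr rfl fun a _ => Finset.sum_comm
    _ = ∑ d, ∑ c, ∑ a, ∑ b, F a b d c := Finset.sum_congr rfl fun d _ => Finset.sum_comm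

omit [FiniteDimensional ℂ V] in
theorem lam_eq (Q : Matrix (Fin n) (Fin n) ℝ) (B : Fin n → Fin n → ℝ) :
    lam K (fun a b => ∑ d, ∑ c, Q d a * B d c * Q c b) =
      ∑ d, ∑ c, (B d c / 4) • ((∑ a, Q d a • K.c a) * ∑ b, Q c b • K.c b) := by
  unfold lam
  simp only [Finset.sum_mul_sum, Finset.sum_div, Finset.sum_smul, Finset.smul_sum]
  rw [sum4_comm]
  refine Finset.sum_congr rfl fun d _ => Finset.sum_congr rfl fun c _ =>
    Finset.sum_congr rfl fun a _ => Finset.sum_congr rfl fun b _ => ?_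
  rw [smul_mul_smul_comm, smul_smul]
  congr 1
  ring

omit [FiniteDimensional ℂ V] in
theorem lam_conj {x : CliffordAlgebra (J.nq n)} (hx : x ∈ spinGroup (J.nq n))
    {Q : Matrix (Fin n) (Fin n) ℝ} (hQ : Q * Qᵀ = 1)
    (h : ∀ v, x * CliffordAlgebra.ι (J.nq n) v = CliffordAlgebra.ι (J.nq n) (Q *ᵥ v) * x)
    (B : Fin n → Fin n → ℝ) :
    rep K x * lam K (fun a b => ∑ d, ∑ c, Q d a * B d c * Q c b) = lam K B * rep K x := by
  rw [lam_eq, Finset.mul_sum]
  unfold lam
  rw [Finset.sum_mul]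
  refine Finset.sum_congr rfl fun d _ => ?_
  rw [Finset.mul_sum, Finset.sum_mul]
  refine Finset.sum_congr rfl fun c _ => ?_
  rw [mul_smul_comm, smul_mul_assoc, ← mul_assoc, U_w K hx hQ h, mul_assoc, U_w K hx hQ h,
    ← mul_assoc]

/-- the derivative of a lift -/
theorem fderiv_lift
    (hs : ∀ f : CliffordAlgebra (J.nq n) →ₗ[ℝ] ℝ, ContDiffAt ℝ ∞ (fun z => f (s z)) y)
    (hR : ∀ a b, ContDiffAt ℝ ∞ (fun z => R z a b) y)
    (hm : ∀ᶠ z in 𝓝 y, s z ∈ spinGroup (J.nq n))
    (ho : ∀ᶠ z in 𝓝 y, (R z)ᵀ * R z = 1)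
    (hl : ∀ᶠ z in 𝓝 y, ∀ v, s z * CliffordAlgebra.ι (J.nq n) v =
      CliffordAlgebra.ι (J.nq n) (R z *ᵥ v) * s z) (k : Fin n) :
    fderiv ℝ (fun z => rep K (s z)) y (Pi.single k 1) =
      rep K (s y) * lam K (fun a b => ∑ d, R y d a * pd k (fun z => R z d b) y) := by
  set e : E n := Pi.single k 1 with he
  set U : E n → V →L[ℂ] V := fun z => rep K (s z) with hUdef
  have hU : ContDiffAt ℝ ∞ U y := contDiffAt_rep K hs
  have hUd : DifferentiableAt ℝ U y := hU.differentiableAt (by simp)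
  set D := fderiv ℝ U y e with hD
  have hRd : ∀ a b, DifferentiableAt ℝ (fun z => R z a b) y := fun a b =>
    (hR a b).differentiableAt (by simp)
  set A : Fin n → Fin n → ℝ := fun a b => ∑ d, R y d a * pd k (fun z => R z d b) y with hA
  have hu := line hUd e
  have hr : ∀ a b, HasDerivAt (fun t : ℝ => R (y + t • e) a b) (pd k (fun z => R z a b) y) 0 :=
    fun a b => line (hRd a b) e
  have hmy := hm.self_of_nhds
  have hoy := ho.self_of_nhds
  have hoy' : R y * (R y)ᵀ = 1 := mul_eq_one_comm.1 hoy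
  have hly := hl.self_of_nhds
  have hRy0 : ∀ a b, R (y + (0 : ℝ) • e) a b = R y a b := fun a b => by rw [zero_smul, add_zero]
  have hUy0 : U (y + (0 : ℝ) • e) = U y := by rw [zero_smul, add_zero]
  -- `A` is antisymmetric
  have hAs : ∀ a b, A a b = -A b a := by
    intro a b
    have h1 : HasDerivAt (fun t : ℝ => ∑ d, R (y + t • e) d a * R (y + t • e) d b)
        (∑ d, (pd k (fun z => R z d a) y * R (y + (0 : ℝ) • e) d b +
          R (y + (0 : ℝ) • e) d a * pd k (fun z => R z d b) y)) 0 :=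
      HasDerivAt.fun_sum fun d _ => (hr d a).mul (hr d b)
    have h2 : (fun t : ℝ => ∑ d, R (y + t • e) d a * R (y + t • e) d b) =ᶠ[𝓝 0]
        fun _ => (1 : Matrix (Fin n) (Fin n) ℝ) a b := by
      filter_upwards [ev_line ho e] with t ht
      have := congrFun (congrFun ht a) b
      rw [Matrix.mul_apply] at this
      exact this
    have h3 : HasDerivAt (fun t : ℝ => ∑ d, R (y + t • e) d a * R (y + t • e) d b) 0 0 :=
      (hasDerivAt_const 0 _).congr_of_eventuallyEq h2
    have h4 := h1.unique h3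
    simp only [hRy0] at h4
    rw [Finset.sum_add_distrib] at h4
    have h5 : A b a = ∑ d, pd k (fun z => R z d a) y * R y d b :=
      Finset.sum_congr rfl fun d _ => mul_comm _ _
    have h6 : A a b = ∑ d, R y d a * pd k (fun z => R z d b) y := rfl
    rw [h5, h6]
    linarith
  set Us := rep K (star (s y)) with hUs
  have hUsU : Us * U y = 1 := rep_spin_star_mul K hmy
  have hUUs : U y * Us = 1 := rep_spin_mul_star K hmy
  -- `U' D` is in `W`
  have hW1 : Us * D ∈ W K := by
    refine mul_mem_W K (rep_mem_W K ?_) (fderiv_mem_W K hUd ?_ e)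
    · exact spinGroup.mem_even (spinGroup.star_mem hmy)
    · filter_upwards [hm] with z hz
      exact rep_mem_W K (spinGroup.mem_even hz)
  -- commutator
  have hc : ∀ b, Us * D * K.c b = K.c b * (Us * D) + ∑ p, A p b • K.c p := by
    intro b
    have h1 : HasDerivAt (fun t : ℝ => U (y + t • e) * K.c b) (D * K.c b) 0 := hu.mul_const _
    have h2 : HasDerivAt (fun t : ℝ => ∑ d, R (y + t • e) d b • (K.c d * U (y + t • e)))
        (∑ d, (R (y + (0 : ℝ) • e) d b • (K.c d * D) +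
          pd k (fun z => R z d b) y • (K.c d * U (y + (0 : ℝ) • e)))) 0 :=
      HasDerivAt.fun_sum fun d _ => (hr d b).smul (hu.const_mul (K.c d))
    have h3 : (fun t : ℝ => U (y + t • e) * K.c b) =ᶠ[𝓝 0]
        fun t : ℝ => ∑ d, R (y + t • e) d b • (K.c d * U (y + t • e)) := by
      filter_upwards [ev_line hl e] with t ht
      exact U_c K ht b
    have h4 := h1.unique (h2.congr_of_eventuallyEq h3)
    simp only [hRy0, hUy0] at h4
    rw [mul_assoc, h4, Finset.mul_sum]
    simp only [mul_add, mul_smul_comm, ← mul_assoc]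
    have h5 : ∀ d, Us * K.c d = ∑ p, R y d p • (K.c p * Us) := U_c_inv' K hmy hoy' hly
    have h6 : ∀ d, Us * K.c d * U y = ∑ p, R y d p • K.c p := U_c_inv K hmy hoy' hly
    simp only [h6]
    simp only [h5]
    rw [Finset.sum_add_distrib]
    congr 1
    · simp only [Finset.sum_mul, smul_mul_assoc, Finset.smul_sum, smul_smul]
      rw [Finset.sum_comm]
      have h7 : ∀ p, ∑ d, (R y d b * R y d p) • (K.c p * Us * D) =
          (if b = p then (1 : ℝ) else 0) • (K.c p * Us * D) := by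
        intro p
        rw [← Finset.sum_smul]
        congr 1
        have := congrFun (congrFun hoy b) p
        rw [Matrix.mul_apply, Matrix.one_apply] at this
        exact this
      simp only [h7]
      simp
    · simp only [Finset.smul_sum, smul_smul]
      rw [Finset.sum_comm]
      refine Finset.sum_congr rfl fun p _ => ?_
      rw [← Finset.sum_smul]
      congr 1
      exact Finset.sum_congr rfl fun d _ => mul_comm _ _
  -- the difference is a scalar
  obtain ⟨r, hr'⟩ := center K (z := Us * D - lam K A) (sub_mem hW1 (lam_mem_W K A)) fun b => by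
    have h1 := lam_comm K hAs b
    rw [mul_sub, sub_mul, hc b, ← h1]
    abel
  -- adjoint
  have had : ∀ v w, ⟪(Us * D) v, w⟫_ℂ = -⟪v, (Us * D) w⟫_ℂ := by
    intro v w
    have h1 : HasDerivAt (fun t : ℝ => U (y + t • e) v) (D v) 0 :=
      ((ContinuousLinearMap.apply ℂ V v).restrictScalars ℝ).hasFDerivAt.comp_hasDerivAt 0 hu
    have h2 : HasDerivAt (fun t : ℝ => U (y + t • e) w) (D w) 0 :=
      ((ContinuousLinearMap.apply ℂ V w).restrictScalars ℝ).hasFDerivAt.comp_hasDerivAt 0 hu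
    have h3 := h1.inner ℂ h2
    have h4 : (fun t : ℝ => ⟪U (y + t • e) v, U (y + t • e) w⟫_ℂ) =ᶠ[𝓝 0] fun _ => ⟪v, w⟫_ℂ := by
      filter_upwards [ev_line hm e] with t ht
      exact rep_unit K ht v w
    have h5 := h3.unique ((hasDerivAt_const (0 : ℝ) ⟪v, w⟫_ℂ).congr_of_eventuallyEq h4)
    rw [hUy0] at h5
    have h6 : ∀ u, D u = U y ((Us * D) u) := by
      intro u
      change D u = (U y * (Us * D)) u
      rw [← mul_assoc, hUUs, one_mul]
    rw [h6 v, h6 w, rep_unit K hmy, rep_unit K hmy] at h5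
    exact eq_neg_of_add_eq_zero_right h5
  have hz : Us * D - lam K A = 0 := by
    ext v
    have h1 : ⟪(Us * D - lam K A) v, v⟫_ℂ = -⟪v, (Us * D - lam K A) v⟫_ℂ := by
      change ⟪(Us * D) v - lam K A v, v⟫_ℂ = -⟪v, (Us * D) v - lam K A v⟫_ℂ
      rw [inner_sub_left, inner_sub_right, had, lam_adj K hAs]
      ring
    rw [hr'] at h1 ⊢
    change ⟪(r : ℂ) • v, v⟫_ℂ = -⟪v, (r : ℂ) • v⟫_ℂ at h1
    change (r : ℂ) • v = 0
    rw [inner_smul_left, inner_smul_right, Complex.conj_ofReal] at h1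
    have h2 : (r : ℂ) * ⟪v, v⟫_ℂ = 0 := by
      have : (2 : ℂ) * ((r : ℂ) * ⟪v, v⟫_ℂ) = 0 := by linear_combination h1
      exact (mul_eq_zero.1 this).resolve_left two_ne_zero
    rcases mul_eq_zero.1 h2 with h3 | h3
    · rw [h3, zero_smul]
    · rw [inner_self_eq_zero.1 h3, smul_zero]
  calc D = U y * (Us * D) := by rw [← mul_assoc, hUUs, one_mul]
    _ = U y * lam K A := by rw [sub_eq_zero.1 hz]

end der

end Vale.Agent.P223.H441
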