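import Vale.Agent.P223.H566.Def
import Vale.Agent.P223.H.B2
import Vale.Agent.P223.X.MetU

/-! Smooth oriented orthonormal frames. -/

namespace Vale.Agent.P223.H441

open Vale.Agent.P223.H566 Vale.Agent.P223.H Vale.Agent.P223.X
open scoped ContDiff Topology Matrix

/-- smooth factorisation of positive definite matrices -/
theorem factor' {X : Type} [NormedAddCommGroup X] [NormedSpace ℝ X] : ∀ (m : ℕ)
    (A : X → Matrix (Fin m) (Fin m) ℝ), (∀ i j, ContDiff ℝ ∞ fun x => A x i j) →
    (∀ x, (A x).PosDef) → ∃ v : X → Matrix (Fin m) (Fin m) ℝ,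
      (∀ k i, ContDiff ℝ ∞ fun x => v x k i) ∧ (∀ x i j, A x i j = ∑ k, v x k i * v x k j) ∧
      ∀ x, 0 < (v x).det
  | 0, A, _, _ => ⟨fun _ => 1, fun k => k.elim0, fun x i => i.elim0, fun x => by simp⟩
  | m + 1, A, hA, hp => by
    have hsym : ∀ x i j, A x i j = A x j i := fun x i j => by
      have := congrFun (congrFun (hp x).isHermitian j) i
      simpa using this
    have h00 : ∀ x, 0 < A x 0 0 := fun x => (hp x).diag_pos
    let A' : X → Matrix (Fin m) (Fin m) ℝ := fun x =>
      Matrix.of fun i j => A x i.succ j.succ - A x i.succ 0 * A x j.succ 0 / A x 0 0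
    have hA' : ∀ i j, ContDiff ℝ ∞ fun x => A' x i j := fun i j =>
      (hA _ _).sub (((hA _ _).mul (hA _ _)).div (hA _ _) fun x => (h00 x).ne')
    have hp' : ∀ x, (A' x).PosDef := by
      intro x
      refine Matrix.PosDef.of_dotProduct_mulVec_pos ?_ fun w hw => ?_
      · ext i j
        simp only [Matrix.conjTranspose_apply, A', Matrix.of_apply, star_trivial]
        rw [hsym x j.succ i.succ]; ring
      · set c : ℝ := -(∑ j, A x j.succ 0 * w j) / A x 0 0 with hc
        have hz : (Fin.cons c w : Fin (m + 1) → ℝ) ≠ 0 := by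
          intro h0
          apply hw
          funext j
          have := congrFun h0 j.succ
          simpa using this
        have h1 := (hp x).dotProduct_mulVec_pos hz
        have e1 : star w ⬝ᵥ (A' x *ᵥ w) = (∑ i, ∑ j, A x i.succ j.succ * w i * w j) -
            (∑ j, A x j.succ 0 * w j) ^ 2 / A x 0 0 := by
          simp only [dotProduct, Matrix.mulVec, star_trivial, A', Matrix.of_apply]
          rw [sq, Finset.sum_mul_sum, Finset.sum_div, ← Finset.sum_sub_distrib]
          refine Finset.sum_congr rfl fun i _ => ?_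
          rw [Finset.mul_sum, Finset.sum_div, ← Finset.sum_sub_distrib]
          refine Finset.sum_congr rfl fun j _ => ?_
          ring
        have e2 : star (Fin.cons c w : Fin (m + 1) → ℝ) ⬝ᵥ (A x *ᵥ (Fin.cons c w : Fin (m + 1) → ℝ))
            = A x 0 0 * c ^ 2 + 2 * c * (∑ j, A x j.succ 0 * w j) +
              ∑ i, ∑ j, A x i.succ j.succ * w i * w j := by
          simp only [dotProduct, Matrix.mulVec, star_trivial, Fin.sum_univ_succ, Fin.cons_zero,
            Fin.cons_succ]
          have : ∑ i, A x 0 (Fin.succ i) * w i = ∑ j, A x j.succ 0 * w j :=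
            Finset.sum_congr rfl fun i _ => by rw [hsym x 0 i.succ]
          rw [this]
          simp only [mul_add, Finset.sum_add_distrib]
          have e3 : ∑ i, w i * (A x (Fin.succ i) 0 * c) = c * ∑ j, A x j.succ 0 * w j := by
            rw [Finset.mul_sum]; exact Finset.sum_congr rfl fun i _ => by ring
          have e4 : ∑ i, w i * ∑ j, A x (Fin.succ i) (Fin.succ j) * w j =
              ∑ i, ∑ j, A x i.succ j.succ * w i * w j :=
            Finset.sum_congr rfl fun i _ => by
              rw [Finset.mul_sum]; exact Finset.sum_congr rfl fun j _ => by ring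
          rw [e3, e4]; ring
        rw [e1]
        rw [e2] at h1
        have h2 : A x 0 0 * c ^ 2 + 2 * c * (∑ j, A x j.succ 0 * w j) =
            - ((∑ j, A x j.succ 0 * w j) ^ 2 / A x 0 0) := by
          rw [hc]
          have := (h00 x).ne'
          field_simp
          ring
        linarith
    obtain ⟨v, hv, hv', hd⟩ := factor' m A' hA' hp'
    have hs0 : ∀ x, 0 < √(A x 0 0) := fun x => Real.sqrt_pos.2 (h00 x)
    refine ⟨fun x => Matrix.of (Fin.cons (fun i => A x i 0 / √(A x 0 0)) fun k => Fin.cons 0 (v x k)),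
      fun k i => ?_, fun x i j => ?_, fun x => ?_⟩
    · refine Fin.cases ?_ (fun k => ?_) k
      · simp only [Matrix.of_apply, Fin.cons_zero]
        exact (hA _ _).div ((hA _ _).sqrt fun x => (h00 x).ne') fun x => (hs0 x).ne'
      · simp only [Matrix.of_apply, Fin.cons_succ]
        refine Fin.cases ?_ (fun i => ?_) i
        · simp only [Fin.cons_zero]; exact contDiff_const
        · simp only [Fin.cons_succ]; exact hv k i
    · rw [Fin.sum_univ_succ]
      simp only [Matrix.of_apply, Fin.cons_zero, Fin.cons_succ]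
      have hs : √(A x 0 0) * √(A x 0 0) = A x 0 0 := Real.mul_self_sqrt (h00 x).le
      have h0 := (h00 x).ne'
      rw [div_mul_div_comm, hs]
      refine Fin.cases ?_ (fun i => ?_) i
      · simp only [Fin.cons_zero, zero_mul, Finset.sum_const_zero, add_zero]
        rw [hsym x 0 j]
        field_simp
      · refine Fin.cases ?_ (fun j => ?_) j
        · simp only [Fin.cons_zero, mul_zero, Finset.sum_const_zero, add_zero]
          field_simp
        · simp only [Fin.cons_succ]
          rw [← hv' x i j]
          simp only [A', Matrix.of_apply]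
          ring
    · dsimp only
      rw [Matrix.det_succ_column_zero, Fin.sum_univ_succ]
      have h3 : (Matrix.of (Fin.cons (fun i => A x i 0 / √(A x 0 0)) fun k => Fin.cons 0 (v x k)) :
          Matrix (Fin (m + 1)) (Fin (m + 1)) ℝ).submatrix (Fin.succAbove 0) Fin.succ = v x := by
        ext i j
        simp [Matrix.submatrix_apply]
      rw [h3]
      simp only [Matrix.of_apply, Fin.cons_succ, Fin.cons_zero, mul_zero, zero_mul,
        Finset.sum_const_zero, add_zero]
      have := hd x
      have := h00 x
      have := hs0 x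
      simp only [Fin.val_zero, pow_zero, one_mul]
      positivity

/-- smooth oriented orthonormal frames exist -/
theorem exists_frame {n : ℕ} {G : E n → Matrix (Fin n) (Fin n) ℝ}
    (hG : ∀ i j, ContDiff ℝ ∞ fun x => G x i j) (hp : ∀ x, (G x).PosDef) :
    ∃ β : E n → Matrix (Fin n) (Fin n) ℝ, Fr G β := by
  have hm := Bridge.metricOn hG hp
  obtain ⟨v, hv, hv', hd⟩ := factor' n (fun x => (G x)⁻¹)
    (fun i j => contDiff_iff_contDiffAt.2 fun x => hm.sm_inv isOpen_univ (Set.mem_univ x) i j)
    fun x => (hp x).inv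
  refine ⟨v, hv, fun y => ?_, hd⟩
  have h1 : (G y)⁻¹ = (v y)ᵀ * v y := by
    ext i j
    rw [hv' y i j, Matrix.mul_apply]
    rfl
  have h2 : (G y)⁻¹ * G y = 1 := hm.inv_mul (Set.mem_univ y)
  rw [h1] at h2
  have h3 : G y * (v y)ᵀ * v y = 1 := by
    rw [Matrix.mul_assoc]; exact mul_eq_one_comm.1 h2
  rw [Matrix.mul_assoc]
  exact mul_eq_one_comm.1 h3

end Vale.Agent.P223.H441
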