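import Vale.Agent.P223.H441.Pin
import Vale.Agent.P223.H441.Frame

/-! The derivative of a lift; version for operators. -/

namespace Vale.Agent.P223.H441

open Vale.Agent.P223.H566 Vale.Agent.P223.H
open scoped ContDiff Topology Matrix InnerProductSpace

section der
variable {n : ℕ} {V : Type} [NormedAddCommGroup V] [InnerProductSpace ℂ V] {K : Cliff n V}

theorem Lf.c {u : V →L[ℂ] V} {Q : Matrix (Fin n) (Fin n) ℝ} (h : Lf K Q u)
    (b : Fin n) : u * K.c b = ∑ d, Q d b • (K.c d * u) := by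
  have h1 := h.lift (Pi.single b 1)
  rw [cv_single, cv_apply, Finset.sum_mul] at h1
  rw [h1]
  refine Finset.sum_congr rfl fun d _ => ?_
  rw [Matrix.mulVec_single_one, smul_mul_assoc]
  rfl

variable [CompleteSpace V]

theorem Lf.c_inv {u : V →L[ℂ] V} {Q : Matrix (Fin n) (Fin n) ℝ} (h : Lf K Q u) (hQ : Q * Qᵀ = 1)
    (p : Fin n) : star u * K.c p * u = ∑ b, Q p b • K.c b := by
  have h1 : ∀ b, K.c b = ∑ d, Q d b • (star u * K.c d * u) := by
    intro b
    have h2 := congrArg (star u * ·) (h.c b)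
    simp only [← mul_assoc] at h2
    rw [h.star_mul, one_mul, Finset.mul_sum] at h2
    rw [h2]
    refine Finset.sum_congr rfl fun d _ => ?_
    rw [mul_smul_comm, mul_assoc]
  have h3 : ∑ b, Q p b • K.c b =
      ∑ b, Q p b • ∑ d, Q d b • (star u * K.c d * u) :=
    Finset.sum_congr rfl fun b _ => congrArg _ (h1 b)
  rw [h3]
  simp only [Finset.smul_sum, smul_smul]
  rw [Finset.sum_comm]
  have h4 : ∀ d, ∑ b, (Q p b * Q d b) • (star u * K.c d * u) =
      (if p = d then (1 : ℝ) else 0) • (star u * K.c d * u) := by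
    intro d
    rw [← Finset.sum_smul]
    congr 1
    have := congrFun (congrFun hQ p) d
    rw [Matrix.mul_apply, Matrix.one_apply] at this
    exact this
  simp only [h4]
  simp

variable [FiniteDimensional ℂ V]

theorem Lf.c_inv' {u : V →L[ℂ] V} {Q : Matrix (Fin n) (Fin n) ℝ} (h : Lf K Q u) (hQ : Q * Qᵀ = 1)
    (p : Fin n) : star u * K.c p = ∑ b, Q p b • (K.c b * star u) := by
  have h1 := congrArg (· * star u) (h.c_inv hQ p)
  simp only [mul_assoc] at h1
  rw [h.mul_star, mul_one, Finset.sum_mul] at h1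
  rw [h1]
  exact Finset.sum_congr rfl fun b _ => smul_mul_assoc _ _ _

theorem Lf.w {u : V →L[ℂ] V} {Q : Matrix (Fin n) (Fin n) ℝ} (h : Lf K Q u) (hQ : Q * Qᵀ = 1)
    (p : Fin n) : u * ∑ b, Q p b • K.c b = K.c p * u := by
  rw [← h.c_inv hQ p, ← mul_assoc, ← mul_assoc, h.mul_star, one_mul]

theorem Lf.conj {u : V →L[ℂ] V} {Q : Matrix (Fin n) (Fin n) ℝ} (h : Lf K Q u) (hQ : Q * Qᵀ = 1)
    (B : Fin n → Fin n → ℝ) :
    u * lam K (fun a b => ∑ d, ∑ c, Q d a * B d c * Q c b) = lam K B * u := by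
  rw [lam_eq, Finset.mul_sum]
  unfold lam
  rw [Finset.sum_mul]
  refine Finset.sum_congr rfl fun d _ => ?_
  rw [Finset.mul_sum, Finset.sum_mul]
  refine Finset.sum_congr rfl fun c _ => ?_
  rw [mul_smul_comm, smul_mul_assoc, ← mul_assoc, h.w hQ, mul_assoc, h.w hQ, ← mul_assoc]

/-- the derivative of a lift -/
theorem fderiv_Lf {U : E n → V →L[ℂ] V} {R : E n → Matrix (Fin n) (Fin n) ℝ} {y : E n}
    (hU : ContDiffAt ℝ ∞ U y)
    (hR : ∀ a b, ContDiffAt ℝ ∞ (fun z => R z a b) y)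
    (hm : ∀ᶠ z in 𝓝 y, Lf K (R z) (U z))
    (ho : ∀ᶠ z in 𝓝 y, (R z)ᵀ * R z = 1) (k : Fin n) :
    fderiv ℝ U y (Pi.single k 1) =
      U y * lam K (fun a b => ∑ d, R y d a * H.pd k (fun z => R z d b) y) := by
  set e : E n := Pi.single k 1 with he
  have hUd : DifferentiableAt ℝ U y := hU.differentiableAt (by simp)
  set D := fderiv ℝ U y e with hD
  have hRd : ∀ a b, DifferentiableAt ℝ (fun z => R z a b) y := fun a b =>
    (hR a b).differentiableAt (by simp)
  set A : Fin n → Fin n → ℝ := fun a b => ∑ d, R y d a * H.pd k (fun z => R z d b) y with hA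
  have hu := line hUd e
  have hr : ∀ a b, HasDerivAt (fun t : ℝ => R (y + t • e) a b) (H.pd k (fun z => R z a b) y) 0 :=
    fun a b => line (hRd a b) e
  have hmy := hm.self_of_nhds
  have hoy := ho.self_of_nhds
  have hoy' : R y * (R y)ᵀ = 1 := mul_eq_one_comm.1 hoy
  have hRy0 : ∀ a b, R (y + (0 : ℝ) • e) a b = R y a b := fun a b => by rw [zero_smul, add_zero]
  have hUy0 : U (y + (0 : ℝ) • e) = U y := by rw [zero_smul, add_zero]
  -- `A` is antisymmetric
  have hAs : ∀ a b, A a b = -A b a := by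
    intro a b
    have h1 : HasDerivAt (fun t : ℝ => ∑ d, R (y + t • e) d a * R (y + t • e) d b)
        (∑ d, (H.pd k (fun z => R z d a) y * R (y + (0 : ℝ) • e) d b +
          R (y + (0 : ℝ) • e) d a * H.pd k (fun z => R z d b) y)) 0 :=
      HasDerivAt.fun_sum fun d _ => (hr d a).mul (hr d b)
    have h2 : (fun t : ℝ => ∑ d, R (y + t • e) d a * R (y + t • e) d b) =ᶠ[𝓝 0]
        fun _ => (1 : Matrix (Fin n) (Fin n) ℝ) a b := by
      filter_upwards [ev_line ho e] with t ht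
      have := congrFun (congrFun ht a) b
      rw [Matrix.mul_apply] at this
      exact this
    have h3 : HasDerivAt (fun t : ℝ => ∑ d, R (y + t • e) d a * R (y + t • e) d b) 0 0 :=
      (hasDerivAt_const 0 _).congr_of_eventuallyEq h2
    have h4 := h1.unique h3
    simp only [hRy0] at h4
    rw [Finset.sum_add_distrib] at h4
    have h5 : A b a = ∑ d, H.pd k (fun z => R z d a) y * R y d b :=
      Finset.sum_congr rfl fun d _ => mul_comm _ _
    have h6 : A a b = ∑ d, R y d a * H.pd k (fun z => R z d b) y := rfl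
    rw [h5, h6]
    linarith
  set Us := star (U y) with hUs
  have hUsU : Us * U y = 1 := hmy.star_mul
  have hUUs : U y * Us = 1 := hmy.mul_star
  -- `U' D` is in `W`
  have hW1 : Us * D ∈ W K := by
    refine mul_mem_W K (star_mem_W K hmy.mem) (fderiv_mem_W K hUd ?_ e)
    filter_upwards [hm] with z hz
    exact hz.mem
  -- commutator
  have hc : ∀ b, Us * D * K.c b = K.c b * (Us * D) + ∑ p, A p b • K.c p := by
    intro b
    have h1 : HasDerivAt (fun t : ℝ => U (y + t • e) * K.c b) (D * K.c b) 0 := hu.mul_const _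
    have h2 : HasDerivAt (fun t : ℝ => ∑ d, R (y + t • e) d b • (K.c d * U (y + t • e)))
        (∑ d, (R (y + (0 : ℝ) • e) d b • (K.c d * D) +
          H.pd k (fun z => R z d b) y • (K.c d * U (y + (0 : ℝ) • e)))) 0 :=
      HasDerivAt.fun_sum fun d _ => (hr d b).smul (hu.const_mul (K.c d))
    have h3 : (fun t : ℝ => U (y + t • e) * K.c b) =ᶠ[𝓝 0]
        fun t : ℝ => ∑ d, R (y + t • e) d b • (K.c d * U (y + t • e)) := by
      filter_upwards [ev_line hm e] with t ht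
      exact ht.c b
    have h4 := h1.unique (h2.congr_of_eventuallyEq h3)
    simp only [hRy0, hUy0] at h4
    rw [mul_assoc, h4, Finset.mul_sum]
    simp only [mul_add, mul_smul_comm, ← mul_assoc]
    have h5 : ∀ d, Us * K.c d = ∑ p, R y d p • (K.c p * Us) := hmy.c_inv' hoy'
    have h6 : ∀ d, Us * K.c d * U y = ∑ p, R y d p • K.c p := hmy.c_inv hoy'
    simp only [h6]
    simp only [h5]
    rw [Finset.sum_add_distrib]
    congr 1
    · simp only [Finset.sum_mul, smul_mul_assoc, Finset.smul_sum, smul_smul]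
      rw [Finset.sum_comm]
      have h7 : ∀ p, ∑ d, (R y d b * R y d p) • (K.c p * Us * D) =
          (if b = p then (1 : ℝ) else 0) • (K.c p * Us * D) := by
        intro p
        rw [← Finset.sum_smul]
        congr 1
        have := congrFun (congrFun hoy b) p
        rw [Matrix.mul_apply, Matrix.one_apply] at this
        exact this
      simp only [h7]
      simp
    · simp only [Finset.smul_sum, smul_smul]
      rw [Finset.sum_comm]
      refine Finset.sum_congr rfl fun p _ => ?_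
      rw [← Finset.sum_smul]
      congr 1
      exact Finset.sum_congr rfl fun d _ => mul_comm _ _
  -- the difference is a scalar
  obtain ⟨r, hr'⟩ := center K (z := Us * D - lam K A) (sub_mem hW1 (lam_mem_W K A)) fun b => by
    have h1 := lam_comm K hAs b
    rw [mul_sub, sub_mul, hc b, ← h1]
    abel
  -- adjoint
  have had : ∀ v w, ⟪(Us * D) v, w⟫_ℂ = -⟪v, (Us * D) w⟫_ℂ := by
    intro v w
    have h1 : HasDerivAt (fun t : ℝ => U (y + t • e) v) (D v) 0 :=
      ((ContinuousLinearMap.apply ℂ V v).restrictScalars ℝ).hasFDerivAt.comp_hasDerivAt 0 hu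
    have h2 : HasDerivAt (fun t : ℝ => U (y + t • e) w) (D w) 0 :=
      ((ContinuousLinearMap.apply ℂ V w).restrictScalars ℝ).hasFDerivAt.comp_hasDerivAt 0 hu
    have h3 := h1.inner ℂ h2
    have h4 : (fun t : ℝ => ⟪U (y + t • e) v, U (y + t • e) w⟫_ℂ) =ᶠ[𝓝 0] fun _ => ⟪v, w⟫_ℂ := by
      filter_upwards [ev_line hm e] with t ht
      exact ht.unit v w
    have h5 := h3.unique ((hasDerivAt_const (0 : ℝ) ⟪v, w⟫_ℂ).congr_of_eventuallyEq h4)
    rw [hUy0] at h5
    have h6 : ∀ u, D u = U y ((Us * D) u) := by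
      intro u
      change D u = (U y * (Us * D)) u
      rw [← mul_assoc, hUUs, one_mul]
    rw [h6 v, h6 w, hmy.unit, hmy.unit] at h5
    exact eq_neg_of_add_eq_zero_right h5
  have hz : Us * D - lam K A = 0 := by
    ext v
    have h1 : ⟪(Us * D - lam K A) v, v⟫_ℂ = -⟪v, (Us * D - lam K A) v⟫_ℂ := by
      change ⟪(Us * D) v - lam K A v, v⟫_ℂ = -⟪v, (Us * D) v - lam K A v⟫_ℂ
      rw [inner_sub_left, inner_sub_right, had, lam_adj K hAs]
      ring
    rw [hr'] at h1 ⊢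
    change ⟪(r : ℂ) • v, v⟫_ℂ = -⟪v, (r : ℂ) • v⟫_ℂ at h1
    change (r : ℂ) • v = 0
    rw [inner_smul_left, inner_smul_right, Complex.conj_ofReal] at h1
    have h2 : (r : ℂ) * ⟪v, v⟫_ℂ = 0 := by
      have : (2 : ℂ) * ((r : ℂ) * ⟪v, v⟫_ℂ) = 0 := by linear_combination h1
      exact (mul_eq_zero.1 this).resolve_left two_ne_zero
    rcases mul_eq_zero.1 h2 with h3 | h3
    · rw [h3, zero_smul]
    · rw [inner_self_eq_zero.1 h3, smul_zero]
  calc D = U y * (Us * D) := by rw [← mul_assoc, hUUs, one_mul]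
    _ = U y * lam K A := by rw [sub_eq_zero.1 hz]

end der

section loc
variable {n : ℕ} {V : Type} [NormedAddCommGroup V] [InnerProductSpace ℂ V] {K : Cliff n V}
  {G₁ G₂ β₁ β₂ : E n → Matrix (Fin n) (Fin n) ℝ} {τ : E n → E n} {y : E n}
  [CompleteSpace V] [FiniteDimensional ℂ V]

theorem conn_Lf (hG₁ : IsMetricOn Set.univ G₁)
    (hG₂ : IsMetricOn Set.univ G₂) (hτ : ContDiffAt ℝ ∞ τ y)
    (hc : ∀ᶠ z in 𝓝 y, G₁ z = (jac τ z)ᵀ * G₂ (τ z) * jac τ z)
    (h1 : Fr G₁ β₁) (h2 : Fr G₂ β₂) {U : E n → V →L[ℂ] V} (hU : ContDiffAt ℝ ∞ U y)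
    (hm : ∀ᶠ z in 𝓝 y, Lf K (Rm G₂ β₁ β₂ τ z) (U z)) (k : Fin n) :
    fderiv ℝ U y (Pi.single k 1) =
      U y * spc K G₁ β₁ y k -
        (∑ l, rs (jac τ y l k) (spc K G₂ β₂ (τ y) l)) * U y := by
  have p2 : ∀ z, (G₂ z).PosDef := fun z => hG₂.posDef z trivial
  have sR := smooth_Rm (G₂ := G₂) (fun a b => contDiffOn_univ.1 (hG₂.smooth a b)) h1.smooth
    h2.smooth hτ
  have ho : ∀ᶠ z in 𝓝 y, (Rm G₂ β₁ β₂ τ z)ᵀ * Rm G₂ β₁ β₂ τ z = 1 := by
    filter_upwards [hc] with z hz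
    exact Rm_orth p2 h1.orth h2.orth hz
  have hoy := ho.self_of_nhds
  have hoy' : Rm G₂ β₁ β₂ τ y * (Rm G₂ β₁ β₂ τ y)ᵀ = 1 := mul_eq_one_comm.1 hoy
  have e1 := fderiv_Lf hU sR hm ho k
  have e2 : H566.om G₁ β₁ y k = fun a b =>
      (∑ d, Rm G₂ β₁ β₂ τ y d a * H.pd k (fun z => Rm G₂ β₁ β₂ τ z d b) y) +
      ∑ l, jac τ y l k * ∑ d, ∑ c, Rm G₂ β₁ β₂ τ y d a * H566.om G₂ β₂ (τ y) l d c *
        Rm G₂ β₁ β₂ τ y c b := by
    funext a b
    exact om_trans hG₁ hG₂ hτ hc h1.smooth h2.smooth h2.orth _ sR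
      (Rm_mul p2 h2.orth) k a b
  have e4 := lam_sum K Finset.univ fun l a b => jac τ y l k *
    ∑ d, ∑ c, Rm G₂ β₁ β₂ τ y d a * H566.om G₂ β₂ (τ y) l d c * Rm G₂ β₁ β₂ τ y c b
  rw [e1, spc_eq, e2, lam_add, mul_add, e4]
  have e3 : ∑ l, U y * lam K (fun a b => jac τ y l k *
      ∑ d, ∑ c, Rm G₂ β₁ β₂ τ y d a * H566.om G₂ β₂ (τ y) l d c * Rm G₂ β₁ β₂ τ y c b) =
      (∑ l, rs (jac τ y l k) (spc K G₂ β₂ (τ y) l)) * U y := by
    rw [Finset.sum_mul]
    refine Finset.sum_congr rfl fun l _ => ?_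
    rw [lam_smul, mul_smul_comm, hm.self_of_nhds.conj hoy', rs_eq,
      smul_mul_assoc, spc_eq]
  rw [Finset.mul_sum (f := fun l => lam K fun a b => jac τ y l k *
    ∑ d, ∑ c, Rm G₂ β₁ β₂ τ y d a * H566.om G₂ β₂ (τ y) l d c * Rm G₂ β₁ β₂ τ y c b), e3,
    add_sub_cancel_right]

theorem cliff_Lf (p2 : ∀ z, (G₂ z).PosDef) (h1 : Fr G₁ β₁) (h2 : Fr G₂ β₂)
    (hc : G₁ y = (jac τ y)ᵀ * G₂ (τ y) * jac τ y) {u : V →L[ℂ] V}
    (hu : Lf K (Rm G₂ β₁ β₂ τ y) u) (l : Fin n) :
    u * ∑ k, rs (jac τ y l k) (cl K β₁ y k) = cl K β₂ (τ y) l * u := by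
  have ho := Rm_orth' p2 h1.orth h2.orth hc
  have e1 : ∑ k, rs (jac τ y l k) (cl K β₁ y k) =
      ∑ d, β₂ (τ y) d l • ∑ a, Rm G₂ β₁ β₂ τ y d a • K.c a := by
    unfold cl
    simp only [rs_eq, Finset.smul_sum, smul_smul]
    rw [Finset.sum_comm]
    rw [Finset.sum_comm (γ := Fin n) (f := fun d a => (β₂ (τ y) d l * Rm G₂ β₁ β₂ τ y d a) • K.c a)]
    refine Finset.sum_congr rfl fun a _ => ?_
    rw [← Finset.sum_smul, ← Finset.sum_smul]
    congr 1
    have h := congrFun (congrFun (Rm_mul (β₁ := β₁) (τ := τ) p2 h2.orth y) a) l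
    rw [Matrix.mul_apply, Matrix.mul_apply] at h
    simp only [Matrix.transpose_apply] at h
    rw [Finset.sum_congr rfl fun k _ => mul_comm (jac τ y l k) (β₁ y a k), ← h]
    exact Finset.sum_congr rfl fun d _ => mul_comm _ _
  rw [e1, Finset.mul_sum]
  simp only [mul_smul_comm, hu.w ho]
  unfold cl
  rw [Finset.sum_mul]
  exact Finset.sum_congr rfl fun d _ => by rw [rs_eq, smul_mul_assoc]

omit [CompleteSpace V] [FiniteDimensional ℂ V] in
theorem wd_vol (L : List (Fin n)) :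
    wd K L * K.vol = ((-1 : ℤ) ^ (n + 1)) ^ L.length • (K.vol * wd K L) := by
  induction L with
  | nil => simp
  | cons a L ih =>
    rw [wd_cons, mul_assoc, ih, mul_smul_comm, ← mul_assoc, c_vol, smul_mul_assoc, smul_smul,
      List.length_cons, mul_assoc, ← pow_succ]

omit [CompleteSpace V] [FiniteDimensional ℂ V] in
/-- a lift commutes with the volume element -/
theorem W_vol {u : V →L[ℂ] V} (h : u ∈ W K) : u * K.vol = K.vol * u := by
  induction h using Submodule.span_induction with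
  | mem x hx =>
    obtain ⟨L, hL, rfl⟩ := hx
    rw [wd_vol, ← pow_mul, mul_comm, pow_mul, hL.neg_one_pow, one_pow, one_smul]
  | zero => rw [zero_mul, mul_zero]
  | add y z _ _ h1 h2 => rw [add_mul, mul_add, h1, h2]
  | smul r y _ h => rw [smul_mul_assoc, mul_smul_comm, h]

end loc

end Vale.Agent.P223.H441
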