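import Vale.Agent.P223.H441.Sg
import Mathlib.Analysis.InnerProductSpace.ProdL2

/-! A Clifford module for `n + 1` from a Clifford module for `n`. -/

namespace Vale.Agent.P223.H441

open Vale.Agent.P223.H566 Vale.Agent.P223.H
open scoped ContDiff Topology Matrix InnerProductSpace

section dbl
variable {n : ℕ} {V : Type} [NormedAddCommGroup V] [InnerProductSpace ℂ V]

/-- `V ⊕ V` -/
def V2 (V : Type) : Type := WithLp 2 (V × V)

noncomputable instance : NormedAddCommGroup (V2 V) :=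
  inferInstanceAs (NormedAddCommGroup (WithLp 2 (V × V)))

noncomputable instance : InnerProductSpace ℂ (V2 V) :=
  inferInstanceAs (InnerProductSpace ℂ (WithLp 2 (V × V)))

/-- `V ⊕ V` -/
noncomputable def e2 : V2 V ≃L[ℂ] V × V := WithLp.prodContinuousLinearEquiv 2 ℂ V V

/-- diagonal operators -/
noncomputable def dg (A B : V →L[ℂ] V) : V2 V →L[ℂ] V2 V :=
  (e2 (V := V)).symm.toContinuousLinearMap ∘L (A.prodMap B) ∘L (e2 (V := V)).toContinuousLinearMap

/-- the swap -/
noncomputable def sw : V2 V →L[ℂ] V2 V :=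
  (e2 (V := V)).symm.toContinuousLinearMap ∘L
    ((ContinuousLinearMap.snd ℂ V V).prod (ContinuousLinearMap.fst ℂ V V)) ∘L
      (e2 (V := V)).toContinuousLinearMap

theorem dg_apply (A B : V →L[ℂ] V) (x : V2 V) : dg A B x = e2.symm (A (e2 x).1, B (e2 x).2) := rfl

theorem sw_apply (x : V2 V) : sw x = e2.symm ((e2 x).2, (e2 x).1) := rfl

theorem dg_mul (A B A' B' : V →L[ℂ] V) : dg A B * dg A' B' = dg (A * A') (B * B') := by
  ext x
  change dg A B (dg A' B' x) = _
  rw [dg_apply, dg_apply, dg_apply, ContinuousLinearEquiv.apply_symm_apply]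
  rfl

theorem sw_dg (A B : V →L[ℂ] V) : sw * dg A B = dg B A * sw := by
  ext x
  change sw (dg A B x) = dg B A (sw x)
  rw [dg_apply, dg_apply, sw_apply, sw_apply, ContinuousLinearEquiv.apply_symm_apply,
    ContinuousLinearEquiv.apply_symm_apply]

theorem sw_sw : (sw : V2 V →L[ℂ] V2 V) * sw = 1 := by
  ext x
  change sw (sw x) = x
  rw [sw_apply, sw_apply, ContinuousLinearEquiv.apply_symm_apply]
  exact e2.symm_apply_apply x

theorem dg_one : dg (1 : V →L[ℂ] V) 1 = 1 := by
  ext x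
  rw [dg_apply]
  exact e2.symm_apply_apply x

theorem dg_add (A B A' B' : V →L[ℂ] V) : dg A B + dg A' B' = dg (A + A') (B + B') := by
  ext x
  change dg A B x + dg A' B' x = _
  rw [dg_apply, dg_apply, dg_apply, ← map_add]
  rfl

theorem dg_zero : dg (0 : V →L[ℂ] V) 0 = 0 := by
  ext x
  rw [dg_apply]
  exact map_zero (e2 (V := V)).symm

theorem dg_rsmul (r : ℝ) (A B : V →L[ℂ] V) : dg (r • A) (r • B) = r • dg A B := by
  ext x
  change dg (r • A) (r • B) x = (r : ℂ) • dg A B x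
  rw [dg_apply, dg_apply, ← map_smul]
  rfl

theorem dg_neg (A B : V →L[ℂ] V) : dg (-A) (-B) = -dg A B := by
  have := dg_rsmul (-1) A B
  rwa [neg_one_smul, neg_one_smul, neg_one_smul] at this

theorem inner_e2 (x y : V2 V) : ⟪x, y⟫_ℂ = ⟪(e2 x).1, (e2 y).1⟫_ℂ + ⟪(e2 x).2, (e2 y).2⟫_ℂ :=
  WithLp.prod_inner_apply x y

/-- the Clifford module `V ⊕ V` -/
noncomputable def K2 (K : Cliff n V) : Cliff (n + 1) (V2 V) where
  c := Fin.cons sw fun k => dg (K.c k) (-K.c k)
  symm a v w := by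
    refine Fin.cases ?_ (fun a => ?_) a
    · rw [Fin.cons_zero, inner_e2, inner_e2, sw_apply, sw_apply,
        ContinuousLinearEquiv.apply_symm_apply, ContinuousLinearEquiv.apply_symm_apply]
      exact add_comm _ _
    · rw [Fin.cons_succ, inner_e2, inner_e2, dg_apply, dg_apply,
        ContinuousLinearEquiv.apply_symm_apply, ContinuousLinearEquiv.apply_symm_apply]
      change ⟪K.c a _, _⟫_ℂ + ⟪-(K.c a _), _⟫_ℂ = ⟪_, K.c a _⟫_ℂ + ⟪_, -(K.c a _)⟫_ℂ
      rw [inner_neg_left, inner_neg_right, K.symm, K.symm]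
  rel a b := by
    refine Fin.cases ?_ (fun a => ?_) a
    · refine Fin.cases ?_ (fun b => ?_) b
      · rw [Fin.cons_zero, sw_sw, if_pos rfl]
        exact one_add_one_eq_two
      · rw [Fin.cons_zero, Fin.cons_succ, sw_dg, if_neg (Fin.succ_ne_zero b).symm, ← add_mul,
          dg_add, neg_add_cancel, add_neg_cancel, dg_zero, zero_mul]
    · refine Fin.cases ?_ (fun b => ?_) b
      · rw [Fin.cons_zero, Fin.cons_succ, sw_dg, if_neg (Fin.succ_ne_zero a), ← add_mul,
          dg_add, neg_add_cancel, add_neg_cancel, dg_zero, zero_mul]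
      · rw [Fin.cons_succ, Fin.cons_succ, dg_mul, dg_mul, dg_add, neg_mul_neg, neg_mul_neg,
          K.rel]
        by_cases h : a = b
        · rw [if_pos h, if_pos (congrArg _ h)]
          have : (2 : V →L[ℂ] V) = 1 + 1 := one_add_one_eq_two.symm
          rw [this, ← dg_add, dg_one, one_add_one_eq_two]
        · rw [if_neg h, if_neg fun h' => h (Fin.succ_injective _ h'), dg_zero]

variable (K : Cliff n V)

theorem K2_zero : (K2 K).c 0 = sw := rfl

theorem K2_succ (k : Fin n) : (K2 K).c k.succ = dg (K.c k) (-K.c k) := rfl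

/-- the matrix `1 ⊕ R` -/
def sp (R : Matrix (Fin n) (Fin n) ℝ) : Matrix (Fin (n + 1)) (Fin (n + 1)) ℝ := fun a b =>
  Fin.cases (Fin.cases 1 (fun _ => 0) b) (fun a' => Fin.cases 0 (fun b' => R a' b') b) a

theorem sp_00 (R : Matrix (Fin n) (Fin n) ℝ) : sp R 0 0 = 1 := rfl
theorem sp_0s (R : Matrix (Fin n) (Fin n) ℝ) (b : Fin n) : sp R 0 b.succ = 0 := rfl
theorem sp_s0 (R : Matrix (Fin n) (Fin n) ℝ) (a : Fin n) : sp R a.succ 0 = 0 := rfl
theorem sp_ss (R : Matrix (Fin n) (Fin n) ℝ) (a b : Fin n) : sp R a.succ b.succ = R a b := rfl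

theorem cv_K2 (v : E (n + 1)) : cv (K2 K) v =
    v 0 • sw + dg (cv K fun k => v k.succ) (-cv K fun k => v k.succ) := by
  rw [cv_apply, Fin.sum_univ_succ, K2_zero]
  congr 1
  have h : ∀ k : Fin n, v k.succ • (K2 K).c k.succ = dg (v k.succ • K.c k) (v k.succ • -K.c k) :=
    fun k => by rw [K2_succ, dg_rsmul]
  rw [Finset.sum_congr rfl fun k _ => h k]
  have h2 : ∀ s : Finset (Fin n), ∑ k ∈ s, dg (v k.succ • K.c k) (v k.succ • -K.c k) =
      dg (∑ k ∈ s, v k.succ • K.c k) (∑ k ∈ s, v k.succ • -K.c k) := by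
    intro s
    classical
    induction s using Finset.induction_on with
    | empty => simp [dg_zero]
    | insert i s hi ih => rw [Finset.sum_insert hi, ih, Finset.sum_insert hi, Finset.sum_insert hi,
        dg_add]
  rw [h2, cv_apply]
  simp only [smul_neg, Finset.sum_neg_distrib]

theorem wd_K2 (L : List (Fin n)) :
    wd (K2 K) (L.map Fin.succ) = dg (wd K L) ((-1 : ℤ) ^ L.length • wd K L) := by
  induction L with
  | nil => simp [dg_one]
  | cons a L ih =>
    rw [List.map_cons, wd_cons, ih, K2_succ, dg_mul, wd_cons, List.length_cons, pow_succ]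
    congr 1
    rw [neg_mul, mul_smul_comm, mul_neg, mul_one, neg_smul]

theorem dg_mem {u : V →L[ℂ] V} (h : u ∈ W K) : dg u u ∈ W (K2 K) := by
  induction h using Submodule.span_induction with
  | mem x hx =>
    obtain ⟨L, hL, rfl⟩ := hx
    have := wd_K2 K L
    rw [hL.neg_one_pow, one_smul] at this
    rw [← this]
    exact wd_mem_W _ (by rwa [List.length_map])
  | zero => rw [dg_zero]; exact zero_mem _
  | add y z _ _ h1 h2 => rw [← dg_add]; exact add_mem h1 h2
  | smul r y _ h => rw [dg_rsmul]; exact Submodule.smul_mem _ _ h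

variable {K}

theorem Lf.dbl {R : Matrix (Fin n) (Fin n) ℝ} {u : V →L[ℂ] V} (h : Lf K R u) :
    Lf (K2 K) (sp R) (dg u u) where
  mem := dg_mem K h.mem
  unit v w := by
    rw [inner_e2, inner_e2, dg_apply, dg_apply, ContinuousLinearEquiv.apply_symm_apply,
      ContinuousLinearEquiv.apply_symm_apply]
    change ⟪u _, u _⟫_ℂ + ⟪u _, u _⟫_ℂ = _
    rw [h.unit, h.unit]
  lift v := by
    have h0 : (sp R *ᵥ v) 0 = v 0 := by
      rw [Matrix.mulVec, dotProduct, Fin.sum_univ_succ, sp_00, one_mul]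
      simp [sp_0s]
    have h1 : (fun k : Fin n => (sp R *ᵥ v) k.succ) = R *ᵥ fun k => v k.succ := by
      funext k
      rw [Matrix.mulVec, dotProduct, Fin.sum_univ_succ, sp_s0, zero_mul, zero_add]
      rfl
    rw [cv_K2, cv_K2, h0, h1, mul_add, add_mul, mul_smul_comm, smul_mul_assoc, sw_dg, dg_mul,
      dg_mul, h.lift, mul_neg, neg_mul, h.lift]

/-- compression to the first summand -/
noncomputable def cp : (V2 V →L[ℂ] V2 V) →L[ℂ] (V →L[ℂ] V) :=
  (ContinuousLinearMap.compL ℂ V (V2 V) V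
    ((ContinuousLinearMap.fst ℂ V V) ∘L (e2 (V := V)).toContinuousLinearMap)) ∘L
  ((ContinuousLinearMap.compL ℂ V (V2 V) (V2 V)).flip
    ((e2 (V := V)).symm.toContinuousLinearMap ∘L (ContinuousLinearMap.inl ℂ V V)))

theorem cp_dg (A B : V →L[ℂ] V) : cp (dg A B) = A := by
  ext x
  change (e2 (dg A B (e2.symm (x, 0)))).1 = A x
  rw [dg_apply, ContinuousLinearEquiv.apply_symm_apply, ContinuousLinearEquiv.apply_symm_apply]

theorem contDiffAt_cp {F : Type} [NormedAddCommGroup F] [NormedSpace ℝ F]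
    {u : F → V2 V →L[ℂ] V2 V} {y : F} (h : ContDiffAt ℝ ∞ u y) :
    ContDiffAt ℝ ∞ (fun z => cp (u z)) y :=
  ((cp (V := V)).restrictScalars ℝ).contDiff.contDiffAt.comp y h

end dbl

section dbl2
variable {n : ℕ} {V : Type} [NormedAddCommGroup V] [InnerProductSpace ℂ V]
  [FiniteDimensional ℂ V] {K : Cliff n V}

instance : FiniteDimensional ℂ (V2 V) := Module.Finite.equiv (e2 (V := V)).symm.toLinearEquiv

instance : CompleteSpace (V2 V) := FiniteDimensional.complete ℂ (V2 V)

instance [Nontrivial V] : Nontrivial (V2 V) := (e2 (V := V)).toEquiv.nontrivial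

theorem sp_orth {R : Matrix (Fin n) (Fin n) ℝ} (h : Rᵀ * R = 1) : (sp R)ᵀ * sp R = 1 := by
  ext a b
  rw [Matrix.mul_apply, Fin.sum_univ_succ]
  have h' := fun a b => congrFun (congrFun h a) b
  simp only [Matrix.mul_apply, Matrix.transpose_apply] at h'
  refine Fin.cases ?_ (fun a => ?_) a <;> refine Fin.cases ?_ (fun b => ?_) b
  · simp [sp_00, sp_s0]
  · simp only [Matrix.transpose_apply, sp_0s, sp_s0, mul_zero, zero_mul, Finset.sum_const_zero,
      add_zero]
    rw [Matrix.one_apply, if_neg (Fin.succ_ne_zero b).symm]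
  · simp only [Matrix.transpose_apply, sp_0s, sp_s0, mul_zero, zero_mul, Finset.sum_const_zero,
      add_zero]
    rw [Matrix.one_apply, if_neg (Fin.succ_ne_zero a)]
  · simp only [Matrix.transpose_apply, sp_0s, sp_ss, mul_zero, zero_add, h']
    rw [Matrix.one_apply, Matrix.one_apply]
    simp [Fin.succ_inj]

/-- lifts of `1 ⊕ R` -/
theorem Lf.undbl [Nontrivial V] {R : Matrix (Fin n) (Fin n) ℝ} (hR : Rᵀ * R = 1) (hd : R.det = 1)
    {u' : V2 V →L[ℂ] V2 V} (h : Lf (K2 K) (sp R) u') : Lf K R (cp u') ∧ u' = dg (cp u') (cp u') := by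
  obtain ⟨u, hu⟩ := Lf.exists (K := K) hR hd
  obtain ⟨ε, hε⟩ := hu.dbl.uniq h (mul_eq_one_comm.1 (sp_orth hR))
  have h1 : u' = dg ((ε : ℤ) • u) ((ε : ℤ) • u) := by
    rw [hε]
    rcases Int.units_eq_one_or ε with rfl | rfl
    · simp
    · simp [dg_neg]
  rw [h1, cp_dg]
  exact ⟨hu.sgn ε, rfl⟩

end dbl2

end Vale.Agent.P223.H441
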