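import Vale.Agent.P223.H441.Lift

/-! Every rotation has a lift. -/

namespace Vale.Agent.P223.H441

open Vale.Agent.P223.H566 Vale.Agent.P223.H
open scoped ContDiff Topology Matrix InnerProductSpace

section Hh
variable {n : ℕ}

/-- reflection -/
def Hh (w : E n) : Matrix (Fin n) (Fin n) ℝ := 1 - (2 : ℝ) • Matrix.vecMulVec w w

theorem Hh_mulVec (w x : E n) : Hh w *ᵥ x = x - (2 * (w ⬝ᵥ x)) • w := by
  unfold Hh
  rw [Matrix.sub_mulVec, Matrix.one_mulVec, Matrix.smul_mulVec, Matrix.vecMulVec_mulVec]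
  congr 1
  funext a
  simp only [Pi.smul_apply, smul_eq_mul, MulOpposite.smul_eq_mul_unop, MulOpposite.unop_op]
  ring

theorem Hh_T (w : E n) : (Hh w)ᵀ = Hh w := by
  unfold Hh
  rw [Matrix.transpose_sub, Matrix.transpose_one, Matrix.transpose_smul, Matrix.transpose_vecMulVec]

theorem Hh_sq {w : E n} (hw : w ⬝ᵥ w = 1) : Hh w * Hh w = 1 := by
  unfold Hh
  have h : (2 : ℝ) • Matrix.vecMulVec w w * (2 : ℝ) • Matrix.vecMulVec w w =
      (4 : ℝ) • Matrix.vecMulVec w w := by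
    rw [smul_mul_smul_comm, Matrix.vecMulVec_mul_vecMulVec, hw, one_smul]
    norm_num
  rw [sub_mul, mul_sub, mul_sub, one_mul, one_mul, mul_one, h]
  module

theorem Hh_det {w : E n} (hw : w ⬝ᵥ w = 1) : (Hh w).det = -1 := by
  have h : Hh w = 1 + Matrix.replicateCol Unit ((-2 : ℝ) • w) * Matrix.replicateRow Unit w := by
    unfold Hh
    rw [← Matrix.vecMulVec_eq, Matrix.smul_vecMulVec, neg_smul, sub_eq_add_neg]
  rw [h, Matrix.det_one_add_replicateCol_mul_replicateRow, dotProduct_smul, hw]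
  norm_num

end Hh

section Pf
variable {n : ℕ} {V : Type} [NormedAddCommGroup V] [InnerProductSpace ℂ V] (K : Cliff n V)

/-- `u` is a lift of the orthogonal matrix `Q` to the pin group -/
structure Pf (Q : Matrix (Fin n) (Fin n) ℝ) (u : V →L[ℂ] V) : Prop where
  unit : ∀ v w, ⟪u v, u w⟫_ℂ = ⟪v, w⟫_ℂ
  lift : ∀ v, u * cv K v = Q.det • (cv K (Q *ᵥ v) * u)
  par : (Q.det = 1 ∧ u ∈ W K) ∨ (Q.det = -1 ∧ ∀ a, K.c a * u ∈ W K)

variable {K}

theorem cv_Hh {w : E n} (hw : w ⬝ᵥ w = 1) (x : E n) :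
    cv K w * cv K x = -(cv K (Hh w *ᵥ x) * cv K w) := by
  have h1 := cv_anti K w x
  have h2 := cv_sq K w
  rw [nq_apply, Algebra.algebraMap_eq_smul_one] at h2
  have h3 : ∑ a, w a * w a = 1 := hw
  have h4 : ∑ a, w a * x a = w ⬝ᵥ x := rfl
  rw [h3, one_smul] at h2
  rw [h4] at h1
  rw [Hh_mulVec, map_sub, map_smul, sub_mul, smul_mul_assoc, h2, neg_sub, ← h1]
  abel

theorem Pf.step {Q : Matrix (Fin n) (Fin n) ℝ} {u : V →L[ℂ] V} (h : Pf K Q u) {w : E n}
    (hw : w ⬝ᵥ w = 1) : Pf K (Hh w * Q) (cv K w * u) where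
  unit v w' := by
    have h2 := cv_sq K w
    rw [nq_apply, show ∑ a, w a * w a = 1 from hw, map_one] at h2
    change ⟪cv K w (u v), cv K w (u w')⟫_ℂ = _
    rw [cv_symm]
    change ⟪u v, (cv K w * cv K w) (u w')⟫_ℂ = _
    rw [h2]
    exact h.unit v w'
  lift v := by
    rw [mul_assoc, h.lift, mul_smul_comm, ← mul_assoc, cv_Hh hw, Matrix.det_mul, Hh_det hw,
      Matrix.mulVec_mulVec, neg_one_mul, neg_smul, neg_mul, smul_neg, mul_assoc]
  par := by
    rw [Matrix.det_mul, Hh_det hw]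
    rcases h.par with ⟨h1, h2⟩ | ⟨h1, h2⟩
    · refine Or.inr ⟨by rw [h1]; norm_num, fun a => ?_⟩
      rw [← mul_assoc, ← cv_single K a]
      exact mul_mem_W K (cv_mem_odd K _ _) h2
    · refine Or.inl ⟨by rw [h1]; norm_num, ?_⟩
      rw [cv_apply, Finset.sum_mul]
      refine Submodule.sum_mem _ fun a _ => ?_
      rw [smul_mul_assoc]
      exact Submodule.smul_mem _ _ (h2 a)

theorem Pf.one : Pf K (1 : Matrix (Fin n) (Fin n) ℝ) (1 : V →L[ℂ] V) where
  unit _ _ := rfl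
  lift v := by rw [Matrix.det_one, Matrix.one_mulVec, one_smul, one_mul, mul_one]
  par := Or.inl ⟨Matrix.det_one, one_mem_W K⟩

theorem orth_dot {Q : Matrix (Fin n) (Fin n) ℝ} (hQ : Qᵀ * Q = 1) (x y : E n) :
    (Q *ᵥ x) ⬝ᵥ (Q *ᵥ y) = x ⬝ᵥ y := by
  rw [Matrix.dotProduct_mulVec, Matrix.vecMul_mulVec, ← Matrix.dotProduct_mulVec, hQ,
    Matrix.one_mulVec]

theorem Pf.exists_aux (k : ℕ) : ∀ Q : Matrix (Fin n) (Fin n) ℝ, Qᵀ * Q = 1 →
    (∀ j : Fin n, k ≤ j → Q *ᵥ Pi.single j 1 = Pi.single j 1) → ∃ u : V →L[ℂ] V, Pf K Q u := by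
  induction k with
  | zero =>
    intro Q _ h
    have : Q = 1 := by
      ext i j
      have := congrFun (h j (Nat.zero_le _)) i
      rw [Matrix.mulVec_single_one] at this
      rw [Matrix.one_apply]
      change Q i j = _
      change Q i j = _ at this
      rw [this, Pi.single_apply]
    rw [this]
    exact ⟨1, Pf.one⟩
  | succ k ih =>
    intro Q hQ h
    by_cases hk : k < n
    · set a : Fin n := ⟨k, hk⟩ with ha
      set e : E n := Pi.single a 1 with he
      by_cases hf : Q *ᵥ e = e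
      · refine ih Q hQ fun j hj => ?_
        rcases Nat.lt_or_ge k j with h1 | h1
        · exact h j h1
        · have : j = a := Fin.ext (le_antisymm h1 hj)
          rw [this]; exact hf
      · set f := Q *ᵥ e with hf'
        set d := f - e with hd
        have hee : e ⬝ᵥ e = 1 := by simp [he]
        have hff : f ⬝ᵥ f = 1 := by rw [hf', orth_dot hQ, hee]
        have hd0 : d ≠ 0 := sub_ne_zero.2 hf
        have hs : 0 < d ⬝ᵥ d := by
          have h1 : 0 ≤ d ⬝ᵥ d := Finset.sum_nonneg fun i _ => mul_self_nonneg _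
          refine lt_of_le_of_ne h1 fun h2 => hd0 ?_
          exact dotProduct_self_eq_zero.1 h2.symm
        have hdf : d ⬝ᵥ d = 2 * (d ⬝ᵥ f) := by
          have : d ⬝ᵥ d = f ⬝ᵥ f + e ⬝ᵥ e - 2 * (e ⬝ᵥ f) := by
            rw [hd, sub_dotProduct, dotProduct_sub, dotProduct_sub, dotProduct_comm f e]; ring
          rw [this, hd, sub_dotProduct, hff, hee]; ring
        set w : E n := (√(d ⬝ᵥ d))⁻¹ • d with hw'
        have hw : w ⬝ᵥ w = 1 := by
          rw [hw', smul_dotProduct, dotProduct_smul, smul_eq_mul, smul_eq_mul, ← mul_assoc,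
            ← mul_inv, Real.mul_self_sqrt hs.le]
          exact inv_mul_cancel₀ hs.ne'
        have hHf : Hh w *ᵥ f = e := by
          rw [Hh_mulVec, hw', smul_dotProduct, smul_smul, smul_eq_mul]
          have : 2 * ((√(d ⬝ᵥ d))⁻¹ * (d ⬝ᵥ f)) * (√(d ⬝ᵥ d))⁻¹ = 1 := by
            have h1 : (√(d ⬝ᵥ d))⁻¹ * (√(d ⬝ᵥ d))⁻¹ = (d ⬝ᵥ d)⁻¹ := by
              rw [← mul_inv, Real.mul_self_sqrt hs.le]
            calc 2 * ((√(d ⬝ᵥ d))⁻¹ * (d ⬝ᵥ f)) * (√(d ⬝ᵥ d))⁻¹
                = (2 * (d ⬝ᵥ f)) * ((√(d ⬝ᵥ d))⁻¹ * (√(d ⬝ᵥ d))⁻¹) := by ring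
              _ = 1 := by rw [h1, ← hdf]; exact mul_inv_cancel₀ hs.ne'
          rw [this, one_smul, hd, sub_sub_cancel]
        obtain ⟨u, hu⟩ := ih (Hh w * Q) (by
            rw [Matrix.transpose_mul, Hh_T, Matrix.mul_assoc, ← Matrix.mul_assoc (Hh w), Hh_sq hw,
              Matrix.one_mul, hQ]) (by
            intro j hj
            rw [← Matrix.mulVec_mulVec]
            rcases Nat.lt_or_ge k j with h1 | h1
            · rw [h j h1, Hh_mulVec]
              have h2 : e ⬝ᵥ Pi.single j 1 = 0 := by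
                rw [he, dotProduct_single, mul_one, Pi.single_apply, if_neg]
                rintro rfl
                exact lt_irrefl _ h1
              have h3 : f ⬝ᵥ Pi.single j 1 = 0 := by
                calc f ⬝ᵥ Pi.single j 1 = (Q *ᵥ e) ⬝ᵥ (Q *ᵥ Pi.single j 1) := by rw [h j h1]
                  _ = 0 := by rw [orth_dot hQ, h2]
              have h4 : w ⬝ᵥ Pi.single j 1 = 0 := by
                rw [hw', smul_dotProduct]
                have : d ⬝ᵥ Pi.single j 1 = 0 := by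
                  rw [hd, sub_dotProduct, h2, h3, sub_zero]
                rw [this, smul_zero]
              rw [h4, mul_zero, zero_smul, sub_zero]
            · have : j = a := Fin.ext (le_antisymm h1 hj)
              rw [this]
              exact hHf)
        have h5 := hu.step hw
        rw [← Matrix.mul_assoc, Hh_sq hw, Matrix.one_mul] at h5
        exact ⟨_, h5⟩
    · exact ih Q hQ fun j hj => absurd (lt_of_le_of_lt hj j.2) hk

/-- every rotation has a lift -/
theorem Lf.exists {Q : Matrix (Fin n) (Fin n) ℝ} (hQ : Qᵀ * Q = 1) (hd : Q.det = 1) :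
    ∃ u : V →L[ℂ] V, Lf K Q u := by
  obtain ⟨u, hu⟩ := Pf.exists_aux (K := K) n Q hQ fun j hj => absurd j.2 (not_lt.2 hj)
  refine ⟨u, ?_, hu.unit, fun v => ?_⟩
  · rcases hu.par with ⟨-, h⟩ | ⟨h, -⟩
    · exact h
    · rw [hd] at h; norm_num at h
  · rw [hu.lift, hd, one_smul]

end Pf

end Vale.Agent.P223.H441
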