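import Vale.Agent.P223.H441.Sg
import Vale.Agent.P223.H441.Coc
import Vale.Agent.P223.H441.Pin

/-! Smooth lifts of maps into the rotation group. -/

namespace Vale.Agent.P223.H441

open Vale.Agent.P223.H566 Vale.Agent.P223.H
open scoped ContDiff Topology Matrix InnerProductSpace

section
variable {F : Type} [NormedAddCommGroup F] [NormedSpace ℝ F]
  {n : ℕ} {V : Type} [NormedAddCommGroup V] [InnerProductSpace ℂ V] {K : Cliff n V}

theorem contDiffAt_ZlG {R : F → Matrix (Fin n) (Fin n) ℝ} {y : F}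
    (hR : ∀ a b, ContDiffAt ℝ ∞ (fun z => R z a b) y) (L : List (Fin n)) :
    ContDiffAt ℝ ∞ (fun z => Zl K (R z) L) y := by
  induction L with
  | nil => exact contDiffAt_const
  | cons a L ih =>
    have h1 : (fun z => Zl K (R z) (a :: L)) = fun z => Zl K (R z) L +
        (∑ b, R z b a • K.c b) * Zl K (R z) L * K.c a := by
      funext z
      change _ + cv K (R z *ᵥ Pi.single a 1) * _ * _ = _
      rw [cv_apply, Matrix.mulVec_single_one]
      rfl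
    rw [h1]
    have h2 : ContDiffAt ℝ ∞ (fun z => ∑ b, R z b a • K.c b) y :=
      ContDiffAt.sum fun b _ => (hR b a).smul contDiffAt_const
    exact ih.add ((h2.mul ih).mul contDiffAt_const)

variable [CompleteSpace V] [FiniteDimensional ℂ V] [Nontrivial V]

/-- smooth lifts near `1` -/
theorem Lf_local_oneG {R : F → Matrix (Fin n) (Fin n) ℝ} {y₀ : F}
    (hR : ∀ᶠ z in 𝓝 y₀, ∀ a b, ContDiffAt ℝ ∞ (fun z => R z a b) z)
    (ho : ∀ᶠ z in 𝓝 y₀, (R z)ᵀ * R z = 1) (h1 : R y₀ = 1) :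
    ∃ r : F → (V →L[ℂ] V), ∀ᶠ z in 𝓝 y₀, Lf K (R z) (r z) ∧ ContDiffAt ℝ ∞ r z := by
  obtain ⟨v₀, hv⟩ := exists_unit (V := V)
  set Z : F → (V →L[ℂ] V) := fun z => Zl K (R z) (List.finRange n) with hZ
  have hZs : ∀ᶠ z in 𝓝 y₀, ContDiffAt ℝ ∞ Z z := by
    filter_upwards [hR] with z hz
    exact contDiffAt_ZlG hz _
  have hZv : ∀ {z}, ContDiffAt ℝ ∞ Z z → ContDiffAt ℝ ∞ (fun z => Z z v₀) z := fun h =>
    ((ContinuousLinearMap.apply ℂ V v₀).restrictScalars ℝ).contDiff.contDiffAt.comp _ h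
  have h2 : Z y₀ v₀ ≠ 0 := by
    rw [hZ]
    dsimp only
    rw [h1, Zl_one]
    change (((2 : ℝ) ^ (List.finRange n).length : ℝ) : ℂ) • v₀ ≠ 0
    refine smul_ne_zero ?_ fun h => by rw [h, norm_zero] at hv; exact zero_ne_one hv
    norm_cast
    positivity
  have h3 : ∀ᶠ z in 𝓝 y₀, Z z v₀ ≠ 0 :=
    (hZv hZs.self_of_nhds).continuousAt.eventually_ne h2
  refine ⟨fun z => ‖Z z v₀‖⁻¹ • Z z, ?_⟩
  filter_upwards [hZs, h3, ho] with z hz1 hz2 hz3
  exact ⟨Lf_Zl K hz3 hv hz2,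
    (((hZv hz1).norm ℂ hz2).inv (norm_ne_zero_iff.2 hz2)).smul hz1⟩

/-- smooth lifts -/
theorem Lf_localG {R : F → Matrix (Fin n) (Fin n) ℝ} {y₀ : F}
    (hR : ∀ᶠ z in 𝓝 y₀, ∀ a b, ContDiffAt ℝ ∞ (fun z => R z a b) z)
    (ho : ∀ᶠ z in 𝓝 y₀, (R z)ᵀ * R z = 1) {u : V →L[ℂ] V} (hu : Lf K (R y₀) u) :
    ∃ r : F → (V →L[ℂ] V), ∀ᶠ z in 𝓝 y₀, Lf K (R z) (r z) ∧ ContDiffAt ℝ ∞ r z := by
  have h0 := ho.self_of_nhds
  have h0' : R y₀ * (R y₀)ᵀ = 1 := mul_eq_one_comm.1 h0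
  obtain ⟨r, hr⟩ := Lf_local_oneG (K := K) (R := fun z => R z * (R y₀)ᵀ) (y₀ := y₀) (by
      filter_upwards [hR] with z hz
      intro a b
      simp only [Matrix.mul_apply]
      exact ContDiffAt.sum fun c _ => (hz a c).mul contDiffAt_const) (by
      filter_upwards [ho] with z hz
      rw [Matrix.transpose_mul, Matrix.transpose_transpose, Matrix.mul_assoc, ← Matrix.mul_assoc _ᵀ,
        hz, Matrix.one_mul, h0']) h0'
  refine ⟨fun z => r z * u, ?_⟩
  filter_upwards [hr] with z hz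
  refine ⟨?_, hz.2.mul contDiffAt_const⟩
  have := hz.1.mul hu
  rwa [Matrix.mul_assoc, h0, Matrix.mul_one] at this

/-- global lifts on a vector space -/
theorem Lf_global {R : F → Matrix (Fin n) (Fin n) ℝ}
    (hR : ∀ a b, ContDiff ℝ ∞ (fun z => R z a b)) (ho : ∀ z, (R z)ᵀ * R z = 1)
    (hd : ∀ z, (R z).det = 1) :
    ∃ r : F → (V →L[ℂ] V), ∀ z, Lf K (R z) (r z) ∧ ContDiffAt ℝ ∞ r z := by
  have hloc : ∀ y₀ : F, ∃ (N : Set F) (r : F → V →L[ℂ] V), IsOpen N ∧ y₀ ∈ N ∧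
      ∀ z ∈ N, Lf K (R z) (r z) ∧ ContDiffAt ℝ ∞ r z := by
    intro y₀
    obtain ⟨u, hu⟩ := Lf.exists (K := K) (ho y₀) (hd y₀)
    obtain ⟨r, hr⟩ := Lf_localG (K := K) (R := R) (y₀ := y₀)
      (Filter.Eventually.of_forall fun z a b => (hR a b).contDiffAt)
      (Filter.Eventually.of_forall ho) hu
    obtain ⟨N, hN, hNo, hyN⟩ := mem_nhds_iff.1 hr
    exact ⟨N, r, hNo, hyN, fun z hz => hN hz⟩
  choose N r hN hyN hr using hloc
  have hσ : ∀ a b : F, ∀ z ∈ N a ∩ N b, ∃ ε : ℤˣ, r b z = (ε : ℤ) • r a z := by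
    intro a b z hz
    exact (hr a z hz.1).1.uniq (hr b z hz.2).1 (mul_eq_one_comm.1 (ho z))
  classical
  let σ : F → F → F → ℤˣ := fun a b z =>
    if h : z ∈ N a ∩ N b then (hσ a b z h).choose else 1
  have hσ' : ∀ a b : F, ∀ z ∈ N a ∩ N b, r b z = (σ a b z : ℤ) • r a z := by
    intro a b z hz
    have h1 : σ a b z = (hσ a b z hz).choose := dif_pos hz
    rw [h1]
    exact (hσ a b z hz).choose_spec
  obtain ⟨ε, h1, h2⟩ := coc_triv N hN (fun y => ⟨y, hyN y⟩) σ (fun a b z hz => by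
      refine cont_sign (A := r a) (B := r b) ?_ ?_ (hσ' a b) hz ?_
      · exact (hr a z hz.1).2.continuousAt.continuousWithinAt
      · exact (hr b z hz.2).2.continuousAt.continuousWithinAt
      · exact (hr a z hz.1).1.ne_zero) (fun a b d z ha hb hd => by
      have e1 := hσ' a b z ⟨ha, hb⟩
      have e2 := hσ' b d z ⟨hb, hd⟩
      have e3 := hσ' a d z ⟨ha, hd⟩
      rw [e1, zs_zs, e3] at e2
      exact (zs_eq (hr a z ha).1.ne_zero e2).symm)
  refine ⟨fun z => (ε z z : ℤ) • r z z, fun z => ⟨(hr z z (hyN z)).1.sgn _, ?_⟩⟩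
  -- independence of the base point
  have key : ∀ a z, z ∈ N a → (ε z z : ℤ) • r z z = (ε a z : ℤ) • r a z := by
    intro a z ha
    have e1 := h2 a z z ha (hyN z)
    have e2 := hσ' a z z ⟨ha, hyN z⟩
    rw [e1, e2, zs_zs]
    congr 2
    calc σ a z z * ε a z * σ a z z = (σ a z z * σ a z z) * ε a z := by
          simp only [mul_comm, mul_left_comm]
      _ = ε a z := by rw [Int.units_mul_self, one_mul]
  have h3 : ∀ᶠ y in 𝓝 z, y ∈ N z := (hN z).mem_nhds (hyN z)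
  have h5 : ∀ᶠ y in 𝓝 z, ε z y = ε z z := by
    have := ((h1 z).continuousAt ((hN z).mem_nhds (hyN z)))
    exact this.eventually_mem (isOpen_discrete {ε z z} |>.mem_nhds rfl)
  have h6 : (fun y => (ε y y : ℤ) • r y y) =ᶠ[𝓝 z] fun y => (ε z z : ℤ) • r z y := by
    filter_upwards [h3, h5] with y hy1 hy2
    rw [key z y hy1, hy2]
  exact ContDiffAt.congr_of_eventuallyEq ((hr z z (hyN z)).2.const_smul _) h6

end

end Vale.Agent.P223.H441
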