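import Vale.Agent.P223.H441.XSp2

/-! The spinor bundle on the universal covering. -/

namespace Vale.Agent.P223.H441

open Vale.Agent.P223.H566 Vale.Agent.P223.H Vale.Agent.P223.X
open scoped ContDiff Topology Matrix InnerProductSpace

section glob
variable {n : ℕ} {M X X' Γ I : Type} [TopologicalSpace M] [TopologicalSpace X]
  [TopologicalSpace X'] [Group Γ] [MulAction Γ X] {c : M → J.Ch n M} {B : Box c I}
  {C : Cov n M X Γ I} {g : M → J.Mtx n} {f : X' → M} {c' : X' → J.Ch n X'}
  {V : Type} [NormedAddCommGroup V] [InnerProductSpace ℂ V]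
  (hc : J.Atl c) (hβ : ∀ i y, C.π (C.ψ i y) = B.β i y) (hf : J.CovAtl c f c') (hg : J.Met c g)
  (S : J.SpinStr c' fun q => g (f q)) (F : C(X, X')) (hF : ∀ x, f (F x) = C.π x)
  {β : I → E n → Matrix (Fin n) (Fin n) ℝ} (hfr : ∀ i, Fr (B.G g i) (β i))
  [FiniteDimensional ℂ V] [CompleteSpace V] [Nontrivial V] (K : Cliff n V)

/-- the point of `X'` over the point with coordinates `y` in the chart `a` -/
def PP (F : C(X, X')) (C : Cov n M X Γ I) (a : Γ × I) (y : E n) : X' := F (pt C a y)

theorem cont_PP (a : Γ × I) : Continuous (PP F C a) :=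
  F.continuous.comp (pt_emb a).continuous

include hβ hF in
theorem f_PP (a : Γ × I) (y : E n) : f (PP F C a y) = B.β a.2 y := by
  unfold PP pt
  rw [hF, MetU.π_smul, hβ]

theorem PP_tt {a b : Γ × I} {y : E n} (h : y ∈ dm C a b) :
    PP F C b (tt C a b y) = PP F C a y := by
  unfold PP
  rw [pt_tt h]

include hc hβ in
theorem jac_tt {a b : Γ × I} {y : E n} (h : y ∈ dm C a b) {p : M}
    (hp : B.β a.2 y ∈ (c p).source) :
    jac (ta B a.2 p) y = jac (ta B b.2 p) (tt C a b y) * jac (tt C a b) y := by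
  have h1 : ∀ z ∈ dm C a b, ta B b.2 p (tt C a b z) = ta B a.2 p z := by
    intro z hz
    unfold ta tt
    rw [MetU.β_tr hβ hz]
  have h2 : B.β b.2 (tt C a b y) ∈ (c p).source := by
    unfold tt
    rwa [MetU.β_tr hβ h]
  have h3 : (fun z => ta B b.2 p (tt C a b z)) =ᶠ[𝓝 y] ta B a.2 p := by
    filter_upwards [(isOpen_dm a b).mem_nhds h] with z hz
    exact h1 z hz
  have d1 := (contDiffAt_ta hc h2).differentiableAt (by simp)
  have d2 := (contDiffAt_tt h).differentiableAt (by simp)
  have h4 := fderiv_comp y d1 d2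
  refine Matrix.ext_of_mulVec_single fun k => ?_
  rw [← fderiv_jac (contDiffAt_ta hc hp), ← h3.fderiv_eq, ← Matrix.mulVec_mulVec,
    ← fderiv_jac (contDiffAt_tt h), ← fderiv_jac (contDiffAt_ta hc h2)]
  exact congrArg (fun T : E n →L[ℝ] E n => T (Pi.single k 1)) h4

omit [FiniteDimensional ℂ V] [Nontrivial V] in
theorem cd_star {h : E n → V →L[ℂ] V} {y : E n} (hh : ContDiffAt ℝ ∞ h y) :
    ContDiffAt ℝ ∞ (fun z => star (h z)) y :=
  ((starL' ℝ : (V →L[ℂ] V) ≃L[ℝ] (V →L[ℂ] V)).contDiff.contDiffAt).comp y hh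

include hc hβ hf hg S hF hfr in
theorem exists_Sp0 : Nonempty (Sp0 C (B.G g) K) := by
  have hm := MetU.metX hc hβ hg
  have hex := fun a : Γ × I => box_triv (K := K) (i := a.2) (P := PP F C a) hc hf hg S hfr
    (cont_PP F a) (f_PP hβ F hF a)
  choose u hu hu' using hex
  let T : Γ × I → Γ × I → E n → V →L[ℂ] V := fun a b y =>
    star (u b (PP F C a y) (tt C a b y)) * u a (PP F C a y) y
  have key : ∀ a b, ∀ y ∈ dm C a b, ∀ q, PP F C a y ∈ (c' q).source →
      T a b y = star (u b q (tt C a b y)) * u a q y := by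
    intro a b y hy q hq
    have e1 := hu' a (PP F C a y) q y (hf.mem _) hq
    have e2 := hu' b (PP F C a y) q (tt C a b y) (by rw [PP_tt F hy]; exact hf.mem _)
      (by rwa [PP_tt F hy])
    rw [PP_tt F hy] at e2
    rw [e1, e2, star_mul, mul_assoc, ← mul_assoc (star (rs' K S _ _ _)),
      rs'_star S (hf.mem _) hq, one_mul]
  refine ⟨{ met := hm, β := β, fr := hfr, T := T
            smooth := fun a b y hy => ?_
            lf := fun a b y hy => ?_
            coc := fun a b d y hy hy' => ?_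
            one := fun a y => ?_ }⟩
  · have h1 : T a b =ᶠ[𝓝 y] fun z => star (u b (PP F C a y) (tt C a b z)) * u a (PP F C a y) z := by
      have h2 : ∀ᶠ z in 𝓝 y, PP F C a z ∈ (c' (PP F C a y)).source :=
        (cont_PP F a).continuousAt.eventually_mem ((c' _).open_source.mem_nhds (hf.mem _))
      filter_upwards [(isOpen_dm a b).mem_nhds hy, h2] with z hz1 hz2
      exact key a b z hz1 _ hz2
    refine ContDiffAt.congr_of_eventuallyEq ?_ h1
    refine ContDiffAt.mul (cd_star ?_) (hu a _ y (hf.mem _)).2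
    exact ((hu b (PP F C a y) (tt C a b y) (by rw [PP_tt F hy]; exact hf.mem _)).2).comp y
      (contDiffAt_tt hy)
  · set q := PP F C a y with hq
    have m1 : PP F C a y ∈ (c' q).source := hf.mem _
    have m2 : PP F C b (tt C a b y) ∈ (c' q).source := by rw [PP_tt F hy]; exact hf.mem _
    have h1 := (hu a q y m1).1
    have h2 := (hu b q (tt C a b y) m2).1
    have o2 := RR_orth hc hf hg S hfr m2 (f_PP hβ F hF b _)
    have h3 := (h2.inv (mul_eq_one_comm.1 o2)).mul h1
    have e : (RR S B β b.2 q (tt C a b y))ᵀ * RR S B β a.2 q y =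
        Rm (B.G g b.2) (β a.2) (β b.2) (tt C a b) y := by
      have h4 : RR S B β b.2 q (tt C a b y) * Rm (B.G g b.2) (β a.2) (β b.2) (tt C a b) y =
          RR S B β a.2 q y := by
        have hta : ta B b.2 (f q) (tt C a b y) = ta B a.2 (f q) y := by
          unfold ta tt
          rw [MetU.β_tr hβ hy]
        have h5 := RM_comp (b₁ := β a.2 y) (b₂ := β b.2 (tt C a b y))
          (b₃ := S.β q (ta B b.2 (f q) (tt C a b y))) (A₂ := B.G g b.2 (tt C a b y))
          (A₃ := g (f q) (ta B b.2 (f q) (tt C a b y))) (J := jac (tt C a b) y)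
          (K' := jac (ta B b.2 (f q)) (tt C a b y)) (L := jac (ta B a.2 (f q)) y)
          (symm_of_posDef (hm.pos b.2 _)) (g_symm hf hg m2 (f_PP hβ F hF b _))
          ((hfr b.2).orth _) (S_orth hf S m2 (f_PP hβ F hF b _)).1
          (jac_tt hc hβ hy (mem_ta hf m1 (f_PP hβ F hF a _)).1)
        unfold RR
        rw [← hta]
        exact h5
      rw [← h4, ← Matrix.mul_assoc, o2, Matrix.one_mul]
    rw [e] at h3
    exact h3
  · set q := PP F C a y with hq
    have m1 : PP F C a y ∈ (c' q).source := hf.mem _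
    have m2 : PP F C b (tt C a b y) ∈ (c' q).source := by rw [PP_tt F hy]; exact hf.mem _
    rw [key b d _ hy' q m2, key a b y hy q m1, key a d y (tt_tt hy hy').1 q m1,
      (tt_tt hy hy').2, mul_assoc, ← mul_assoc (u b q (tt C a b y)),
      (hu b q (tt C a b y) m2).1.mul_star, one_mul]
  · have h1 : T a a y = star (u a (PP F C a y) (tt C a a y)) * u a (PP F C a y) y := rfl
    rw [h1, (dm_self a y).2]
    exact (hu a _ y (hf.mem _)).1.star_mul

end glob

end Vale.Agent.P223.H441
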