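import Vale.Agent.P223.H441.Dbl
import Vale.Agent.P223.H441.LiftG
import Vale.Agent.P223.H441.XSp3
import Vale.Agent.P223.H66.S2

/-! The spinor bundle given by a developing map into the light cone. -/

namespace Vale.Agent.P223.H441

open Vale.Agent.P223.H566 Vale.Agent.P223.H Vale.Agent.P223.X Vale.Agent.P223.H66
open scoped ContDiff Topology Matrix InnerProductSpace

section mat
variable {n : ℕ}

/-- the matrix with the first column `δ` and the other columns `P` -/
def Am (δ : Fin (n + 1) → ℝ) (P : Matrix (Fin (n + 1)) (Fin n) ℝ) :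
    Matrix (Fin (n + 1)) (Fin (n + 1)) ℝ := fun k j => Fin.cases (δ k) (fun j' => P k j') j

theorem Am_zero (δ : Fin (n + 1) → ℝ) (P : Matrix (Fin (n + 1)) (Fin n) ℝ) (k : Fin (n + 1)) :
    Am δ P k 0 = δ k := rfl

theorem Am_succ (δ : Fin (n + 1) → ℝ) (P : Matrix (Fin (n + 1)) (Fin n) ℝ) (k : Fin (n + 1))
    (j : Fin n) : Am δ P k j.succ = P k j := rfl

theorem Am_orth {δ : Fin (n + 1) → ℝ} {P : Matrix (Fin (n + 1)) (Fin n) ℝ}
    (hδ : ∑ k, δ k * δ k = 1) (h0 : ∀ j, ∑ k, δ k * P k j = 0) (hP : Pᵀ * P = 1) :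
    (Am δ P)ᵀ * Am δ P = 1 := by
  ext a b
  rw [Matrix.mul_apply]
  have h' := fun a b => congrFun (congrFun hP a) b
  simp only [Matrix.mul_apply, Matrix.transpose_apply] at h'
  simp only [Matrix.transpose_apply]
  refine Fin.cases ?_ (fun a => ?_) a <;> refine Fin.cases ?_ (fun b => ?_) b
  · simp only [Am_zero]
    rw [hδ, Matrix.one_apply, if_pos rfl]
  · simp only [Am_zero, Am_succ]
    rw [h0, Matrix.one_apply, if_neg (Fin.succ_ne_zero b).symm]
  · simp only [Am_zero, Am_succ]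
    rw [Matrix.one_apply, if_neg (Fin.succ_ne_zero a), ← h0 a]
    exact Finset.sum_congr rfl fun k _ => mul_comm _ _
  · simp only [Am_succ]
    rw [h', Matrix.one_apply, Matrix.one_apply]
    simp [Fin.succ_inj]

theorem Am_sp (δ : Fin (n + 1) → ℝ) (P : Matrix (Fin (n + 1)) (Fin n) ℝ)
    (R : Matrix (Fin n) (Fin n) ℝ) : Am δ (P * R) = Am δ P * sp R := by
  ext k j
  rw [Matrix.mul_apply, Fin.sum_univ_succ]
  refine Fin.cases ?_ (fun j => ?_) j
  · simp only [Am_zero, sp_00, sp_s0, mul_one, mul_zero, Finset.sum_const_zero, add_zero]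
  · simp only [Am_zero, Am_succ, sp_0s, sp_ss, mul_zero, zero_add, Matrix.mul_apply]

end mat

section dev
variable {n : ℕ} {M X Γ I : Type} [TopologicalSpace M] [TopologicalSpace X] [Group Γ]
    [MulAction Γ X] {C : Cov n M X Γ I} {G : I → E n → Matrix (Fin n) (Fin n) ℝ}
    {D : Fin (n + 1) → X → ℝ} {t : X → ℝ}

/-- the differential of the developing map -/
noncomputable def Nn (C : Cov n M X Γ I) (D : Fin (n + 1) → X → ℝ) (t : X → ℝ) (a : Γ × I)
    (y : E n) : Matrix (Fin (n + 1)) (Fin n) ℝ := fun k l =>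
  H.pd l (C.rep (D k) a.1 a.2) y - H.pd l (C.rep t a.1 a.2) y * (D k (pt C a y) / t (pt C a y))

theorem null_pd (h : DevX C G D t) (a : Γ × I) (y : E n) (l : Fin n) :
    ∑ k, D k (pt C a y) * H.pd l (C.rep (D k) a.1 a.2) y =
      t (pt C a y) * H.pd l (C.rep t a.1 a.2) y := by
  have d1 : ∀ k, DifferentiableAt ℝ (C.rep (D k) a.1 a.2) y := fun k =>
    (h.smooth k a.1 a.2).contDiffAt.differentiableAt (by simp)
  have d2 : DifferentiableAt ℝ (C.rep t a.1 a.2) y :=
    (h.smooth_t a.1 a.2).contDiffAt.differentiableAt (by simp)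
  have e : (fun z => ∑ k, C.rep (D k) a.1 a.2 z * C.rep (D k) a.1 a.2 z) =
      fun z => C.rep t a.1 a.2 z * C.rep t a.1 a.2 z := by
    funext z
    have := h.null (a.1 • C.ψ a.2 z)
    simp only [pow_two] at this
    exact this
  have e2 := congrArg (fun f : E n → ℝ => H.pd l f y) e
  rw [Bridge.pd_sum fun k _ => (d1 k).fun_mul (d1 k), Bridge.pd_mul d2 d2] at e2
  have e3 : ∀ k, H.pd l (fun z => C.rep (D k) a.1 a.2 z * C.rep (D k) a.1 a.2 z) y =
      2 * (D k (pt C a y) * H.pd l (C.rep (D k) a.1 a.2) y) := by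
    intro k
    rw [Bridge.pd_mul (d1 k) (d1 k)]
    have : C.rep (D k) a.1 a.2 y = D k (pt C a y) := rfl
    rw [this]; ring
  rw [Finset.sum_congr rfl fun k _ => e3 k, ← Finset.mul_sum] at e2
  have e4 : C.rep t a.1 a.2 y = t (pt C a y) := rfl
  rw [e4] at e2
  linarith

theorem δ_sq (h : DevX C G D t) (x : X) : ∑ k, D k x / t x * (D k x / t x) = 1 := by
  have h1 := h.null x
  have h2 := (h.pos x).ne'
  have : ∀ k, D k x / t x * (D k x / t x) = D k x ^ 2 / t x ^ 2 := fun k => by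
    rw [div_mul_div_comm, pow_two, pow_two]
  rw [Finset.sum_congr rfl fun k _ => this k, ← Finset.sum_div, h1]
  exact div_self (pow_ne_zero 2 h2)

theorem δ_pd (h : DevX C G D t) (a : Γ × I) (y : E n) (l : Fin n) :
    ∑ k, D k (pt C a y) / t (pt C a y) * H.pd l (C.rep (D k) a.1 a.2) y =
      H.pd l (C.rep t a.1 a.2) y := by
  have h2 := (h.pos (pt C a y)).ne'
  have : ∀ k, D k (pt C a y) / t (pt C a y) * H.pd l (C.rep (D k) a.1 a.2) y =
      (D k (pt C a y) * H.pd l (C.rep (D k) a.1 a.2) y) / t (pt C a y) := fun k => by ring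
  rw [Finset.sum_congr rfl fun k _ => this k, ← Finset.sum_div, null_pd h]
  field_simp

theorem Nn_perp (h : DevX C G D t) (a : Γ × I) (y : E n) (l : Fin n) :
    ∑ k, D k (pt C a y) / t (pt C a y) * Nn C D t a y k l = 0 := by
  have e1 := δ_pd h a y l
  have e2 := δ_sq h (pt C a y)
  unfold Nn
  have : ∀ k, D k (pt C a y) / t (pt C a y) * (H.pd l (C.rep (D k) a.1 a.2) y -
      H.pd l (C.rep t a.1 a.2) y * (D k (pt C a y) / t (pt C a y))) =
      D k (pt C a y) / t (pt C a y) * H.pd l (C.rep (D k) a.1 a.2) y -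
      H.pd l (C.rep t a.1 a.2) y *
        (D k (pt C a y) / t (pt C a y) * (D k (pt C a y) / t (pt C a y))) := fun k => by ring
  rw [Finset.sum_congr rfl fun k _ => this k, Finset.sum_sub_distrib, ← Finset.mul_sum, e1, e2]
  ring

theorem Nn_gram (h : DevX C G D t) (a : Γ × I) (y : E n) :
    (Nn C D t a y)ᵀ * Nn C D t a y = G a.2 y := by
  ext l m
  rw [Matrix.mul_apply, h.iso a.1 a.2 y l m]
  simp only [Matrix.transpose_apply]
  have e1 := Nn_perp h a y
  have e2 := δ_pd h a y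
  have : ∀ k, Nn C D t a y k l * Nn C D t a y k m =
      H.pd l (C.rep (D k) a.1 a.2) y * H.pd m (C.rep (D k) a.1 a.2) y -
      H.pd m (C.rep t a.1 a.2) y * (D k (pt C a y) / t (pt C a y) * H.pd l (C.rep (D k) a.1 a.2) y) -
      H.pd l (C.rep t a.1 a.2) y * (D k (pt C a y) / t (pt C a y) * Nn C D t a y k m) := fun k => by
    unfold Nn; ring
  rw [Finset.sum_congr rfl fun k _ => this k, Finset.sum_sub_distrib, Finset.sum_sub_distrib,
    ← Finset.mul_sum, ← Finset.mul_sum, e1, e2]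
  ring

theorem Nn_tr (h : DevX C G D t) {a b : Γ × I} {y : E n} (hy : y ∈ dm C a b) :
    Nn C D t a y = Nn C D t b (tt C a b y) * jac (tt C a b) y := by
  have key : ∀ (f : X → ℝ), C.Ck ∞ f → ∀ l, H.pd l (C.rep f a.1 a.2) y =
      ∑ m, H.pd m (C.rep f b.1 b.2) (tt C a b y) * jac (tt C a b) y m l := by
    intro f hf l
    have h1 := Vale.Agent.P223.X.Bas2.rep_eventually (C := C) f hy
    have h2 := h1.fderiv_eq (𝕜 := ℝ)
    have h3 : H.pd l (C.rep f a.1 a.2) y =
        H.pd l (fun z => C.rep f b.1 b.2 (tt C a b z)) y := by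
      unfold H.pd
      rw [h2]
      rfl
    rw [h3]
    exact P223.pd_comp (contDiffAt_tt hy) ((hf b.1 b.2).contDiffAt.differentiableAt (by simp)) l
  ext k l
  rw [Matrix.mul_apply]
  unfold Nn
  rw [key _ (h.smooth k), key _ h.smooth_t, pt_tt hy, Finset.sum_mul, ← Finset.sum_sub_distrib]
  refine Finset.sum_congr rfl fun m _ => by ring

theorem Nn_smooth (h : DevX C G D t) (a : Γ × I) (k : Fin (n + 1)) (l : Fin n) :
    ContDiff ℝ ∞ fun y => Nn C D t a y k l := by
  have h1 : ∀ f : X → ℝ, C.Ck ∞ f → ContDiff ℝ ∞ fun y => H.pd l (C.rep f a.1 a.2) y := by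
    intro f hf
    exact ((hf a.1 a.2).fderiv_right (m := ∞) le_rfl).clm_apply contDiff_const
  have h2 : ∀ f : X → ℝ, C.Ck ∞ f → ContDiff ℝ ∞ fun y => f (pt C a y) := fun f hf => hf a.1 a.2
  exact (h1 _ (h.smooth k)).sub ((h1 _ h.smooth_t).mul
    ((h2 _ (h.smooth k)).div (h2 _ h.smooth_t) fun y => (h.pos _).ne'))

/-- the frame of the developing map -/
noncomputable def AA (C : Cov n M X Γ I) (D : Fin (n + 1) → X → ℝ) (t : X → ℝ)
    (β : I → E n → Matrix (Fin n) (Fin n) ℝ) (a : Γ × I) (y : E n) :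
    Matrix (Fin (n + 1)) (Fin (n + 1)) ℝ :=
  Am (fun k => D k (pt C a y) / t (pt C a y)) (Nn C D t a y * (β a.2 y)ᵀ)

variable {β : I → E n → Matrix (Fin n) (Fin n) ℝ} (hβ : ∀ i, Fr (G i) (β i))

include hβ in
theorem AA_orth (h : DevX C G D t) (a : Γ × I) (y : E n) :
    (AA C D t β a y)ᵀ * AA C D t β a y = 1 := by
  refine Am_orth (δ_sq h _) (fun j => ?_) ?_
  · simp only [Matrix.mul_apply, Finset.mul_sum]
    rw [Finset.sum_comm]
    refine Finset.sum_eq_zero fun l _ => ?_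
    have := Nn_perp h a y l
    rw [← mul_eq_zero_of_left this ((β a.2 y)ᵀ l j), Finset.sum_mul]
    exact Finset.sum_congr rfl fun k _ => (mul_assoc _ _ _).symm
  · rw [Matrix.transpose_mul, Matrix.transpose_transpose, Matrix.mul_assoc,
      ← Matrix.mul_assoc _ᵀ (Nn C D t a y), Nn_gram h, ← Matrix.mul_assoc]
    exact (hβ _).orth y

theorem AA_smooth (h : DevX C G D t) (hβ : ∀ i, Fr (G i) (β i)) (a : Γ × I)
    (k j : Fin (n + 1)) : ContDiff ℝ ∞ fun y => AA C D t β a y k j := by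
  have h2 : ∀ f : X → ℝ, C.Ck ∞ f → ContDiff ℝ ∞ fun y => f (pt C a y) := fun f hf => hf a.1 a.2
  refine Fin.cases ?_ (fun j => ?_) j
  · exact (h2 _ (h.smooth k)).div (h2 _ h.smooth_t) fun y => (h.pos _).ne'
  · simp only [AA, Am_succ, Matrix.mul_apply, Matrix.transpose_apply]
    exact ContDiff.sum fun l _ => (Nn_smooth h a k l).mul ((hβ _).smooth j l)

theorem AA_tr (h : DevX C G D t) (hm : MetX C G) (hβ : ∀ i, Fr (G i) (β i)) {a b : Γ × I}
    {y : E n} (hy : y ∈ dm C a b) : AA C D t β a y =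
      AA C D t β b (tt C a b y) * sp (Rm (G b.2) (β a.2) (β b.2) (tt C a b) y) := by
  unfold AA
  rw [← Am_sp, pt_tt hy, Nn_tr h hy, Matrix.mul_assoc _ (jac _ _), Matrix.mul_assoc _ _ᵀ]
  congr 2
  have := RM_eq (b₂ := β b.2 (tt C a b y)) (A₂ := G b.2 (tt C a b y)) (J := jac (tt C a b) y)
    (b₁ := β a.2 y) (symm_of_posDef (hm.pos _ _)) ((hβ _).orth _)
  exact this.symm

theorem Rm_det (hm : MetX C G) (hβ : ∀ i, Fr (G i) (β i)) {a b : Γ × I}
    {y : E n} (hy : y ∈ dm C a b) : (Rm (G b.2) (β a.2) (β b.2) (tt C a b) y).det = 1 :=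
  RM_det (b₂ := β b.2 (tt C a b y)) (A₂ := G b.2 (tt C a b y)) (J := jac (tt C a b) y)
    (b₁ := β a.2 y) ((hβ _).orth _) ((hβ _).pos _) ((hβ _).pos _)
    (Vale.Agent.P223.X.Bas2.det_jac_pos hy)
    (Rm_orth (hm.pos _) (hβ _).orth (hβ _).orth (Vale.Agent.P223.X.Bas2.compat hm hy))

theorem sp_det (R : Matrix (Fin n) (Fin n) ℝ) : (sp R).det = R.det := by
  rw [Matrix.det_succ_row_zero, Fin.sum_univ_succ]
  simp only [sp_0s, mul_zero, zero_mul, Finset.sum_const_zero, add_zero, sp_00, Fin.val_zero,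
    pow_zero, one_mul]
  congr 1

theorem AA_det_tr (h : DevX C G D t) (hm : MetX C G) (hβ : ∀ i, Fr (G i) (β i)) {a b : Γ × I}
    {y : E n} (hy : y ∈ dm C a b) : (AA C D t β a y).det = (AA C D t β b (tt C a b y)).det := by
  rw [AA_tr h hm hβ hy, Matrix.det_mul, sp_det, Rm_det hm hβ hy, mul_one]

theorem AA_det_sq (h : DevX C G D t) (hβ : ∀ i, Fr (G i) (β i)) (a : Γ × I) (y : E n) :
    (AA C D t β a y).det = 1 ∨ (AA C D t β a y).det = -1 := by
  have h2 := congrArg Matrix.det (AA_orth hβ h a y)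
  rw [Matrix.det_mul, Matrix.det_transpose, Matrix.det_one] at h2
  exact mul_self_eq_one_iff.1 h2

theorem AA_det_cont (h : DevX C G D t) (hβ : ∀ i, Fr (G i) (β i)) (a : Γ × I) :
    Continuous fun y => (AA C D t β a y).det := by
  refine Continuous.matrix_det ?_
  exact continuous_matrix fun k j => (AA_smooth h hβ a k j).continuous

/-- the determinant is constant -/
theorem AA_det_const [ConnectedSpace X] (h : DevX C G D t) (hm : MetX C G)
    (hβ : ∀ i, Fr (G i) (β i)) :
    (∀ a y, (AA C D t β a y).det = 1) ∨ ∀ a y, (AA C D t β a y).det = -1 := by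
  have key : ∀ r : ℝ, (r = 1 ∨ r = -1) →
      IsOpen {x : X | ∃ a y, pt C a y = x ∧ (AA C D t β a y).det = r} := by
    intro r hr
    rw [isOpen_iff_mem_nhds]
    rintro x ⟨a, y, rfl, hy⟩
    have h1 : IsOpen {z | (AA C D t β a z).det = r} := by
      have : {z | (AA C D t β a z).det = r} = {z | 0 < r * (AA C D t β a z).det} := by
        ext z
        simp only [Set.mem_ofPred_eq]
        rcases hr with rfl | rfl <;> rcases AA_det_sq h hβ a z with h3 | h3 <;> rw [h3] <;>
          norm_num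
      rw [this]
      exact isOpen_lt continuous_const (continuous_const.mul (AA_det_cont h hβ a))
    refine Filter.mem_of_superset (((pt_emb a).isOpenMap _ h1).mem_nhds ⟨y, hy, rfl⟩) ?_
    rintro _ ⟨z, hz, rfl⟩
    exact ⟨a, z, rfl, hz⟩
  have hcompl : {x : X | ∃ a y, pt C a y = x ∧ (AA C D t β a y).det = 1}ᶜ =
      {x : X | ∃ a y, pt C a y = x ∧ (AA C D t β a y).det = -1} := by
    ext x
    simp only [Set.mem_compl_iff, Set.mem_ofPred_eq]
    constructor
    · intro hx
      obtain ⟨a, y, rfl⟩ := pt_cover (C := C) x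
      refine ⟨a, y, rfl, ?_⟩
      rcases AA_det_sq h hβ a y with h3 | h3
      · exact absurd ⟨a, y, rfl, h3⟩ hx
      · exact h3
    · rintro ⟨a, y, rfl, hy⟩ ⟨b, z, hz, hz1⟩
      obtain ⟨h3, h4⟩ := mem_dm hz.symm
      rw [AA_det_tr h hm hβ h3, h4, hz1] at hy
      norm_num at hy
  have hclopen : IsClopen {x : X | ∃ a y, pt C a y = x ∧ (AA C D t β a y).det = 1} :=
    ⟨by rw [← isOpen_compl_iff, hcompl]; exact key _ (Or.inr rfl), key _ (Or.inl rfl)⟩
  have huniq : ∀ r : ℝ, ∀ a y, (∃ b z, pt C b z = pt C a y ∧ (AA C D t β b z).det = r) →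
      (AA C D t β a y).det = r := by
    rintro r a y ⟨b, z, hz, hz1⟩
    obtain ⟨h3, h4⟩ := mem_dm hz.symm
    rw [AA_det_tr h hm hβ h3, h4, hz1]
  rcases isClopen_iff.1 hclopen with h1 | h1
  · right
    intro a y
    have h2 : pt C a y ∈ {x : X | ∃ a y, pt C a y = x ∧ (AA C D t β a y).det = 1}ᶜ := by
      rw [h1, Set.compl_empty]; trivial
    rw [hcompl] at h2
    exact huniq _ a y h2
  · left
    intro a y
    have h2 : pt C a y ∈ {x : X | ∃ a y, pt C a y = x ∧ (AA C D t β a y).det = 1} := by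
      rw [h1]; trivial
    exact huniq _ a y h2

/-- the reflection -/
def rfl0 (D : Fin (n + 1) → X → ℝ) : Fin (n + 1) → X → ℝ := fun k x =>
  (if k = 0 then (-1 : ℝ) else 1) * D k x

theorem refl_sq (k : Fin (n + 1)) : (if k = 0 then (-1 : ℝ) else 1) *
    (if k = 0 then (-1 : ℝ) else 1) = 1 := by
  split_ifs <;> norm_num

theorem DevX_refl (h : DevX C G D t) : DevX C G (rfl0 D) t where
  smooth k γ i := contDiff_const.mul (h.smooth k γ i)
  smooth_t := h.smooth_t
  pos := h.pos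
  null x := by
    rw [← h.null x]
    refine Finset.sum_congr rfl fun k _ => ?_
    unfold rfl0
    rw [mul_pow, pow_two (if k = 0 then (-1 : ℝ) else 1), refl_sq, one_mul]
  iso γ i y a b := by
    rw [h.iso γ i y a b]
    congr 1
    refine Finset.sum_congr rfl fun k _ => ?_
    have h1 : ∀ l, H.pd l (C.rep (rfl0 D k) γ i) y =
        (if k = 0 then (-1 : ℝ) else 1) * H.pd l (C.rep (D k) γ i) y := by
      intro l
      have : C.rep (rfl0 D k) γ i = fun y => (if k = 0 then (-1 : ℝ) else 1) * C.rep (D k) γ i y :=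
        rfl
      rw [this, H.pd, fderiv_const_mul ((h.smooth k γ i).contDiffAt.differentiableAt (by simp))]
      rfl
    rw [h1, h1, mul_mul_mul_comm, refl_sq, one_mul]

theorem AA_refl (h : DevX C G D t) (a : Γ × I) (y : E n) : AA C (rfl0 D) t β a y =
    Matrix.diagonal (fun k : Fin (n + 1) => if k = 0 then (-1 : ℝ) else 1) * AA C D t β a y := by
  ext k j
  rw [Matrix.diagonal_mul]
  refine Fin.cases ?_ (fun j => ?_) j
  · simp only [AA, Am_zero, rfl0]
    rw [mul_div_assoc]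
  · simp only [AA, Am_succ, Matrix.mul_apply, Finset.mul_sum]
    refine Finset.sum_congr rfl fun l _ => ?_
    rw [← mul_assoc]
    congr 1
    unfold Nn
    have h1 : H.pd l (C.rep (rfl0 D k) a.1 a.2) y =
        (if k = 0 then (-1 : ℝ) else 1) * H.pd l (C.rep (D k) a.1 a.2) y := by
      have : C.rep (rfl0 D k) a.1 a.2 =
          fun y => (if k = 0 then (-1 : ℝ) else 1) * C.rep (D k) a.1 a.2 y := rfl
      rw [this, H.pd, fderiv_const_mul ((h.smooth k a.1 a.2).contDiffAt.differentiableAt (by simp))]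
      rfl
    rw [h1]
    unfold rfl0
    ring

theorem refl_det : (Matrix.diagonal (fun k : Fin (n + 1) => if k = 0 then (-1 : ℝ) else 1)).det =
    -1 := by
  rw [Matrix.det_diagonal, Fin.prod_univ_succ, if_pos rfl]
  simp [Fin.succ_ne_zero]

end dev

section sp0
variable {n : ℕ} {M X Γ I : Type} [TopologicalSpace M] [TopologicalSpace X] [Group Γ]
    [MulAction Γ X] {C : Cov n M X Γ I} {G : I → E n → Matrix (Fin n) (Fin n) ℝ}
    {D : Fin (n + 1) → X → ℝ} {t : X → ℝ}
    {V : Type} [NormedAddCommGroup V] [InnerProductSpace ℂ V]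
    [FiniteDimensional ℂ V] [Nontrivial V]

theorem exists_Sp0_of_dev' {β : I → E n → Matrix (Fin n) (Fin n) ℝ} (hβ : ∀ i, Fr (G i) (β i))
    (h : DevX C G D t) (hm : MetX C G) (hd : ∀ a y, (AA C D t β a y).det = 1) (K : Cliff n V) :
    Nonempty (Sp0 C G K) := by
  have hex : ∀ a : Γ × I, ∃ r : E n → (V2 V →L[ℂ] V2 V), ∀ z, Lf (K2 K) (AA C D t β a z) (r z) ∧
      ContDiffAt ℝ ∞ r z := fun a =>
    Lf_global (K := K2 K) (AA_smooth h hβ a) (AA_orth hβ h a) (hd a)
  choose r hr using hex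
  have key : ∀ a b, ∀ y ∈ dm C a b,
      Lf K (Rm (G b.2) (β a.2) (β b.2) (tt C a b) y) (cp (star (r b (tt C a b y)) * r a y)) ∧
      star (r b (tt C a b y)) * r a y =
        dg (cp (star (r b (tt C a b y)) * r a y)) (cp (star (r b (tt C a b y)) * r a y)) := by
    intro a b y hy
    have o := mul_eq_one_comm.1 (AA_orth hβ h b (tt C a b y))
    have h1 := ((hr b (tt C a b y)).1.inv o).mul (hr a y).1
    rw [AA_tr h hm hβ hy, ← Matrix.mul_assoc, AA_orth hβ h, Matrix.one_mul] at h1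
    exact h1.undbl (Rm_orth (hm.pos _) (hβ _).orth (hβ _).orth
      (Vale.Agent.P223.X.Bas2.compat hm hy)) (Rm_det hm hβ hy)
  have kcp : ∀ a b, ∀ y ∈ dm C a b, ∀ a' b', ∀ y' ∈ dm C a' b',
      cp (star (r b (tt C a b y)) * r a y) * cp (star (r b' (tt C a' b' y')) * r a' y') =
        cp (star (r b (tt C a b y)) * r a y * (star (r b' (tt C a' b' y')) * r a' y')) := by
    intro a b y hy a' b' y' hy'
    conv_rhs => rw [(key a b y hy).2, (key a' b' y' hy').2]
    rw [dg_mul, cp_dg]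
  refine ⟨⟨hm, β, hβ, fun a b y => cp (star (r b (tt C a b y)) * r a y), fun a b y hy => ?_,
    fun a b y hy => (key a b y hy).1, fun a b d y h1 h2 => ?_, fun a y => ?_⟩⟩
  · refine contDiffAt_cp (ContDiffAt.mul ?_ (hr a y).2)
    exact cd_star ((hr b (tt C a b y)).2.comp y (contDiffAt_tt hy))
  · obtain ⟨h3, h4⟩ := tt_tt h1 h2
    rw [kcp b d _ h2 a b _ h1, h4]
    congr 1
    calc star (r d (tt C a d y)) * r b (tt C a b y) * (star (r b (tt C a b y)) * r a y) =
        star (r d (tt C a d y)) * (r b (tt C a b y) * star (r b (tt C a b y))) * r a y := by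
          simp only [mul_assoc]
      _ = _ := by rw [(hr b _).1.mul_star, mul_one]
  · obtain ⟨h3, h4⟩ := dm_self (C := C) a y
    rw [h4, (hr a y).1.star_mul, ← dg_one, cp_dg]

/-- The spinor bundle given by a developing map. -/
theorem exists_Sp1_of_dev [SimplyConnectedSpace X] (h : DevX C G D t) (hm : MetX C G)
    (K : Cliff n V) : Nonempty (Sp1 C G K) := by
  have : CompleteSpace V := FiniteDimensional.complete ℂ V
  choose β hβ using fun i => exists_frame (hm.smooth i) (hm.pos i)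
  have h0 : Nonempty (Sp0 C G K) := by
    rcases AA_det_const h hm hβ with h1 | h1
    · exact exists_Sp0_of_dev' hβ h hm h1 K
    · refine exists_Sp0_of_dev' hβ (DevX_refl h) hm (fun a y => ?_) K
      rw [AA_refl h, Matrix.det_mul, refl_det, h1]
      norm_num
  obtain ⟨S⟩ := h0
  obtain ⟨S1, -⟩ := exists_Sp1 S
  exact ⟨S1⟩

theorem exists_SpX_of_dev [SimplyConnectedSpace X] (h : DevX C G D t) (hm : MetX C G)
    (K : Cliff n V) : Nonempty (SpX C G K) := by
  have : CompleteSpace V := FiniteDimensional.complete ℂ V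
  obtain ⟨S⟩ := exists_Sp1_of_dev h hm K
  exact ⟨S.toSpX⟩

end sp0

end Vale.Agent.P223.H441
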