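import Vale.Agent.P223.H850.FinalS

/-! P223: manifolds with a spin covering; `Scal ≥ 0`, `Scal > 0`. From the block `SpecPair`. -/

namespace Vale.Agent.P223.H441

open scoped ContDiff
open MeasureTheory Vale.Agent.P223.H Vale.Agent.P223.X H566

/-- nonnegative scalar curvature -/
theorem sv_zero_of_nonneg (hp : SpecPair) {n : ℕ} (hn : 4 ≤ n) {M : Type} [TopologicalSpace M]
    [CompactSpace M] [T2Space M] [ConnectedSpace M] {c : M → J.Ch n M} (hc : J.Atl c)
    {g₀ : M → J.Mtx n} (hg₀ : J.Met c g₀) (hS : J.CovSpin c g₀)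
    {g : M → J.Mtx n} (hg : J.Met c g) (h : ∀ p, 0 ≤ J.scal (g p) (c p p)) : J.sv c = 0 := by
  have hu := Vale.Agent.P223.X.hu
  obtain ⟨d⟩ := FinalM.exists_data hu (by omega) c hc
  have hm := (hu.met n M d.X d.Γ d.I c d.B d.C hc d.hCB).1 g hg
  have h1 : ∀ q, scM d.C (d.B.G g) q = J.scal (g q) (c q q) := FinalM.scM_eq hu hc d hg
  refine le_antisymm ((hu.sv n M d.X d.Γ d.I c d.B d.C hc d.hCB).trans
    (H850.svX_zero_of_nonneg hp (K := Kex n)
      (fun G hG => exists_SpX_of_covSpin' hc d.hCB (Kex n) hg₀ hS hG) hn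
      (Nat.pos_of_ne_zero finrank_Sp) d.inf hm fun i y => ?_).le) bot_le
  rw [← Final.scM_eq hm i y, h1]
  exact h _

theorem scal_zero (G : J.Mtx 0) (x : J.E 0) : J.scal G x = 0 := by
  simp [J.scal]

/-- both cases -/
theorem sv_zero (hp : SpecPair) {n : ℕ} {M : Type} [TopologicalSpace M]
    [CompactSpace M] [T2Space M] [ConnectedSpace M] {c : M → J.Ch n M} (hc : J.Atl c)
    {g₀ : M → J.Mtx n} (hg₀ : J.Met c g₀) (hS : J.CovSpin c g₀)
    {g : M → J.Mtx n} (hg : J.Met c g) :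
    (4 ≤ n → (∀ p, 0 ≤ J.scal (g p) (c p p)) → J.sv c = 0) ∧
      ((∀ p, 0 < J.scal (g p) (c p p)) → J.sv c = 0) := by
  refine ⟨fun hn => sv_zero_of_nonneg hp hn hc hg₀ hS hg, fun h => ?_⟩
  rcases Nat.eq_zero_or_pos n with rfl | hn
  · obtain ⟨p⟩ := (inferInstance : Nonempty M)
    exact absurd (h p) (by rw [scal_zero]; exact lt_irrefl 0)
  · exact sv_zero_of_pos hp hn hc hg₀ hS hg h

end Vale.Agent.P223.H441
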