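import Vale.Agent.P223.H441.Spu
import Mathlib.LinearAlgebra.Matrix.SchurComplement

/-! Lifts of rotations to operators on Clifford modules. -/

namespace Vale.Agent.P223.H441

open Vale.Agent.P223.H566 Vale.Agent.P223.H
open scoped ContDiff Topology Matrix InnerProductSpace

section Lf
variable {n : ℕ} {V : Type} [NormedAddCommGroup V] [InnerProductSpace ℂ V] (K : Cliff n V)

/-- `u` is a lift of the rotation `Q` -/
structure Lf (Q : Matrix (Fin n) (Fin n) ℝ) (u : V →L[ℂ] V) : Prop where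
  mem : u ∈ W K
  unit : ∀ v w, ⟪u v, u w⟫_ℂ = ⟪v, w⟫_ℂ
  lift : ∀ v, u * cv K v = cv K (Q *ᵥ v) * u

variable [CompleteSpace V]

theorem star_c (a : Fin n) : star (K.c a) = K.c a := by
  rw [ContinuousLinearMap.star_eq_adjoint, eq_comm, ContinuousLinearMap.eq_adjoint_iff]
  exact fun x y => K.symm a x y

theorem star_wd (L : List (Fin n)) : star (wd K L) = wd K L.reverse := by
  induction L with
  | nil => simp
  | cons a L ih =>
    rw [List.reverse_cons, wd_append, wd_cons, star_mul, ih, star_c]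
    simp

theorem star_rsmul (r : ℝ) (u : V →L[ℂ] V) : star (r • u) = r • star u := by
  rw [star_smul, star_trivial]

theorem star_mem_W {u : V →L[ℂ] V} (h : u ∈ W K) : star u ∈ W K := by
  induction h using Submodule.span_induction with
  | mem x hx =>
    obtain ⟨L, hL, rfl⟩ := hx
    rw [star_wd]
    exact wd_mem_W K (by rwa [List.length_reverse])
  | zero => rw [star_zero]; exact zero_mem _
  | add y z _ _ h1 h2 => rw [star_add]; exact add_mem h1 h2
  | smul r y _ h => rw [star_rsmul]; exact Submodule.smul_mem _ _ h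

variable {K} {Q Q' : Matrix (Fin n) (Fin n) ℝ} {u u' : V →L[ℂ] V}

theorem Lf.star_mul (h : Lf K Q u) : star u * u = 1 := by
  ext v
  refine ext_inner_left ℂ fun w => ?_
  change ⟪w, ContinuousLinearMap.adjoint u (u v)⟫_ℂ = ⟪w, v⟫_ℂ
  rw [ContinuousLinearMap.adjoint_inner_right, h.unit]

variable [FiniteDimensional ℂ V]

omit [CompleteSpace V] in
theorem mul_one_comm {a b : V →L[ℂ] V} (h : a * b = 1) : b * a = 1 := by
  have h1 : (a : V →ₗ[ℂ] V) * (b : V →ₗ[ℂ] V) = 1 := by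
    ext v
    exact congrArg (fun T : V →L[ℂ] V => T v) h
  have h2 := mul_eq_one_comm.1 h1
  ext v
  exact congrArg (fun T : V →ₗ[ℂ] V => T v) h2

theorem Lf.mul_star (h : Lf K Q u) : u * star u = 1 := mul_one_comm h.star_mul

omit [FiniteDimensional ℂ V] in
theorem unit_of_star {s : V →L[ℂ] V} (h : star s * s = 1) (v w : V) : ⟪s v, s w⟫_ℂ = ⟪v, w⟫_ℂ := by
  rw [← ContinuousLinearMap.adjoint_inner_right]
  change ⟪v, (star s * s) w⟫_ℂ = _
  rw [h]; rfl

omit [CompleteSpace V] [FiniteDimensional ℂ V] in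
theorem Lf.mul (h : Lf K Q u) (h' : Lf K Q' u') : Lf K (Q * Q') (u * u') where
  mem := mul_mem_W K h.mem h'.mem
  unit v w := by
    change ⟪u (u' v), u (u' w)⟫_ℂ = _
    rw [h.unit, h'.unit]
  lift v := by
    rw [mul_assoc, h'.lift, ← mul_assoc, h.lift, mul_assoc, Matrix.mulVec_mulVec]

theorem Lf.inv (h : Lf K Q u) (hQ : Q * Qᵀ = 1) : Lf K Qᵀ (star u) where
  mem := star_mem_W K h.mem
  unit := unit_of_star (by rw [star_star]; exact h.mul_star)
  lift v := by
    have h1 := h.lift (Qᵀ *ᵥ v)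
    rw [Matrix.mulVec_mulVec, hQ, Matrix.one_mulVec] at h1
    calc star u * cv K v = star u * (cv K v * u) * star u := by
          rw [mul_assoc, mul_assoc, h.mul_star, mul_one]
      _ = star u * (u * cv K (Qᵀ *ᵥ v)) * star u := by rw [h1]
      _ = cv K (Qᵀ *ᵥ v) * star u := by rw [← mul_assoc (star u), h.star_mul, one_mul]

omit [CompleteSpace V] [FiniteDimensional ℂ V] in
theorem Lf.sgn (h : Lf K Q u) (ε : ℤˣ) : Lf K Q ((ε : ℤ) • u) := by
  rcases Int.units_eq_one_or ε with rfl | rfl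
  · simpa using h
  · refine ⟨?_, fun v w => ?_, fun v => ?_⟩
    · rw [Units.val_neg, Units.val_one, neg_smul, one_smul]; exact neg_mem h.mem
    · rw [Units.val_neg, Units.val_one, neg_smul, one_smul]
      change ⟪-(u v), -(u w)⟫_ℂ = _
      rw [inner_neg_neg, h.unit]
    · rw [Units.val_neg, Units.val_one, neg_smul, one_smul, neg_mul, h.lift, mul_neg]

theorem Lf.uniq [Nontrivial V] (h : Lf K Q u) (h' : Lf K Q u') (hQ : Q * Qᵀ = 1) :
    ∃ ε : ℤˣ, u' = (ε : ℤ) • u := by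
  have hz := (h.inv hQ).mul h'
  have hQ' : Qᵀ * Q = 1 := mul_eq_one_comm.1 hQ
  rw [hQ'] at hz
  obtain ⟨s, hs⟩ := center K hz.mem fun a => by
    have := hz.lift (Pi.single a 1)
    rw [Matrix.one_mulVec, cv_single] at this
    exact this.symm
  obtain ⟨v, hv⟩ := exists_ne (0 : V)
  have h1 := hz.unit v v
  rw [hs] at h1
  change ⟪(s : ℂ) • v, (s : ℂ) • v⟫_ℂ = _ at h1
  rw [inner_smul_left, inner_smul_right, Complex.conj_ofReal, ← mul_assoc] at h1
  have h2 : ⟪v, v⟫_ℂ ≠ 0 := inner_self_ne_zero.2 hv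
  have h3 : ((s * s : ℝ) : ℂ) = 1 := by
    push_cast
    exact mul_right_cancel₀ h2 (by rw [h1, one_mul])
  have h4 : s * s = 1 := by exact_mod_cast h3
  have h5 : u' = s • u := by
    calc u' = (u * star u) * u' := by rw [h.mul_star, one_mul]
      _ = u * (star u * u') := mul_assoc _ _ _
      _ = s • u := by rw [hs, mul_smul_comm, mul_one]
  rcases mul_self_eq_one_iff.1 h4 with h6 | h6
  · exact ⟨1, by rw [h5, h6]; simp⟩
  · exact ⟨-1, by rw [h5, h6]; simp⟩

omit [CompleteSpace V] [FiniteDimensional ℂ V] in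
theorem lift_of_basis (h : ∀ b, u * K.c b = cv K (Q *ᵥ Pi.single b 1) * u) (v : E n) :
    u * cv K v = cv K (Q *ᵥ v) * u := by
  have hv : v = ∑ b, v b • Pi.single b (1 : ℝ) := by
    funext a
    simp [Finset.sum_apply, Pi.single_apply]
  have h1 : cv K v = ∑ b, v b • K.c b := cv_apply K v
  have h2 : cv K (Q *ᵥ v) = ∑ b, v b • cv K (Q *ᵥ Pi.single b 1) := by
    conv_lhs => rw [hv]
    rw [Matrix.mulVec_sum, map_sum]
    refine Finset.sum_congr rfl fun b _ => ?_
    rw [Matrix.mulVec_smul, map_smul]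
  rw [h1, h2, Finset.mul_sum, Finset.sum_mul]
  refine Finset.sum_congr rfl fun b _ => ?_
  rw [mul_smul_comm, smul_mul_assoc, h]

end Lf

section Zl
variable {n : ℕ} {V : Type} [NormedAddCommGroup V] [InnerProductSpace ℂ V] (K : Cliff n V)

/-- an intertwining operator -/
noncomputable def Zl (Q : Matrix (Fin n) (Fin n) ℝ) : List (Fin n) → (V →L[ℂ] V)
  | [] => 1
  | a :: L => Zl Q L + cv K (Q *ᵥ Pi.single a 1) * Zl Q L * K.c a

theorem cv_mem_odd (v w : E n) : cv K v * cv K w ∈ W K := by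
  rw [cv_apply, cv_apply, Finset.sum_mul_sum]
  refine Submodule.sum_mem _ fun a _ => Submodule.sum_mem _ fun b _ => ?_
  rw [smul_mul_smul_comm]
  exact Submodule.smul_mem _ _ (cc_mem_W K a b)

theorem conj_mem_W {z : V →L[ℂ] V} (hz : z ∈ W K) (v w : E n) : cv K v * z * cv K w ∈ W K := by
  have key : ∀ a b, K.c a * z * K.c b ∈ W K := by
    intro a b
    induction hz using Submodule.span_induction with
    | mem x hx =>
      obtain ⟨L, hL, rfl⟩ := hx
      have : K.c a * wd K L * K.c b = wd K (a :: (L ++ [b])) := by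
        rw [wd_cons, wd_append]; simp [mul_assoc]
      rw [this]
      refine wd_mem_W K ?_
      rw [List.length_cons, List.length_append, List.length_singleton]
      rw [add_assoc]
      exact hL.add even_two
    | zero => rw [mul_zero, zero_mul]; exact zero_mem _
    | add y z _ _ h1 h2 => rw [mul_add, add_mul]; exact add_mem h1 h2
    | smul r y _ h => rw [mul_smul_comm, smul_mul_assoc]; exact Submodule.smul_mem _ _ h
  rw [cv_apply, cv_apply, Finset.sum_mul, Finset.sum_mul_sum]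
  refine Submodule.sum_mem _ fun a _ => Submodule.sum_mem _ fun b _ => ?_
  rw [smul_mul_assoc, smul_mul_smul_comm]
  exact Submodule.smul_mem _ _ (key a b)

theorem Zl_mem_W (Q : Matrix (Fin n) (Fin n) ℝ) (L : List (Fin n)) : Zl K Q L ∈ W K := by
  induction L with
  | nil => exact one_mem_W K
  | cons a L ih =>
    refine add_mem ih ?_
    rw [← cv_single K a]
    exact conj_mem_W K ih _ _

/-- `⟨v, w⟩` -/
theorem cv_anti (v w : E n) : cv K v * cv K w + cv K w * cv K v = (2 * ∑ a, v a * w a) • 1 := by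
  have h1 := cv_sq K (v + w)
  have h2 := cv_sq K v
  have h3 := cv_sq K w
  rw [map_add, Algebra.algebraMap_eq_smul_one, nq_apply] at h1
  rw [Algebra.algebraMap_eq_smul_one, nq_apply] at h2 h3
  have h4 : (cv K v + cv K w) * (cv K v + cv K w) =
      cv K v * cv K v + cv K w * cv K w + (cv K v * cv K w + cv K w * cv K v) := by
    rw [add_mul, mul_add, mul_add]; abel
  rw [h4, h2, h3, ← add_smul] at h1
  have h5 : ∑ a, (v + w) a * (v + w) a =
      ∑ a, v a * v a + ∑ a, w a * w a + 2 * ∑ a, v a * w a := by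
    rw [Finset.mul_sum, ← Finset.sum_add_distrib, ← Finset.sum_add_distrib]
    refine Finset.sum_congr rfl fun a _ => ?_
    rw [Pi.add_apply]; ring
  rw [h5, add_smul (_ + _)] at h1
  exact add_left_cancel h1

theorem col_orth {Q : Matrix (Fin n) (Fin n) ℝ} (hQ : Qᵀ * Q = 1) (a b : Fin n) :
    ∑ d, (Q *ᵥ Pi.single a 1) d * (Q *ᵥ Pi.single b 1) d = if a = b then 1 else 0 := by
  have h := congrFun (congrFun hQ a) b
  rw [Matrix.mul_apply, Matrix.one_apply] at h
  rw [Matrix.mulVec_single_one, Matrix.mulVec_single_one, ← h]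
  rfl

theorem Zl_lift {Q : Matrix (Fin n) (Fin n) ℝ} (hQ : Qᵀ * Q = 1) {L : List (Fin n)}
    (hL : L.Nodup) : ∀ b ∈ L, Zl K Q L * K.c b = cv K (Q *ᵥ Pi.single b 1) * Zl K Q L := by
  induction L with
  | nil => intro b hb; simp at hb
  | cons a L ih =>
    intro b hb
    rw [List.nodup_cons] at hL
    set f : Fin n → (V →L[ℂ] V) := fun a => cv K (Q *ᵥ Pi.single a 1) with hf
    have h1 : Zl K Q (a :: L) = Zl K Q L + f a * Zl K Q L * K.c a := rfl
    have hff : ∀ a, f a * f a = 1 := by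
      intro a
      rw [hf]
      dsimp only
      rw [cv_sq, nq_apply, col_orth hQ, if_pos rfl, map_one]
    rw [h1]
    change _ = f b * _
    rcases List.mem_cons.1 hb with rfl | hb
    · rw [add_mul, mul_add, mul_assoc, sq, mul_one, ← mul_assoc, ← mul_assoc, hff, one_mul,
        add_comm]
    · have hab : a ≠ b := by rintro rfl; exact hL.1 hb
      have h2 := ih hL.2 b hb
      have h3 : f b * f a = -(f a * f b) := by
        have h := cv_anti K (Q *ᵥ Pi.single b 1) (Q *ᵥ Pi.single a 1)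
        rw [col_orth hQ, if_neg (Ne.symm hab), mul_zero, zero_smul] at h
        exact eq_neg_of_add_eq_zero_left h
      have h4 : K.c a * K.c b = -(K.c b * K.c a) := anti K hab
      change _ = f b * Zl K Q L at h2
      rw [add_mul, mul_add, h2]
      congr 1
      rw [mul_assoc, h4, mul_neg, ← mul_assoc, mul_assoc (f a), h2, ← mul_assoc, ← mul_assoc,
        ← mul_assoc, h3]
      simp only [neg_mul]

theorem Zl_one (L : List (Fin n)) : Zl K 1 L = (2 : ℝ) ^ L.length • 1 := by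
  induction L with
  | nil => simp [Zl]
  | cons a L ih =>
    have h1 : Zl K 1 (a :: L) = Zl K 1 L + cv K (1 *ᵥ Pi.single a 1) * Zl K 1 L * K.c a := rfl
    rw [h1, ih, Matrix.one_mulVec, cv_single, mul_smul_comm, mul_one, smul_mul_assoc, sq,
      List.length_cons, pow_succ, ← add_smul]
    congr 1
    ring

variable {K}
theorem contDiffAt_Zl {R : E n → Matrix (Fin n) (Fin n) ℝ} {y : E n}
    (hR : ∀ a b, ContDiffAt ℝ ∞ (fun z => R z a b) y) (L : List (Fin n)) :
    ContDiffAt ℝ ∞ (fun z => Zl K (R z) L) y := by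
  induction L with
  | nil => exact contDiffAt_const
  | cons a L ih =>
    have h1 : (fun z => Zl K (R z) (a :: L)) = fun z => Zl K (R z) L +
        (∑ b, R z b a • K.c b) * Zl K (R z) L * K.c a := by
      funext z
      change _ + cv K (R z *ᵥ Pi.single a 1) * _ * _ = _
      rw [cv_apply, Matrix.mulVec_single_one]
      rfl
    rw [h1]
    have h2 : ContDiffAt ℝ ∞ (fun z => ∑ b, R z b a • K.c b) y :=
      ContDiffAt.sum fun b _ => (hR b a).smul contDiffAt_const
    exact ih.add ((h2.mul ih).mul contDiffAt_const)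

end Zl

section ex
variable {n : ℕ} {V : Type} [NormedAddCommGroup V] [InnerProductSpace ℂ V] (K : Cliff n V)
  [CompleteSpace V] [FiniteDimensional ℂ V] [Nontrivial V]

/-- the lift near `1` -/
theorem Zl_scal {Q : Matrix (Fin n) (Fin n) ℝ} (hQ : Qᵀ * Q = 1) {v₀ : V} (hv : ‖v₀‖ = 1) :
    star (Zl K Q (List.finRange n)) * Zl K Q (List.finRange n) =
      (‖Zl K Q (List.finRange n) v₀‖ ^ 2) • (1 : V →L[ℂ] V) := by
  set Z := Zl K Q (List.finRange n) with hZ
  have h1 : ∀ b, Z * K.c b = cv K (Q *ᵥ Pi.single b 1) * Z := fun b =>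
    Zl_lift K hQ (List.nodup_finRange n) b (List.mem_finRange b)
  have h2 : ∀ b, K.c b * star Z = star Z * cv K (Q *ᵥ Pi.single b 1) := by
    intro b
    have h := congrArg star (h1 b)
    rw [star_mul, star_mul, star_c] at h
    rw [h]
    congr 1
    rw [ContinuousLinearMap.star_eq_adjoint, eq_comm, ContinuousLinearMap.eq_adjoint_iff]
    exact fun x y => cv_symm K _ x y
  obtain ⟨s, hs⟩ := center K (z := star Z * Z)
    (mul_mem_W K (star_mem_W K (Zl_mem_W K _ _)) (Zl_mem_W K _ _)) fun a => by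
      rw [← mul_assoc, h2, mul_assoc, ← h1, mul_assoc]
  rw [hs]
  congr 1
  have h3 : ⟪v₀, (star Z * Z) v₀⟫_ℂ = ((‖Z v₀‖ ^ 2 : ℝ) : ℂ) := by
    change ⟪v₀, ContinuousLinearMap.adjoint Z (Z v₀)⟫_ℂ = _
    rw [ContinuousLinearMap.adjoint_inner_right, inner_self_eq_norm_sq_to_K]
    norm_cast
  rw [hs] at h3
  change ⟪v₀, (s : ℂ) • v₀⟫_ℂ = _ at h3
  rw [inner_smul_right, inner_self_eq_norm_sq_to_K, hv] at h3
  have h4 : (s : ℂ) = ((‖Z v₀‖ ^ 2 : ℝ) : ℂ) := by simpa using h3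
  exact_mod_cast h4

theorem Lf_Zl {Q : Matrix (Fin n) (Fin n) ℝ} (hQ : Qᵀ * Q = 1) {v₀ : V} (hv : ‖v₀‖ = 1)
    (h : Zl K Q (List.finRange n) v₀ ≠ 0) :
    Lf K Q (‖Zl K Q (List.finRange n) v₀‖⁻¹ • Zl K Q (List.finRange n)) where
  mem := Submodule.smul_mem _ _ (Zl_mem_W K _ _)
  unit := by
    refine unit_of_star ?_
    rw [star_rsmul, smul_mul_smul_comm, Zl_scal K hQ hv, smul_smul]
    have h1 : ‖Zl K Q (List.finRange n) v₀‖ ≠ 0 := norm_ne_zero_iff.2 h
    have h2 : ‖Zl K Q (List.finRange n) v₀‖⁻¹ * ‖Zl K Q (List.finRange n) v₀‖⁻¹ *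
        ‖Zl K Q (List.finRange n) v₀‖ ^ 2 = 1 := by field_simp
    rw [h2, one_smul]
  lift := lift_of_basis fun b => by
    rw [smul_mul_assoc, mul_smul_comm, Zl_lift K hQ (List.nodup_finRange n) b (List.mem_finRange b)]

theorem exists_unit : ∃ v₀ : V, ‖v₀‖ = 1 := by
  obtain ⟨v, hv⟩ := exists_ne (0 : V)
  exact ⟨(‖v‖⁻¹ : ℂ) • v, norm_smul_inv_norm hv⟩

/-- smooth lifts near `1` -/
theorem Lf_local_one {R : E n → Matrix (Fin n) (Fin n) ℝ} {y₀ : E n}
    (hR : ∀ᶠ z in 𝓝 y₀, ∀ a b, ContDiffAt ℝ ∞ (fun z => R z a b) z)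
    (ho : ∀ᶠ z in 𝓝 y₀, (R z)ᵀ * R z = 1) (h1 : R y₀ = 1) :
    ∃ r : E n → (V →L[ℂ] V), ∀ᶠ z in 𝓝 y₀, Lf K (R z) (r z) ∧ ContDiffAt ℝ ∞ r z := by
  obtain ⟨v₀, hv⟩ := exists_unit (V := V)
  set Z : E n → (V →L[ℂ] V) := fun z => Zl K (R z) (List.finRange n) with hZ
  have hZs : ∀ᶠ z in 𝓝 y₀, ContDiffAt ℝ ∞ Z z := by
    filter_upwards [hR] with z hz
    exact contDiffAt_Zl hz _
  have hZv : ∀ {z}, ContDiffAt ℝ ∞ Z z → ContDiffAt ℝ ∞ (fun z => Z z v₀) z := fun h =>
    ((ContinuousLinearMap.apply ℂ V v₀).restrictScalars ℝ).contDiff.contDiffAt.comp _ h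
  have h2 : Z y₀ v₀ ≠ 0 := by
    rw [hZ]
    dsimp only
    rw [h1, Zl_one]
    change (((2 : ℝ) ^ (List.finRange n).length : ℝ) : ℂ) • v₀ ≠ 0
    refine smul_ne_zero ?_ fun h => by rw [h, norm_zero] at hv; exact zero_ne_one hv
    norm_cast
    positivity
  have h3 : ∀ᶠ z in 𝓝 y₀, Z z v₀ ≠ 0 :=
    (hZv hZs.self_of_nhds).continuousAt.eventually_ne h2
  refine ⟨fun z => ‖Z z v₀‖⁻¹ • Z z, ?_⟩
  filter_upwards [hZs, h3, ho] with z hz1 hz2 hz3
  exact ⟨Lf_Zl K hz3 hv hz2,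
    (((hZv hz1).norm ℂ hz2).inv (norm_ne_zero_iff.2 hz2)).smul hz1⟩

/-- smooth lifts -/
theorem Lf_local {R : E n → Matrix (Fin n) (Fin n) ℝ} {y₀ : E n}
    (hR : ∀ᶠ z in 𝓝 y₀, ∀ a b, ContDiffAt ℝ ∞ (fun z => R z a b) z)
    (ho : ∀ᶠ z in 𝓝 y₀, (R z)ᵀ * R z = 1) {u : V →L[ℂ] V} (hu : Lf K (R y₀) u) :
    ∃ r : E n → (V →L[ℂ] V), ∀ᶠ z in 𝓝 y₀, Lf K (R z) (r z) ∧ ContDiffAt ℝ ∞ r z := by
  have h0 := ho.self_of_nhds
  have h0' : R y₀ * (R y₀)ᵀ = 1 := mul_eq_one_comm.1 h0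
  obtain ⟨r, hr⟩ := Lf_local_one K (R := fun z => R z * (R y₀)ᵀ) (y₀ := y₀) (by
      filter_upwards [hR] with z hz
      intro a b
      simp only [Matrix.mul_apply]
      exact ContDiffAt.sum fun c _ => (hz a c).mul contDiffAt_const) (by
      filter_upwards [ho] with z hz
      rw [Matrix.transpose_mul, Matrix.transpose_transpose, Matrix.mul_assoc, ← Matrix.mul_assoc _ᵀ,
        hz, Matrix.one_mul, h0']) h0'
  refine ⟨fun z => r z * u, ?_⟩
  filter_upwards [hr] with z hz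
  refine ⟨?_, hz.2.mul contDiffAt_const⟩
  have := hz.1.mul hu
  rwa [Matrix.mul_assoc, h0, Matrix.mul_one] at this

end ex

end Vale.Agent.P223.H441
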