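import Vale.Agent.P223.H441.Rep
import Vale.Agent.P223.H.Bridge

/-! Change of frame for the Levi-Civita connection form. -/

namespace Vale.Agent.P223.H441

open Vale.Agent.P223.H566 Vale.Agent.P223.H
open scoped ContDiff Topology Matrix

section frames
variable {n : ℕ} {G₁ G₂ β₁ β₂ : E n → Matrix (Fin n) (Fin n) ℝ} {τ : E n → E n} {y : E n}

/-- the rotation between the frames `β₁` and `β₂` (at `τ z`) -/
noncomputable def Rm (G₂ β₁ β₂ : E n → Matrix (Fin n) (Fin n) ℝ) (τ : E n → E n) (z : E n) :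
    Matrix (Fin n) (Fin n) ℝ := β₂ (τ z) * G₂ (τ z) * jac τ z * (β₁ z)ᵀ

theorem symm_of_posDef {A : Matrix (Fin n) (Fin n) ℝ} (h : A.PosDef) : Aᵀ = A := by
  have := h.isHermitian
  rwa [Matrix.IsHermitian, Matrix.conjTranspose_eq_transpose_of_trivial] at this

theorem frame_inv {A B : Matrix (Fin n) (Fin n) ℝ} (h : B * A * Bᵀ = 1) : A * Bᵀ * B = 1 := by
  have h1 : B * (A * Bᵀ) = 1 := by rw [← Matrix.mul_assoc]; exact h
  exact mul_eq_one_comm.1 h1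

theorem frame_inv' {A B : Matrix (Fin n) (Fin n) ℝ} (hA : Aᵀ = A) (h : B * A * Bᵀ = 1) :
    Bᵀ * B * A = 1 := by
  have h1 := congrArg Matrix.transpose (frame_inv h)
  rw [Matrix.transpose_mul, Matrix.transpose_mul, Matrix.transpose_transpose, hA,
    Matrix.transpose_one, ← Matrix.mul_assoc] at h1
  exact h1

theorem Rm_mul (hG₂ : ∀ z, (G₂ z).PosDef) (h2 : ∀ z, β₂ z * G₂ z * (β₂ z)ᵀ = 1) (z : E n) :
    (Rm G₂ β₁ β₂ τ z)ᵀ * β₂ (τ z) = β₁ z * (jac τ z)ᵀ := by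
  unfold Rm
  rw [Matrix.transpose_mul, Matrix.transpose_mul, Matrix.transpose_mul, Matrix.transpose_transpose,
    symm_of_posDef (hG₂ _)]
  have := frame_inv (h2 (τ z))
  simp only [Matrix.mul_assoc] at this ⊢
  rw [this, Matrix.mul_one]

theorem Rm_orth (hG₂ : ∀ z, (G₂ z).PosDef) (h1 : ∀ z, β₁ z * G₁ z * (β₁ z)ᵀ = 1)
    (h2 : ∀ z, β₂ z * G₂ z * (β₂ z)ᵀ = 1) {z : E n}
    (hc : G₁ z = (jac τ z)ᵀ * G₂ (τ z) * jac τ z) :
    (Rm G₂ β₁ β₂ τ z)ᵀ * Rm G₂ β₁ β₂ τ z = 1 := by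
  have e := Rm_mul (β₁ := β₁) (τ := τ) hG₂ h2 z
  have e2 := h1 z
  rw [hc] at e2
  calc (Rm G₂ β₁ β₂ τ z)ᵀ * Rm G₂ β₁ β₂ τ z
      = (Rm G₂ β₁ β₂ τ z)ᵀ * (β₂ (τ z) * G₂ (τ z) * jac τ z * (β₁ z)ᵀ) := rfl
    _ = ((Rm G₂ β₁ β₂ τ z)ᵀ * β₂ (τ z)) * G₂ (τ z) * jac τ z * (β₁ z)ᵀ := by
        simp only [Matrix.mul_assoc]
    _ = 1 := by
        rw [e, ← e2]
        simp only [Matrix.mul_assoc]

theorem Rm_orth' (hG₂ : ∀ z, (G₂ z).PosDef) (h1 : ∀ z, β₁ z * G₁ z * (β₁ z)ᵀ = 1)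
    (h2 : ∀ z, β₂ z * G₂ z * (β₂ z)ᵀ = 1) {z : E n}
    (hc : G₁ z = (jac τ z)ᵀ * G₂ (τ z) * jac τ z) :
    Rm G₂ β₁ β₂ τ z * (Rm G₂ β₁ β₂ τ z)ᵀ = 1 :=
  mul_eq_one_comm.1 (Rm_orth hG₂ h1 h2 hc)

/-- the covariant derivative of the frame vector `b` -/
noncomputable def Nb (G β : E n → Matrix (Fin n) (Fin n) ℝ) (y : E n) (k b m : Fin n) : ℝ :=
  pd k (fun z => β z b m) y + ∑ l, chr G y m k l * β y b l

theorem om_eq (G β : E n → Matrix (Fin n) (Fin n) ℝ) (y : E n) (k a b : Fin n) :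
    H566.om G β y k a b = ∑ m, (β y * G y) a m * Nb G β y k b m := by
  unfold H566.om Nb
  refine Finset.sum_congr rfl fun m _ => ?_
  rw [Matrix.mul_apply]
  rfl

theorem Nb_trans (hG₁ : IsMetricOn Set.univ G₁) (hG₂ : IsMetricOn Set.univ G₂)
    (hτ : ContDiffAt ℝ ∞ τ y)
    (hc : ∀ᶠ z in 𝓝 y, G₁ z = (jac τ z)ᵀ * G₂ (τ z) * jac τ z)
    (s1 : ∀ a k, ContDiff ℝ ∞ fun z => β₁ z a k) (s2 : ∀ a k, ContDiff ℝ ∞ fun z => β₂ z a k)
    (R : E n → Matrix (Fin n) (Fin n) ℝ) (hR : ∀ a b, ContDiffAt ℝ ∞ (fun z => R z a b) y)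
    (hRm : ∀ z, (R z)ᵀ * β₂ (τ z) = β₁ z * (jac τ z)ᵀ) (k b m : Fin n) :
    ∑ r, jac τ y m r * Nb G₁ β₁ y k b r =
      ∑ c, β₂ (τ y) c m * pd k (fun z => R z c b) y +
        ∑ l, jac τ y l k * ∑ c, Nb G₂ β₂ (τ y) l c m * R y c b := by
  have e1 : ∀ z (b m : Fin n), ∑ r, jac τ z m r * β₁ z b r = ∑ c, β₂ (τ z) c m * R z c b := by
    intro z b m
    have h := congrFun (congrFun (hRm z) b) m
    rw [Matrix.mul_apply, Matrix.mul_apply] at h
    simp only [Matrix.transpose_apply] at h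
    rw [← Finset.sum_congr rfl fun c _ => mul_comm (R z c b) (β₂ (τ z) c m), h]
    exact Finset.sum_congr rfl fun r _ => mul_comm _ _
  have sb1 : ∀ b r, Sm (fun z => β₁ z b r) y := fun b r => (s1 b r).contDiffAt
  have sb2 : ∀ c m, Sm (fun z => β₂ (τ z) c m) y := fun c m =>
    sm_comp (h := fun w => β₂ w c m) hτ (s2 c m).contDiffAt
  have e2 : ∑ r, (hes τ y m k r * β₁ y b r + jac τ y m r * pd k (fun z => β₁ z b r) y) =
      ∑ c, ((∑ l, pd l (fun w => β₂ w c m) (τ y) * jac τ y l k) * R y c b +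
        β₂ (τ y) c m * pd k (fun z => R z c b) y) := by
    have h1 : P223.pd k (fun z => ∑ r, jac τ z m r * β₁ z b r) y =
        P223.pd k (fun z => ∑ c, β₂ (τ z) c m * R z c b) y := by
      rw [show (fun z => ∑ r, jac τ z m r * β₁ z b r) = fun z => ∑ c, β₂ (τ z) c m * R z c b from
        funext fun z => e1 z b m]
    rw [P223.pd_sum fun r _ => (sm_jac hτ m r).mul (sb1 b r),
      P223.pd_sum fun c _ => (sb2 c m).mul (hR c b)] at h1
    have h2 : ∀ r, P223.pd k (fun z => jac τ z m r * β₁ z b r) y =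
        hes τ y m k r * β₁ y b r + jac τ y m r * pd k (fun z => β₁ z b r) y := by
      intro r
      rw [P223.pd_mul (sm_jac hτ m r) (sb1 b r)]
      rfl
    have h3 : ∀ c, P223.pd k (fun z => β₂ (τ z) c m * R z c b) y =
        (∑ l, pd l (fun w => β₂ w c m) (τ y) * jac τ y l k) * R y c b +
        β₂ (τ y) c m * pd k (fun z => R z c b) y := by
      intro c
      rw [P223.pd_mul (sb2 c m) (hR c b),
        P223.pd_comp (h := fun w => β₂ w c m) hτ ((s2 c m).differentiable (by simp) _)]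
    simp only [h2, h3] at h1
    exact h1
  have e3 : ∀ l, (∑ r, jac τ y m r * chr G₁ y r k l) =
      (∑ e, ∑ f, jac τ y e k * jac τ y f l * chr G₂ (τ y) m e f) + hes τ y m k l := fun l =>
    christoffel_trans hG₁ trivial hG₂ isOpen_univ trivial hτ hc m k l
  have e4 : ∑ r, jac τ y m r * Nb G₁ β₁ y k b r =
      ∑ r, jac τ y m r * pd k (fun z => β₁ z b r) y +
        ∑ l, (∑ r, jac τ y m r * chr G₁ y r k l) * β₁ y b l := by
    simp only [Nb, mul_add, Finset.sum_add_distrib, Finset.mul_sum, Finset.sum_mul]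
    congr 1
    rw [Finset.sum_comm]
    exact Finset.sum_congr rfl fun _ _ => Finset.sum_congr rfl fun _ _ => by ring
  rw [e4]
  simp only [e3, add_mul, Finset.sum_add_distrib]
  simp only [Finset.sum_add_distrib] at e2
  have e5 : ∑ l, (∑ e, ∑ f, jac τ y e k * jac τ y f l * chr G₂ (τ y) m e f) * β₁ y b l =
      ∑ e, jac τ y e k * ∑ c, (∑ f, chr G₂ (τ y) m e f * β₂ (τ y) c f) * R y c b := by
    have h1 : ∀ f, ∑ c, β₂ (τ y) c f * R y c b = ∑ l, jac τ y f l * β₁ y b l := fun f =>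
      (e1 y b f).symm
    have h2 : ∀ e, ∑ c, (∑ f, chr G₂ (τ y) m e f * β₂ (τ y) c f) * R y c b =
        ∑ f, chr G₂ (τ y) m e f * ∑ l, jac τ y f l * β₁ y b l := by
      intro e
      simp only [← h1, Finset.mul_sum, Finset.sum_mul]
      rw [Finset.sum_comm]
      exact Finset.sum_congr rfl fun _ _ => Finset.sum_congr rfl fun _ _ => by ring
    rw [Finset.sum_congr rfl fun e _ => congrArg (jac τ y e k * ·) (h2 e)]
    simp only [Finset.mul_sum, Finset.sum_mul]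
    rw [Finset.sum_comm]
    refine Finset.sum_congr rfl fun e _ => ?_
    rw [Finset.sum_comm]
    exact Finset.sum_congr rfl fun _ _ => Finset.sum_congr rfl fun _ _ => by ring
  rw [e5]
  have e6 : ∑ l, jac τ y l k * ∑ c, Nb G₂ β₂ (τ y) l c m * R y c b =
      ∑ c, (∑ l, pd l (fun w => β₂ w c m) (τ y) * jac τ y l k) * R y c b +
      ∑ e, jac τ y e k * ∑ c, (∑ f, chr G₂ (τ y) m e f * β₂ (τ y) c f) * R y c b := by
    simp only [Nb, add_mul, Finset.sum_add_distrib, mul_add]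
    congr 1
    simp only [Finset.mul_sum, Finset.sum_mul]
    rw [Finset.sum_comm]
    exact Finset.sum_congr rfl fun _ _ => Finset.sum_congr rfl fun _ _ => by ring
  rw [e6]
  linarith

theorem om_trans (hG₁ : IsMetricOn Set.univ G₁) (hG₂ : IsMetricOn Set.univ G₂)
    (hτ : ContDiffAt ℝ ∞ τ y)
    (hc : ∀ᶠ z in 𝓝 y, G₁ z = (jac τ z)ᵀ * G₂ (τ z) * jac τ z)
    (s1 : ∀ a k, ContDiff ℝ ∞ fun z => β₁ z a k) (s2 : ∀ a k, ContDiff ℝ ∞ fun z => β₂ z a k)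
    (h2 : ∀ z, β₂ z * G₂ z * (β₂ z)ᵀ = 1)
    (R : E n → Matrix (Fin n) (Fin n) ℝ) (hR : ∀ a b, ContDiffAt ℝ ∞ (fun z => R z a b) y)
    (hRm : ∀ z, (R z)ᵀ * β₂ (τ z) = β₁ z * (jac τ z)ᵀ) (k a b : Fin n) :
    H566.om G₁ β₁ y k a b = ∑ d, R y d a * pd k (fun z => R z d b) y +
      ∑ l, jac τ y l k * ∑ d, ∑ c, R y d a * H566.om G₂ β₂ (τ y) l d c * R y c b := by
  have e0 : β₁ y * G₁ y = (R y)ᵀ * (β₂ (τ y) * G₂ (τ y)) * jac τ y := by
    rw [hc.self_of_nhds, ← Matrix.mul_assoc, ← Matrix.mul_assoc, ← hRm, Matrix.mul_assoc (R y)ᵀ]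
  have e1 : ∀ r, (β₁ y * G₁ y) a r = ∑ m, ∑ d, R y d a * (β₂ (τ y) * G₂ (τ y)) d m * jac τ y m r := by
    intro r
    rw [e0, Matrix.mul_apply]
    refine Finset.sum_congr rfl fun m _ => ?_
    rw [Matrix.mul_apply, Finset.sum_mul]
    rfl
  rw [om_eq]
  simp only [e1, Finset.sum_mul]
  have e2 : ∑ r, ∑ m, ∑ d, R y d a * (β₂ (τ y) * G₂ (τ y)) d m * jac τ y m r * Nb G₁ β₁ y k b r =
      ∑ d, R y d a * ∑ m, (β₂ (τ y) * G₂ (τ y)) d m * ∑ r, jac τ y m r * Nb G₁ β₁ y k b r := by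
    simp only [Finset.mul_sum]
    rw [Finset.sum_comm]
    rw [Finset.sum_congr rfl fun m _ => Finset.sum_comm]
    rw [Finset.sum_comm]
    exact Finset.sum_congr rfl fun _ _ => Finset.sum_congr rfl fun _ _ =>
      Finset.sum_congr rfl fun _ _ => by ring
  rw [e2]
  simp only [Nb_trans hG₁ hG₂ hτ hc s1 s2 R hR hRm]
  have e3 : ∀ d, ∑ m, (β₂ (τ y) * G₂ (τ y)) d m * ∑ c, β₂ (τ y) c m * pd k (fun z => R z c b) y =
      pd k (fun z => R z d b) y := by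
    intro d
    have h := h2 (τ y)
    have h' : ∀ c, ∑ m, (β₂ (τ y) * G₂ (τ y)) d m * β₂ (τ y) c m = if d = c then 1 else 0 := by
      intro c
      have h3 := congrFun (congrFun h d) c
      rw [Matrix.mul_apply, Matrix.one_apply] at h3
      exact h3
    simp only [Finset.mul_sum]
    rw [Finset.sum_comm]
    have h4 : ∀ c, ∑ m, (β₂ (τ y) * G₂ (τ y)) d m * (β₂ (τ y) c m * pd k (fun z => R z c b) y) =
        (if d = c then 1 else 0) * pd k (fun z => R z c b) y := by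
      intro c
      rw [← h', Finset.sum_mul]
      exact Finset.sum_congr rfl fun _ _ => by ring
    simp only [h4]
    simp
  have e4 : ∀ d, ∑ m, (β₂ (τ y) * G₂ (τ y)) d m *
      ∑ l, jac τ y l k * ∑ c, Nb G₂ β₂ (τ y) l c m * R y c b =
      ∑ l, jac τ y l k * ∑ c, H566.om G₂ β₂ (τ y) l d c * R y c b := by
    intro d
    simp only [om_eq, Finset.mul_sum, Finset.sum_mul]
    rw [Finset.sum_comm]
    refine Finset.sum_congr rfl fun l _ => ?_
    rw [Finset.sum_comm]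
    exact Finset.sum_congr rfl fun _ _ => Finset.sum_congr rfl fun _ _ => by ring
  simp only [mul_add, Finset.sum_add_distrib, e3, e4]
  congr 1
  simp only [Finset.mul_sum]
  rw [Finset.sum_comm]
  exact Finset.sum_congr rfl fun _ _ => Finset.sum_congr rfl fun _ _ =>
      Finset.sum_congr rfl fun _ _ => by ring

end frames

end Vale.Agent.P223.H441
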