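import Vale.Agent.P223.H441.SpinDef
import Vale.Agent.P223.H850.Sqrt

/-! Parallelizable manifolds are spin. -/

namespace Vale.Agent.P223.H441.Par

open scoped ContDiff Topology Matrix
open Matrix

variable {n : ℕ}

section mat

theorem cd_det {F : Type} [NormedAddCommGroup F] [NormedSpace ℝ F] {G : F → Matrix (Fin n) (Fin n) ℝ}
    {x : F} (hG : ∀ i j, ContDiffAt ℝ ∞ (fun x => G x i j) x) :
    ContDiffAt ℝ ∞ (fun x => (G x).det) x := by
  simp only [Matrix.det_apply']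
  exact ContDiffAt.sum fun s _ => contDiffAt_const.mul (contDiffAt_prod fun i _ => hG _ _)

theorem cd_inv {F : Type} [NormedAddCommGroup F] [NormedSpace ℝ F] {G : F → Matrix (Fin n) (Fin n) ℝ}
    {x : F} (hG : ∀ i j, ContDiffAt ℝ ∞ (fun x => G x i j) x) (h0 : (G x).det ≠ 0)
    (i j : Fin n) : ContDiffAt ℝ ∞ (fun x => (G x)⁻¹ i j) x := by
  have h : (fun x => (G x)⁻¹ i j) =
      fun x => ((G x).det)⁻¹ * ((G x).updateRow j (Pi.single i 1)).det := by
    funext p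
    rw [Matrix.inv_def, Ring.inverse_eq_inv', Matrix.smul_apply, Matrix.adjugate_apply, smul_eq_mul]
  rw [h]
  refine ((cd_det hG).inv h0).mul (cd_det fun k l => ?_)
  by_cases hk : k = j
  · subst hk
    simp only [Matrix.updateRow_self]
    exact contDiffAt_const
  · simp only [Matrix.updateRow_ne hk]
    exact hG k l

theorem cd_mul {F : Type} [NormedAddCommGroup F] [NormedSpace ℝ F]
    {A B : F → Matrix (Fin n) (Fin n) ℝ} {x : F} (hA : ∀ i j, ContDiffAt ℝ ∞ (fun x => A x i j) x)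
    (hB : ∀ i j, ContDiffAt ℝ ∞ (fun x => B x i j) x) (i j : Fin n) :
    ContDiffAt ℝ ∞ (fun x => (A x * B x) i j) x := by
  simp only [Matrix.mul_apply]
  exact ContDiffAt.sum fun k _ => (hA i k).mul (hB k j)

/-- Jacobian matrix -/
noncomputable def jm (τ : J.E n → J.E n) (z : J.E n) : Matrix (Fin n) (Fin n) ℝ :=
  LinearMap.toMatrix' (fderiv ℝ τ z : J.E n →ₗ[ℝ] J.E n)

theorem jm_apply (τ : J.E n → J.E n) (z : J.E n) (i j : Fin n) :
    jm τ z i j = fderiv ℝ τ z (Pi.single j 1) i := by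
  rw [jm, LinearMap.toMatrix'_apply]
  rfl

theorem jm_mulVec (τ : J.E n → J.E n) (z v : J.E n) : jm τ z *ᵥ v = fderiv ℝ τ z v := by
  rw [jm, ← Matrix.toLin'_apply, Matrix.toLin'_toMatrix']
  rfl

theorem det_jm (τ : J.E n → J.E n) (z : J.E n) : (jm τ z).det = (fderiv ℝ τ z).det :=
  LinearMap.det_toMatrix' _

theorem jm_comp {σ τ : J.E n → J.E n} {z : J.E n} (hσ : DifferentiableAt ℝ σ (τ z))
    (hτ : DifferentiableAt ℝ τ z) : jm (fun x => σ (τ x)) z = jm σ (τ z) * jm τ z := by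
  have h1 : fderiv ℝ (fun x => σ (τ x)) z = (fderiv ℝ σ (τ z)).comp (fderiv ℝ τ z) :=
    fderiv_comp z hσ hτ
  unfold jm
  rw [h1, ← LinearMap.toMatrix'_comp]
  rfl

theorem jm_smooth {τ : J.E n → J.E n} {z : J.E n} (h : ContDiffAt ℝ ∞ τ z) (i j : Fin n) :
    ContDiffAt ℝ ∞ (fun x => jm τ x i j) z := by
  simp only [jm_apply]
  have h1 : ContDiffAt ℝ ∞ (fun x => fderiv ℝ τ x (Pi.single j 1)) z :=
    (h.fderiv_right (m := ∞) le_rfl).clm_apply contDiffAt_const
  exact contDiffAt_pi.1 h1 i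

theorem jm_congr {τ σ : J.E n → J.E n} {z : J.E n} (h : τ =ᶠ[𝓝 z] σ) : jm τ z = jm σ z := by
  unfold jm
  rw [h.fderiv_eq]

theorem bil_eq (A : Matrix (Fin n) (Fin n) ℝ) (v w : J.E n) : J.bil A v w = v ⬝ᵥ A *ᵥ w := by
  simp only [J.bil, dotProduct, Matrix.mulVec, Finset.mul_sum]
  exact Finset.sum_congr rfl fun i _ => Finset.sum_congr rfl fun j _ => by ring

theorem ext_bil {A B : Matrix (Fin n) (Fin n) ℝ} (h : ∀ v w : J.E n, J.bil A v w = J.bil B v w) :
    A = B := by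
  ext i j
  have := h (Pi.single i 1) (Pi.single j 1)
  rw [bil_eq, bil_eq] at this
  simpa using this

end mat

section fr
variable {P G Q : Matrix (Fin n) (Fin n) ℝ}

/-- the dual metric in the coframe -/
noncomputable def hh (P G : Matrix (Fin n) (Fin n) ℝ) : Matrix (Fin n) (Fin n) ℝ := P * G⁻¹ * Pᵀ

/-- the orthonormal frame -/
noncomputable def bb (P G : Matrix (Fin n) (Fin n) ℝ) : Matrix (Fin n) (Fin n) ℝ :=
  Vale.Agent.P223.H850.rt (hh P G)⁻¹ * P * G⁻¹

theorem hh_pos (hG : G.PosDef) (hP : P.det ≠ 0) : (hh P G).PosDef := by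
  have h2 : Function.Injective P.vecMul := by
    intro v w hvw
    have hu : IsUnit P.det := hP.isUnit
    have h3 : (v ᵥ* P) ᵥ* P⁻¹ = (w ᵥ* P) ᵥ* P⁻¹ := by
      rw [show v ᵥ* P = w ᵥ* P from hvw]
    rwa [Matrix.vecMul_vecMul, Matrix.vecMul_vecMul, Matrix.mul_nonsing_inv _ hu,
      Matrix.vecMul_one, Matrix.vecMul_one] at h3
  have h3 := hG.inv.mul_mul_conjTranspose_same h2
  rwa [Matrix.conjTranspose_eq_transpose_of_trivial] at h3

theorem bb_det (hG : G.PosDef) (hP : 0 < P.det) : 0 < (bb P G).det := by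
  unfold bb
  rw [Matrix.det_mul, Matrix.det_mul]
  exact mul_pos (mul_pos (Vale.Agent.P223.H850.rt_posDef (hh_pos hG hP.ne').inv).det_pos hP)
    hG.inv.det_pos

theorem bb_orth (hG : G.PosDef) (hP : P.det ≠ 0) : bb P G * G * (bb P G)ᵀ = 1 := by
  have hu : IsUnit G.det := hG.det_pos.ne'.isUnit
  have hGt : Gᵀ = G := by
    have := hG.isHermitian
    rwa [Matrix.IsHermitian, Matrix.conjTranspose_eq_transpose_of_trivial] at this
  have hH := hh_pos hG hP
  have h1 := Vale.Agent.P223.H850.rt_symm hH.inv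
  have h2 := Vale.Agent.P223.H850.rt_mul hH.inv
  have hHu : IsUnit (hh P G).det := hH.det_pos.ne'.isUnit
  set R := Vale.Agent.P223.H850.rt (hh P G)⁻¹ with hR
  have h3 : bb P G * G = R * P := by
    unfold bb
    rw [Matrix.mul_assoc, Matrix.nonsing_inv_mul _ hu, Matrix.mul_one]
  have h4 : (bb P G)ᵀ = G⁻¹ * (Pᵀ * R) := by
    unfold bb
    rw [Matrix.transpose_mul, Matrix.transpose_mul, Matrix.transpose_nonsing_inv, hGt, ← hR, h1]
  rw [h3, h4]
  have h5 : R * P * (G⁻¹ * (Pᵀ * R)) = R * hh P G * R := by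
    simp only [hh, Matrix.mul_assoc]
  rw [h5]
  have h7 : R * (R * hh P G) = 1 := by
    rw [← Matrix.mul_assoc, h2, Matrix.nonsing_inv_mul _ hHu]
  exact mul_eq_one_comm.1 h7

theorem hh_tr (hQ : Q.det ≠ 0) : hh (P * Q) (Qᵀ * G * Q) = hh P G := by
  have hu : IsUnit Q.det := hQ.isUnit
  have hut : IsUnit Qᵀ.det := by rwa [Matrix.det_transpose]
  unfold hh
  rw [Matrix.mul_inv_rev, Matrix.mul_inv_rev, Matrix.transpose_mul]
  have e1 : P * Q * (Q⁻¹ * (G⁻¹ * Qᵀ⁻¹)) * (Qᵀ * Pᵀ) =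
      P * (Q * Q⁻¹) * G⁻¹ * (Qᵀ⁻¹ * Qᵀ) * Pᵀ := by simp only [Matrix.mul_assoc]
  rw [e1, Matrix.mul_nonsing_inv _ hu, Matrix.nonsing_inv_mul _ hut, Matrix.mul_one,
    Matrix.mul_one]

theorem bb_tr (hQ : Q.det ≠ 0) : bb P G = bb (P * Q) (Qᵀ * G * Q) * Qᵀ := by
  have hu : IsUnit Q.det := hQ.isUnit
  have hut : IsUnit Qᵀ.det := by rwa [Matrix.det_transpose]
  unfold bb
  rw [hh_tr hQ, Matrix.mul_inv_rev, Matrix.mul_inv_rev]
  set R := Vale.Agent.P223.H850.rt (hh P G)⁻¹ with hR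
  have e1 : R * (P * Q) * (Q⁻¹ * (G⁻¹ * Qᵀ⁻¹)) * Qᵀ =
      R * P * (Q * Q⁻¹) * G⁻¹ * (Qᵀ⁻¹ * Qᵀ) := by simp only [Matrix.mul_assoc]
  rw [e1, Matrix.mul_nonsing_inv _ hu, Matrix.nonsing_inv_mul _ hut, Matrix.mul_one,
    Matrix.mul_one]

end fr

section man
variable {X : Type} [TopologicalSpace X] {c : X → J.Ch n X} {g : X → J.Mtx n}

theorem g_tr (hg : J.Met c g) {a b p : X} (ha : p ∈ (c a).source) (hb : p ∈ (c b).source) :
    g a (c a p) = (jm (J.cm (c a) (c b)) (c a p))ᵀ * g b (c b p) *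
      jm (J.cm (c a) (c b)) (c a p) := by
  refine ext_bil fun v w => ?_
  rw [(hg a p ha).2.2 b hb v w, bil_eq, bil_eq, ← jm_mulVec, ← jm_mulVec]
  rw [← Matrix.mulVec_mulVec, ← Matrix.mulVec_mulVec, Matrix.dotProduct_mulVec v,
    Matrix.vecMul_transpose]

/-- A coframe gives a spin structure. -/
theorem spinStr_of_coframe (hg : J.Met c g) (P : X → J.Mtx n)
    (hs : ∀ a, ∀ p ∈ (c a).source, ∀ k l, ContDiffAt ℝ ∞ (fun x => P a x k l) (c a p))
    (ht : ∀ a b p, p ∈ (c a).source → p ∈ (c b).source →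
      P a (c a p) = P b (c b p) * jm (J.cm (c a) (c b)) (c a p))
    (hJ : ∀ a b p, p ∈ (c a).source → p ∈ (c b).source →
      (jm (J.cm (c a) (c b)) (c a p)).det ≠ 0)
    (hd : ∀ a, ∀ p ∈ (c a).source, 0 < (P a (c a p)).det) : Nonempty (J.SpinStr c g) := by
  have hHs : ∀ a, ∀ p ∈ (c a).source, ∀ k l,
      ContDiffAt ℝ ∞ (fun x => hh (P a x) (g a x) k l) (c a p) := by
    intro a p hp
    exact cd_mul (cd_mul (hs a p hp) (cd_inv (hg a p hp).1 (hg a p hp).2.1.det_pos.ne'))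
      fun k l => hs a p hp l k
  have hRs : ∀ a, ∀ p ∈ (c a).source, ∀ k l, ContDiffAt ℝ ∞ (fun x =>
      Vale.Agent.P223.H850.rt (hh (P a x) (g a x))⁻¹ k l) (c a p) := by
    intro a p hp k l
    refine Vale.Agent.P223.H850.contDiffAt_rt (P := fun x => (hh (P a x) (g a x))⁻¹)
      (cd_inv (hHs a p hp) (hh_pos (hg a p hp).2.1 (hd a p hp).ne').det_pos.ne') ?_ k l
    filter_upwards [(c a).open_target.mem_nhds ((c a).map_source hp)] with x hx
    have hq := (c a).map_target hx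
    have h1 := hh_pos (hg a _ hq).2.1 (hd a _ hq).ne'
    rw [(c a).right_inv hx] at h1
    exact h1.inv
  have hβt : ∀ a b p, p ∈ (c a).source → p ∈ (c b).source → bb (P b (c b p)) (g b (c b p)) =
      bb (P a (c a p)) (g a (c a p)) * (jm (J.cm (c a) (c b)) (c a p))ᵀ := by
    intro a b p ha hb
    rw [ht a b p ha hb, g_tr hg ha hb]
    exact bb_tr (hJ a b p ha hb)
  refine ⟨⟨fun a x => bb (P a x) (g a x), fun _ _ _ => 1, ?_, ?_, fun a b p _ _ => one_mem _,
    fun a b p _ _ f => contDiffAt_const, ?_, fun a b d p _ _ _ => one_mul 1⟩⟩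
  · intro a p hp k l
    exact cd_mul (cd_mul (hRs a p hp) (hs a p hp))
      (cd_inv (hg a p hp).1 (hg a p hp).2.1.det_pos.ne') k l
  · intro a p hp
    refine ⟨bb_det (hg a p hp).2.1 (hd a p hp), fun k l => ?_⟩
    have h1 := congrFun (congrFun (bb_orth (hg a p hp).2.1 (hd a p hp).ne') k) l
    rw [Matrix.one_apply] at h1
    rw [← h1, bil_eq]
    rw [Matrix.mul_apply]
    simp only [dotProduct, Matrix.mulVec, Matrix.transpose_apply, Matrix.mul_apply, Finset.sum_mul,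
      Finset.mul_sum]
    rw [Finset.sum_comm]
    exact Finset.sum_congr rfl fun i _ => Finset.sum_congr rfl fun j _ => by ring
  · intro a b p ha hb v w hvw
    unfold J.Inter
    rw [one_mul, mul_one]
    congr 1
    unfold J.FrEq at hvw
    have e1 : ∀ (A : Matrix (Fin n) (Fin n) ℝ) (u : J.E n), ∑ k, u k • A k = Aᵀ *ᵥ u := by
      intro A u
      ext i
      simp only [Finset.sum_apply, Pi.smul_apply, smul_eq_mul, Matrix.mulVec, dotProduct,
        Matrix.transpose_apply]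
      exact Finset.sum_congr rfl fun k _ => mul_comm _ _
    rw [e1, e1, ← jm_mulVec, Matrix.mulVec_mulVec] at hvw
    dsimp only at hvw
    rw [hβt a b p ha hb, Matrix.transpose_mul, Matrix.transpose_transpose] at hvw
    set T := jm (J.cm (c a) (c b)) (c a p) * (bb (P a (c a p)) (g a (c a p)))ᵀ with hT
    have hu : IsUnit T.det := by
      rw [hT, Matrix.det_mul, Matrix.det_transpose]
      exact (mul_ne_zero (hJ a b p ha hb) (bb_det (hg a p ha).2.1 (hd a p ha)).ne').isUnit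
    have h3 := congrArg (fun u => T⁻¹ *ᵥ u) hvw
    simp only [Matrix.mulVec_mulVec, Matrix.nonsing_inv_mul _ hu, Matrix.one_mulVec] at h3
    exact h3

end man

end Vale.Agent.P223.H441.Par
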