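import Vale.Agent.P223.H441.Par2
import Vale.Agent.P223.H441.Fin
import Vale.Agent.P223.H691.UY

/-! Metrics without conjugate points: the universal covering is spin. -/

namespace Vale.Agent.P223.H441

open Vale.Agent.P223.X

/-- Block T7c. -/
theorem covSpin_of_noConj {n : ℕ} (hn : 1 ≤ n) {M : Type} [TopologicalSpace M]
    [CompactSpace M] [T2Space M] [ConnectedSpace M] {c : M → J.Ch n M} (hc : J.Atl c)
    {g : M → J.Mtx n} (hg : J.Met c g) (h : J.NoConj c g) : J.CovSpin c g := by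
  obtain ⟨d⟩ := FinalM.exists_data Vale.Agent.P223.X.hu hn c hc
  obtain ⟨c', hf⟩ := H691.UY.exists_covAtl hc d.C
  obtain ⟨x⟩ := (inferInstance : Nonempty d.X)
  exact ⟨d.X, d.tX, d.C.π, c', hf,
    Par.spinStr_of_pole (Par.atl_of_cov hc hf) (Par.met_of_cov hg hf) (h d.X _ d.C.π c' d.sc hf x)⟩

end Vale.Agent.P223.H441
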