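import Vale.Agent.P223.X.DefM
import Mathlib.LinearAlgebra.CliffordAlgebra.SpinGroup
import Mathlib.LinearAlgebra.QuadraticForm.Basic
import Mathlib.Topology.Covering.Basic

/-! Definitions for the statements: spin structures. -/

namespace Vale.Agent.P223.J

open scoped ContDiff

/-- The quadratic form `|v|²` on `ℝ^n`. -/
noncomputable def nq (n : ℕ) : QuadraticForm ℝ (Fin n → ℝ) :=
  QuadraticMap.weightedSumSquares ℝ fun _ : Fin n => (1 : ℝ)

/-- The vector `v` of `ℝ^n` as an element of the Clifford algebra. -/
noncomputable def vec {n : ℕ} (v : E n) : CliffordAlgebra (nq n) := CliffordAlgebra.ι (nq n) v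

/-- `σ v = w σ` in the Clifford algebra (if `σ` is in the spin group: `w` is the image of `v` under
the rotation given by `σ`). -/
def Inter {n : ℕ} (σ : CliffordAlgebra (nq n)) (v w : E n) : Prop := σ * vec v = vec w * σ

section
variable {n : ℕ} {M : Type} [TopologicalSpace M]

/-- The frames `β a` over the charts `c a` are smooth. -/
def FrSm (c : M → Ch n M) (β : M → Mtx n) : Prop :=
  ∀ a, ∀ p ∈ (c a).source, ∀ k l, ContDiffAt ℝ ∞ (fun x => β a x k l) (c a p)

/-- The frames `β a` over the charts `c a` are oriented and orthonormal (the vector `k` of the frame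
is the row `k` of `β a`). -/
def FrOn (c : M → Ch n M) (g β : M → Mtx n) : Prop :=
  ∀ a, ∀ p ∈ (c a).source, 0 < (β a (c a p)).det ∧
    ∀ k l, bil (g a (c a p)) (β a (c a p) k) (β a (c a p) l) = if k = l then 1 else 0

/-- `v` and `w` are the coordinates of the same tangent vector at `p` in the frames over the charts
`c a` and `c b`. -/
def FrEq (c : M → Ch n M) (β : M → Mtx n) (a b p : M) (v w : E n) : Prop :=
  fderiv ℝ (cm (c a) (c b)) (c a p) (∑ k, v k • β a (c a p) k) = ∑ k, w k • β b (c b p) k

/-- `s a b` has values in the spin group on the intersection of the charts `c a` and `c b`. -/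
def SpMem (c : M → Ch n M) (s : M → M → M → CliffordAlgebra (nq n)) : Prop :=
  ∀ a b, ∀ p ∈ (c a).source, p ∈ (c b).source → s a b p ∈ spinGroup (nq n)

/-- `s a b` is smooth on the intersection of the charts `c a` and `c b`. -/
def SpSm (c : M → Ch n M) (s : M → M → M → CliffordAlgebra (nq n)) : Prop :=
  ∀ a b, ∀ p ∈ (c a).source, p ∈ (c b).source → ∀ f : CliffordAlgebra (nq n) →ₗ[ℝ] ℝ,
    ContDiffAt ℝ ∞ (fun x => f (s a b ((c a).symm x))) (c a p)

/-- `s a b` lifts the transition function of the frames over the charts `c a` and `c b`. -/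
def SpLift (c : M → Ch n M) (β : M → Mtx n) (s : M → M → M → CliffordAlgebra (nq n)) : Prop :=
  ∀ a b, ∀ p ∈ (c a).source, p ∈ (c b).source → ∀ v w : E n,
    FrEq c β a b p v w → Inter (s a b p) v w

/-- Cocycle condition. -/
def SpCoc (c : M → Ch n M) (s : M → M → M → CliffordAlgebra (nq n)) : Prop :=
  ∀ a b d, ∀ p ∈ (c a).source, p ∈ (c b).source → p ∈ (c d).source →
    s b d p * s a b p = s a d p

end

/-- A spin structure on the oriented Riemannian manifold `(M, g)`: oriented orthonormal frames `β a`
over the charts `c a` (the vector `k` of the frame is the row `k` of `β a`), and smooth functions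
`s a b` on the intersections of two charts with values in the spin group, which lift the transition
functions of the frames (`s a b v = w s a b` if `v` and `w` are the coordinates of the same tangent
vector in the two frames) and satisfy the cocycle condition. -/
structure SpinStr {n : ℕ} {M : Type} [TopologicalSpace M] (c : M → Ch n M) (g : M → Mtx n) where
  β : M → Mtx n
  s : M → M → M → CliffordAlgebra (nq n)
  smooth : FrSm c β
  frame : FrOn c g β
  mem : SpMem c s
  smooth' : SpSm c s
  lift : SpLift c β s
  coc : SpCoc c s

/-- `f : X → M` is a covering, and `c'` is the lifted atlas: in a neighbourhood of `q` the chart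
`c' q` is the composition of `f` and the chart `c (f q)`. -/
structure CovAtl {n : ℕ} {M X : Type} [TopologicalSpace M] [TopologicalSpace X] (c : M → Ch n M)
    (f : X → M) (c' : X → Ch n X) : Prop where
  cov : IsCoveringMap f
  surj : Function.Surjective f
  mem : ∀ q, q ∈ (c' q).source
  eq : ∀ q, ∀ p ∈ (c' q).source, f p ∈ (c (f q)).source ∧ c' q p = c (f q) (f p)

/-- Some covering space of `M` (for instance `M` itself, or the universal covering) is spin. -/
def CovSpin {n : ℕ} {M : Type} [TopologicalSpace M] (c : M → Ch n M) (g : M → Mtx n) : Prop :=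
  ∃ (X : Type) (_ : TopologicalSpace X) (f : X → M) (c' : X → Ch n X),
    CovAtl c f c' ∧ Nonempty (SpinStr c' fun q => g (f q))

end Vale.Agent.P223.J
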