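import Vale.Agent.P223.H441.Cl
import Vale.Agent.P223.H441.SpinDef

/-! Representation of the Clifford algebra on a Clifford module. -/

namespace Vale.Agent.P223.H441

open Vale.Agent.P223.H566 Vale.Agent.P223.H
open scoped InnerProductSpace

section rep
variable {n : ℕ} {V : Type} [NormedAddCommGroup V] [InnerProductSpace ℂ V] (K : Cliff n V)

theorem rs_eq (r : ℝ) (A : V →L[ℂ] V) : rs r A = r • A := rfl

theorem nq_apply (v : E n) : J.nq n v = ∑ a, v a * v a := by
  unfold J.nq
  rw [QuadraticMap.weightedSumSquares_apply]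
  simp

/-- Clifford multiplication by a vector -/
noncomputable def cv : E n →ₗ[ℝ] (V →L[ℂ] V) where
  toFun v := ∑ a, v a • K.c a
  map_add' v w := by simp only [Pi.add_apply, add_smul, Finset.sum_add_distrib]
  map_smul' r v := by
    simp only [Pi.smul_apply, smul_eq_mul, mul_smul, Finset.smul_sum, RingHom.id_apply]

theorem cv_apply (v : E n) : cv K v = ∑ a, v a • K.c a := rfl

theorem cv_single (a : Fin n) : cv K (Pi.single a 1) = K.c a := by
  rw [cv_apply, Finset.sum_eq_single a]
  · simp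
  · intro b _ hb; simp [hb]
  · intro h; exact absurd (Finset.mem_univ _) h

theorem cv_sq (v : E n) : cv K v * cv K v = algebraMap ℝ (V →L[ℂ] V) (J.nq n v) := by
  have h1 : (2 : ℝ) • (cv K v * cv K v) = (2 : ℝ) • algebraMap ℝ (V →L[ℂ] V) (J.nq n v) := by
    rw [two_smul, cv_apply, Finset.sum_mul_sum]
    nth_rewrite 2 [Finset.sum_comm]
    rw [← Finset.sum_add_distrib, nq_apply, Algebra.algebraMap_eq_smul_one, smul_smul,
      Finset.mul_sum, Finset.sum_smul]
    refine Finset.sum_congr rfl fun a _ => ?_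
    rw [← Finset.sum_add_distrib, Finset.sum_eq_single a]
    · rw [smul_mul_smul_comm, sq, ← add_smul]
      congr 1
      ring
    · intro b _ hb
      rw [smul_mul_smul_comm, smul_mul_smul_comm, mul_comm (v b), ← smul_add,
        anti K (Ne.symm hb), neg_add_cancel, smul_zero]
    · intro h; exact absurd (Finset.mem_univ _) h
  exact smul_right_injective _ (two_ne_zero : (2 : ℝ) ≠ 0) h1

/-- the representation -/
noncomputable def rep : CliffordAlgebra (J.nq n) →ₐ[ℝ] (V →L[ℂ] V) :=
  CliffordAlgebra.lift (J.nq n) ⟨cv K, cv_sq K⟩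

theorem rep_ι (v : E n) : rep K (CliffordAlgebra.ι (J.nq n) v) = cv K v := by
  unfold rep; rw [CliffordAlgebra.lift_ι_apply]

theorem cv_symm (v : E n) (u w : V) : ⟪cv K v u, w⟫_ℂ = ⟪u, cv K v w⟫_ℂ := by
  rw [cv_apply, sum_apply, sum_apply, sum_inner, inner_sum]
  refine Finset.sum_congr rfl fun a _ => ?_
  rw [← rs_eq]
  change ⟪(v a : ℂ) • K.c a u, w⟫_ℂ = ⟪u, (v a : ℂ) • K.c a w⟫_ℂ
  rw [inner_smul_left, inner_smul_right, K.symm, Complex.conj_ofReal]

theorem rep_adj (x : CliffordAlgebra (J.nq n)) :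
    ∀ u w : V, ⟪rep K x u, w⟫_ℂ = ⟪u, rep K (CliffordAlgebra.reverse x) w⟫_ℂ := by
  induction x using CliffordAlgebra.induction with
  | algebraMap r =>
    intro u w
    rw [CliffordAlgebra.reverse.commutes, AlgHom.commutes, Algebra.algebraMap_eq_smul_one]
    change ⟪(r : ℂ) • u, w⟫_ℂ = ⟪u, (r : ℂ) • w⟫_ℂ
    rw [inner_smul_left, inner_smul_right, Complex.conj_ofReal]
  | ι v => intro u w; rw [CliffordAlgebra.reverse_ι, rep_ι]; exact cv_symm K v u w
  | mul x y hx hy =>
    intro u w
    rw [CliffordAlgebra.reverse.map_mul, map_mul, map_mul]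
    change ⟪rep K x (rep K y u), w⟫_ℂ = ⟪u, rep K _ (rep K _ w)⟫_ℂ
    rw [hx, hy]
  | add x y hx hy =>
    intro u w
    rw [map_add, map_add, map_add]
    change ⟪rep K x u + rep K y u, w⟫_ℂ = ⟪u, rep K _ w + rep K _ w⟫_ℂ
    rw [inner_add_left, inner_add_right, hx, hy]

theorem star_spin {x : CliffordAlgebra (J.nq n)} (hx : x ∈ spinGroup (J.nq n)) :
    star x = CliffordAlgebra.reverse x := by
  rw [CliffordAlgebra.star_def, spinGroup.involute_eq hx]

theorem rep_spin_adj {x : CliffordAlgebra (J.nq n)} (hx : x ∈ spinGroup (J.nq n)) (u w : V) :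
    ⟪rep K x u, w⟫_ℂ = ⟪u, rep K (star x) w⟫_ℂ := by
  rw [rep_adj, star_spin hx]

theorem rep_spin_star_mul {x : CliffordAlgebra (J.nq n)} (hx : x ∈ spinGroup (J.nq n)) :
    rep K (star x) * rep K x = 1 := by
  rw [← map_mul, spinGroup.star_mul_self_of_mem hx, map_one]

theorem rep_spin_mul_star {x : CliffordAlgebra (J.nq n)} (hx : x ∈ spinGroup (J.nq n)) :
    rep K x * rep K (star x) = 1 := by
  rw [← map_mul, spinGroup.mul_star_self_of_mem hx, map_one]

theorem rep_unit {x : CliffordAlgebra (J.nq n)} (hx : x ∈ spinGroup (J.nq n)) (u w : V) :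
    ⟪rep K x u, rep K x w⟫_ℂ = ⟪u, w⟫_ℂ := by
  rw [rep_spin_adj K hx]
  have h : rep K (star x) (rep K x w) = w := by
    change (rep K (star x) * rep K x) w = w
    rw [rep_spin_star_mul K hx]; rfl
  rw [h]

theorem c_vol (a : Fin n) : K.c a * K.vol = (-1 : ℤ) ^ (n + 1) • (K.vol * K.c a) := by
  rw [vol_eq, c_wd, List.length_reverse, List.length_finRange, List.count_reverse,
    List.count_eq_one_of_mem (List.nodup_finRange n) (List.mem_finRange a)]

theorem cv_vol (v : E n) : cv K v * K.vol = (-1 : ℤ) ^ (n + 1) • (K.vol * cv K v) := by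
  rw [cv_apply, Finset.sum_mul, Finset.mul_sum, Finset.smul_sum]
  refine Finset.sum_congr rfl fun a _ => ?_
  rw [smul_mul_assoc, c_vol, mul_smul_comm, smul_comm]

theorem rep_vol {x : CliffordAlgebra (J.nq n)} (hx : x ∈ CliffordAlgebra.evenOdd (J.nq n) 0) :
    rep K x * K.vol = K.vol * rep K x := by
  induction x, hx using CliffordAlgebra.even_induction with
  | algebraMap r => rw [AlgHom.commutes]; exact Algebra.commutes _ _
  | add x y _ _ hx hy => rw [map_add, add_mul, mul_add, hx, hy]
  | ι_mul_ι_mul v w x _ hx =>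
    rw [map_mul, map_mul, rep_ι, rep_ι, mul_assoc, hx, ← mul_assoc, mul_assoc (cv K v), cv_vol,
      mul_smul_comm, ← mul_assoc, cv_vol, smul_mul_assoc, smul_mul_assoc, smul_mul_assoc, smul_smul,
      ← mul_pow]
    simp [mul_assoc]

end rep

section even
variable {n : ℕ} {V : Type} [NormedAddCommGroup V] [InnerProductSpace ℂ V] (K : Cliff n V)

/-- the even part -/
noncomputable def W : Submodule ℝ (V →L[ℂ] V) :=
  Submodule.span ℝ {A | ∃ L : List (Fin n), Even L.length ∧ A = wd K L}

theorem wd_mem_W {L : List (Fin n)} (h : Even L.length) : wd K L ∈ W K :=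
  Submodule.subset_span ⟨L, h, rfl⟩

theorem one_mem_W : (1 : V →L[ℂ] V) ∈ W K := by
  rw [← wd_nil K]; exact wd_mem_W K (by simp)

theorem cc_mem_W (a b : Fin n) : K.c a * K.c b ∈ W K := by
  have h : K.c a * K.c b = wd K [a, b] := by simp
  rw [h]; exact wd_mem_W K (by simp)

theorem mul_mem_W {A B : V →L[ℂ] V} (hA : A ∈ W K) (hB : B ∈ W K) : A * B ∈ W K := by
  induction hA using Submodule.span_induction with
  | mem x hx =>
    obtain ⟨L, hL, rfl⟩ := hx
    induction hB using Submodule.span_induction with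
    | mem y hy =>
      obtain ⟨L', hL', rfl⟩ := hy
      rw [← wd_append]
      exact wd_mem_W K (by rw [List.length_append]; exact hL.add hL')
    | zero => rw [mul_zero]; exact zero_mem _
    | add y z _ _ h1 h2 => rw [mul_add]; exact add_mem h1 h2
    | smul r y _ h => rw [mul_smul_comm]; exact Submodule.smul_mem _ _ h
  | zero => rw [zero_mul]; exact zero_mem _
  | add y z _ _ h1 h2 => rw [add_mul]; exact add_mem h1 h2
  | smul r y _ h => rw [smul_mul_assoc]; exact Submodule.smul_mem _ _ h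

theorem rep_mem_W {x : CliffordAlgebra (J.nq n)}
    (hx : x ∈ CliffordAlgebra.evenOdd (J.nq n) 0) : rep K x ∈ W K := by
  induction x, hx using CliffordAlgebra.even_induction with
  | algebraMap r =>
    rw [AlgHom.commutes, Algebra.algebraMap_eq_smul_one]
    exact Submodule.smul_mem _ _ (one_mem_W K)
  | add x y _ _ hx hy => rw [map_add]; exact add_mem hx hy
  | ι_mul_ι_mul v w x _ hx =>
    rw [map_mul, map_mul, rep_ι, rep_ι]
    refine mul_mem_W K ?_ hx
    rw [cv_apply, cv_apply, Finset.sum_mul_sum]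
    refine Submodule.sum_mem _ fun a _ => Submodule.sum_mem _ fun b _ => ?_
    rw [smul_mul_smul_comm]
    exact Submodule.smul_mem _ _ (cc_mem_W K a b)

/-- projection to the part which commutes with `c a`, on `W` -/
noncomputable def Qa (a : Fin n) : (V →L[ℂ] V) →ₗ[ℝ] (V →L[ℂ] V) where
  toFun z := (1 / 2 : ℝ) • (z + K.c a * z * K.c a)
  map_add' z w := by
    rw [mul_add, add_mul, ← smul_add]; congr 1; abel
  map_smul' r z := by
    rw [mul_smul_comm, smul_mul_assoc, RingHom.id_apply, ← smul_add, smul_comm]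

theorem Qa_comm {a : Fin n} {z : V →L[ℂ] V} (h : K.c a * z = z * K.c a) : Qa K a z = z := by
  change (1 / 2 : ℝ) • (z + K.c a * z * K.c a) = z
  rw [h, mul_assoc, sq, mul_one, ← two_smul ℝ z, smul_smul]
  norm_num

theorem Qa_wd {L : List (Fin n)} (hL : Even L.length) (a : Fin n) :
    Qa K a (wd K L) = if Even (L.count a) then wd K L else 0 := by
  change (1 / 2 : ℝ) • (wd K L + K.c a * wd K L * K.c a) = _
  rw [c_wd_c]
  split_ifs with h
  · rw [(hL.add h).neg_one_pow, one_smul, ← two_smul ℝ (wd K L), smul_smul]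
    norm_num
  · rw [(hL.add_odd (Nat.not_even_iff_odd.1 h)).neg_one_pow, neg_smul, one_smul, add_neg_cancel,
      smul_zero]

/-- the composition of the projections for the elements of a list -/
noncomputable def QL (S : List (Fin n)) : (V →L[ℂ] V) →ₗ[ℝ] (V →L[ℂ] V) :=
  (S.map (Qa K)).foldr (fun f g => f ∘ₗ g) LinearMap.id

theorem QL_cons (a : Fin n) (S : List (Fin n)) (z : V →L[ℂ] V) :
    QL K (a :: S) z = Qa K a (QL K S z) := rfl

theorem QL_comm {z : V →L[ℂ] V} (h : ∀ a, K.c a * z = z * K.c a) (S : List (Fin n)) :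
    QL K S z = z := by
  induction S with
  | nil => rfl
  | cons a S ih => rw [QL_cons, ih, Qa_comm K (h a)]

theorem QL_wd {L : List (Fin n)} (hL : Even L.length) (S : List (Fin n)) :
    QL K S (wd K L) = if ∀ a ∈ S, Even (L.count a) then wd K L else 0 := by
  induction S with
  | nil => simp [QL]
  | cons a S ih =>
    rw [QL_cons, ih]
    by_cases h : ∀ a ∈ S, Even (L.count a)
    · rw [if_pos h, Qa_wd K hL]
      by_cases h' : Even (L.count a)
      · rw [if_pos h', if_pos]
        intro b hb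
        rcases List.mem_cons.1 hb with rfl | hb
        · exact h'
        · exact h b hb
      · rw [if_neg h', if_neg fun h'' => h' (h'' a List.mem_cons_self)]
    · rw [if_neg h, map_zero, if_neg fun h'' => h fun b hb => h'' b (List.mem_cons_of_mem _ hb)]

/-- an even element which commutes with all vectors is a real scalar -/
theorem center {z : V →L[ℂ] V} (hz : z ∈ W K) (h : ∀ a, K.c a * z = z * K.c a) :
    ∃ s : ℝ, z = s • 1 := by
  have h1 : ∀ w ∈ W K, ∃ s : ℝ, QL K (List.finRange n) w = s • (1 : V →L[ℂ] V) := by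
    intro w hw
    induction hw using Submodule.span_induction with
    | mem x hx =>
      obtain ⟨L, hL, rfl⟩ := hx
      rw [QL_wd K hL]
      split_ifs with h
      · obtain ⟨s, -, hs⟩ := wd_even K _ L rfl fun a => h a (List.mem_finRange a)
        exact ⟨s, by rw [hs, Int.cast_smul_eq_zsmul]⟩
      · exact ⟨0, by rw [zero_smul]⟩
    | zero => exact ⟨0, by rw [map_zero, zero_smul]⟩
    | add y w _ _ h1 h2 =>
      obtain ⟨s, hs⟩ := h1
      obtain ⟨t, ht⟩ := h2
      exact ⟨s + t, by rw [map_add, hs, ht, add_smul]⟩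
    | smul r y _ h =>
      obtain ⟨s, hs⟩ := h
      exact ⟨r * s, by rw [map_smul, hs, smul_smul]⟩
  obtain ⟨s, hs⟩ := h1 z hz
  exact ⟨s, by rw [← hs, QL_comm K h]⟩

end even

end Vale.Agent.P223.H441
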