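import Vale.Agent.P223.H441.Cl
import Vale.Agent.P223.H566.Spec

/-! BLOCK TR. -/

namespace Vale.Agent.P223.H441

open H566

theorem specCl : SpecCl := by
  intro n V _ _ _ K A
  exact tr_vol_prod K A

end Vale.Agent.P223.H441
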