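import Vale.Agent.P223.H441.Conn
import Vale.Agent.P223.H566.OfU
import Vale.Agent.P223.X.MetU
import Vale.Agent.P223.X.Basic

/-! The spinor bundle of a spin structure, in the charts of a covering. -/

namespace Vale.Agent.P223.H441

open Vale.Agent.P223.H566 Vale.Agent.P223.H Vale.Agent.P223.X
open scoped ContDiff Topology Matrix InnerProductSpace

section loc
variable {n : ℕ} {V : Type} [NormedAddCommGroup V] [InnerProductSpace ℂ V] (K : Cliff n V)
  {G₁ G₂ β₁ β₂ : E n → Matrix (Fin n) (Fin n) ℝ} {τ : E n → E n} {y : E n}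

theorem spc_eq (G β : E n → Matrix (Fin n) (Fin n) ℝ) (y : E n) (k : Fin n) :
    spc K G β y k = lam K (H566.om G β y k) := rfl

theorem smooth_Rm (hG₂ : ∀ a b, ContDiff ℝ ∞ fun z => G₂ z a b)
    (s1 : ∀ a k, ContDiff ℝ ∞ fun z => β₁ z a k) (s2 : ∀ a k, ContDiff ℝ ∞ fun z => β₂ z a k)
    (hτ : ContDiffAt ℝ ∞ τ y) (a b : Fin n) :
    ContDiffAt ℝ ∞ (fun z => Rm G₂ β₁ β₂ τ z a b) y := by
  have e : (fun z => Rm G₂ β₁ β₂ τ z a b) = fun z =>
      ∑ m, (∑ l, (∑ r, β₂ (τ z) a r * G₂ (τ z) r l) * jac τ z l m) * β₁ z b m := by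
    funext z
    unfold Rm
    simp only [Matrix.mul_apply, Matrix.transpose_apply]
  rw [e]
  refine ContDiffAt.sum fun m _ => ContDiffAt.mul (ContDiffAt.sum fun l _ => ContDiffAt.mul
    (ContDiffAt.sum fun r _ => ContDiffAt.mul ?_ ?_) ?_) (s1 b m).contDiffAt
  · exact sm_comp (h := fun w => β₂ w a r) hτ (s2 a r).contDiffAt
  · exact sm_comp (h := fun w => G₂ w r l) hτ (hG₂ r l).contDiffAt
  · exact sm_jac hτ l m

theorem conn_local [FiniteDimensional ℂ V] (hG₁ : IsMetricOn Set.univ G₁)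
    (hG₂ : IsMetricOn Set.univ G₂) (hτ : ContDiffAt ℝ ∞ τ y)
    (hc : ∀ᶠ z in 𝓝 y, G₁ z = (jac τ z)ᵀ * G₂ (τ z) * jac τ z)
    (h1 : Fr G₁ β₁) (h2 : Fr G₂ β₂) {s : E n → CliffordAlgebra (J.nq n)}
    (hs : ∀ f : CliffordAlgebra (J.nq n) →ₗ[ℝ] ℝ, ContDiffAt ℝ ∞ (fun z => f (s z)) y)
    (hm : ∀ᶠ z in 𝓝 y, s z ∈ spinGroup (J.nq n))
    (hl : ∀ᶠ z in 𝓝 y, ∀ v, s z * CliffordAlgebra.ι (J.nq n) v =
      CliffordAlgebra.ι (J.nq n) (Rm G₂ β₁ β₂ τ z *ᵥ v) * s z) (k : Fin n) :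
    fderiv ℝ (fun z => rep K (s z)) y (Pi.single k 1) =
      rep K (s y) * spc K G₁ β₁ y k -
        (∑ l, rs (jac τ y l k) (spc K G₂ β₂ (τ y) l)) * rep K (s y) := by
  have p2 : ∀ z, (G₂ z).PosDef := fun z => hG₂.posDef z trivial
  have sR := smooth_Rm (G₂ := G₂) (fun a b => contDiffOn_univ.1 (hG₂.smooth a b)) h1.smooth
    h2.smooth hτ
  have ho : ∀ᶠ z in 𝓝 y, (Rm G₂ β₁ β₂ τ z)ᵀ * Rm G₂ β₁ β₂ τ z = 1 := by
    filter_upwards [hc] with z hz
    exact Rm_orth p2 h1.orth h2.orth hz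
  have hoy := ho.self_of_nhds
  have hoy' : Rm G₂ β₁ β₂ τ y * (Rm G₂ β₁ β₂ τ y)ᵀ = 1 := mul_eq_one_comm.1 hoy
  have e1 := fderiv_lift K hs sR hm ho hl k
  have e2 : H566.om G₁ β₁ y k = fun a b =>
      (∑ d, Rm G₂ β₁ β₂ τ y d a * pd k (fun z => Rm G₂ β₁ β₂ τ z d b) y) +
      ∑ l, jac τ y l k * ∑ d, ∑ c, Rm G₂ β₁ β₂ τ y d a * H566.om G₂ β₂ (τ y) l d c *
        Rm G₂ β₁ β₂ τ y c b := by
    funext a b
    exact om_trans hG₁ hG₂ hτ hc h1.smooth h2.smooth h2.orth _ sR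
      (Rm_mul p2 h2.orth) k a b
  have e4 := lam_sum K Finset.univ fun l a b => jac τ y l k *
    ∑ d, ∑ c, Rm G₂ β₁ β₂ τ y d a * H566.om G₂ β₂ (τ y) l d c * Rm G₂ β₁ β₂ τ y c b
  rw [e1, spc_eq, e2, lam_add, mul_add, e4]
  have e3 : ∑ l, rep K (s y) * lam K (fun a b => jac τ y l k *
      ∑ d, ∑ c, Rm G₂ β₁ β₂ τ y d a * H566.om G₂ β₂ (τ y) l d c * Rm G₂ β₁ β₂ τ y c b) =
      (∑ l, rs (jac τ y l k) (spc K G₂ β₂ (τ y) l)) * rep K (s y) := by
    rw [Finset.sum_mul]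
    refine Finset.sum_congr rfl fun l _ => ?_
    rw [lam_smul, mul_smul_comm, lam_conj K hm.self_of_nhds hoy' hl.self_of_nhds, rs_eq,
      smul_mul_assoc, spc_eq]
  rw [Finset.mul_sum (f := fun l => lam K fun a b => jac τ y l k *
    ∑ d, ∑ c, Rm G₂ β₁ β₂ τ y d a * H566.om G₂ β₂ (τ y) l d c * Rm G₂ β₁ β₂ τ y c b), e3,
    add_sub_cancel_right]

theorem cliff_local (p2 : ∀ z, (G₂ z).PosDef) (h1 : Fr G₁ β₁) (h2 : Fr G₂ β₂)
    (hc : G₁ y = (jac τ y)ᵀ * G₂ (τ y) * jac τ y) {x : CliffordAlgebra (J.nq n)}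
    (hm : x ∈ spinGroup (J.nq n))
    (hl : ∀ v, x * CliffordAlgebra.ι (J.nq n) v =
      CliffordAlgebra.ι (J.nq n) (Rm G₂ β₁ β₂ τ y *ᵥ v) * x) (l : Fin n) :
    rep K x * ∑ k, rs (jac τ y l k) (cl K β₁ y k) = cl K β₂ (τ y) l * rep K x := by
  have ho := Rm_orth' p2 h1.orth h2.orth hc
  have e1 : ∑ k, rs (jac τ y l k) (cl K β₁ y k) =
      ∑ d, β₂ (τ y) d l • ∑ a, Rm G₂ β₁ β₂ τ y d a • K.c a := by
    unfold cl
    simp only [rs_eq, Finset.smul_sum, smul_smul]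
    rw [Finset.sum_comm]
    rw [Finset.sum_comm (γ := Fin n) (f := fun d a => (β₂ (τ y) d l * Rm G₂ β₁ β₂ τ y d a) • K.c a)]
    refine Finset.sum_congr rfl fun a _ => ?_
    rw [← Finset.sum_smul, ← Finset.sum_smul]
    congr 1
    have h := congrFun (congrFun (Rm_mul (β₁ := β₁) (τ := τ) p2 h2.orth y) a) l
    rw [Matrix.mul_apply, Matrix.mul_apply] at h
    simp only [Matrix.transpose_apply] at h
    rw [Finset.sum_congr rfl fun k _ => mul_comm (jac τ y l k) (β₁ y a k), ← h]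
    exact Finset.sum_congr rfl fun d _ => mul_comm _ _
  rw [e1, Finset.mul_sum]
  simp only [mul_smul_comm, U_w K hm ho hl]
  unfold cl
  rw [Finset.sum_mul]
  exact Finset.sum_congr rfl fun d _ => by rw [rs_eq, smul_mul_assoc]

end loc

section glob
variable {n : ℕ} {M X Γ I : Type} [TopologicalSpace M] [TopologicalSpace X]
  [Group Γ] [MulAction Γ X] {c : M → J.Ch n M} {B : Box c I} {C : Cov n M X Γ I}
  {g : M → J.Mtx n}

/-- the frame in the box `i` -/
noncomputable def bfr (S : J.SpinStr c g) (B : Box c I) (i : I) (y : E n) :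
    Matrix (Fin n) (Fin n) ℝ := fun a k => S.β (B.a i) (B.x i y) a k / dth (B.r i) (y k)

/-- the transition function between the boxes `i` and `j` -/
noncomputable def btr (S : J.SpinStr c g) (B : Box c I) (i j : I) (y : E n) :
    CliffordAlgebra (J.nq n) := S.s (B.a i) (B.a j) (B.β i y)

theorem bfr_fr (S : J.SpinStr c g) (i : I) : Fr (B.G g i) (bfr S B i) where
  smooth a k := by
    refine contDiff_iff_contDiffAt.2 fun y => ?_
    have h1 := S.smooth (B.a i) (B.β i y) (BoxB.β_mem B i y) a k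
    rw [BoxB.c_β] at h1
    exact (h1.comp y (BoxB.contDiff_x B i).contDiffAt).div
      ((BoxB.contDiff_dth _).comp (contDiff_apply ℝ ℝ k)).contDiffAt
      (BoxB.dth_pos (B.pos i) _).ne'
  orth y := by
    ext k l
    have h1 := (S.frame (B.a i) (B.β i y) (BoxB.β_mem B i y)).2 k l
    rw [BoxB.c_β] at h1
    rw [Matrix.one_apply, ← h1]
    unfold J.bil
    simp only [Matrix.mul_apply, Matrix.transpose_apply, Finset.sum_mul]
    rw [Finset.sum_comm]
    refine Finset.sum_congr rfl fun p _ => Finset.sum_congr rfl fun q _ => ?_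
    unfold bfr Box.G
    have hp := (BoxB.dth_pos (B.pos i) (y p)).ne'
    have hq := (BoxB.dth_pos (B.pos i) (y q)).ne'
    field_simp
  pos y := by
    have h1 := (S.frame (B.a i) (B.β i y) (BoxB.β_mem B i y)).1
    rw [BoxB.c_β] at h1
    have h2 : bfr S B i y = Matrix.of fun a k => (dth (B.r i) (y k))⁻¹ *
        S.β (B.a i) (B.x i y) a k := by
      ext a k
      unfold bfr
      rw [div_eq_inv_mul]
      rfl
    rw [h2, Matrix.det_mul_row]
    exact mul_pos (Finset.prod_pos fun k _ => inv_pos.2 (BoxB.dth_pos (B.pos i) (y k))) h1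

theorem D_bfr (S : J.SpinStr c g) (i : I) (y v : E n) :
    B.D i y (∑ k, v k • bfr S B i y k) = ∑ k, v k • S.β (B.a i) (B.x i y) k := by
  funext l
  unfold Box.D
  simp only [Finset.sum_apply, Pi.smul_apply, smul_eq_mul, Finset.mul_sum]
  refine Finset.sum_congr rfl fun k _ => ?_
  unfold bfr
  have hp := (BoxB.dth_pos (B.pos i) (y l)).ne'
  field_simp

variable (hc : J.Atl c) (hβ : ∀ i y, C.π (C.ψ i y) = B.β i y) (hg : J.Met c g)
include hc hβ hg

theorem btr_lift (S : J.SpinStr c g) {i j : I} {γ : Γ} {y : E n} (h : y ∈ C.dom i j γ) (v : E n) :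
    btr S B i j y * CliffordAlgebra.ι (J.nq n) v =
      CliffordAlgebra.ι (J.nq n)
        (Rm (B.G g j) (bfr S B i) (bfr S B j) (C.tr i j γ) y *ᵥ v) * btr S B i j y := by
  set w := Rm (B.G g j) (bfr S B i) (bfr S B j) (C.tr i j γ) y *ᵥ v with hw
  refine S.lift (B.a i) (B.a j) (B.β i y) (BoxB.β_mem B i y) (MetU.β_mem_j hβ h) v w ?_
  have h2 : c (B.a j) (B.β i y) = B.x j (C.tr i j γ y) := by
    rw [← MetU.β_tr hβ h, BoxB.c_β]
  unfold J.FrEq
  rw [BoxB.c_β, h2, ← D_bfr, ← D_bfr, ← MetU.D_tr hc hβ h]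
  congr 1
  have hm := MetU.metX hc hβ hg
  funext l
  rw [Bas2.fderiv_eq_mulVec (contDiffAt_tr C h)]
  have h3 : (∑ k, w k • bfr S B j (C.tr i j γ y) k) l =
      ((bfr S B j (C.tr i j γ y))ᵀ *ᵥ w) l := by
    simp only [Finset.sum_apply, Pi.smul_apply, smul_eq_mul, Matrix.mulVec, dotProduct,
      Matrix.transpose_apply]
    exact Finset.sum_congr rfl fun k _ => mul_comm _ _
  have h4 : ∑ b, jac (C.tr i j γ) y l b * (∑ k, v k • bfr S B i y k) b =
      ((jac (C.tr i j γ) y * (bfr S B i y)ᵀ) *ᵥ v) l := by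
    rw [← Matrix.mulVec_mulVec]
    simp only [Matrix.mulVec, dotProduct, Matrix.transpose_apply, Finset.sum_apply, Pi.smul_apply,
      smul_eq_mul]
    exact Finset.sum_congr rfl fun b _ => congrArg _ (Finset.sum_congr rfl fun k _ => mul_comm _ _)
  rw [h3, h4, hw, Matrix.mulVec_mulVec]
  have h5 : (bfr S B j (C.tr i j γ y))ᵀ * Rm (B.G g j) (bfr S B i) (bfr S B j) (C.tr i j γ) y =
      jac (C.tr i j γ) y * (bfr S B i y)ᵀ := by
    unfold Rm
    have h6 := frame_inv' (symm_of_posDef (hm.pos j (C.tr i j γ y)))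
      ((bfr_fr (B := B) S j).orth (C.tr i j γ y))
    simp only [← Matrix.mul_assoc]
    rw [h6, Matrix.one_mul]
  rw [h5]

omit hc hg in
theorem btr_mem (S : J.SpinStr c g) {i j : I} {γ : Γ} {y : E n} (h : y ∈ C.dom i j γ) :
    btr S B i j y ∈ spinGroup (J.nq n) :=
  S.mem (B.a i) (B.a j) (B.β i y) (BoxB.β_mem B i y) (MetU.β_mem_j hβ h)

omit hc hg in
theorem btr_smooth (S : J.SpinStr c g) {i j : I} {γ : Γ} {y : E n} (h : y ∈ C.dom i j γ)
    (f : CliffordAlgebra (J.nq n) →ₗ[ℝ] ℝ) :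
    ContDiffAt ℝ ∞ (fun z => f (btr S B i j z)) y := by
  have h1 := S.smooth' (B.a i) (B.a j) (B.β i y) (BoxB.β_mem B i y) (MetU.β_mem_j hβ h) f
  rw [BoxB.c_β] at h1
  exact h1.comp y (BoxB.contDiff_x B i).contDiffAt

open Classical in
/-- the spinor bundle of a spin structure -/
noncomputable def spU {V : Type} [NormedAddCommGroup V] [InnerProductSpace ℂ V]
    [FiniteDimensional ℂ V] (K : Cliff n V) (S : J.SpinStr c g) : SpU C (B.G g) K where
  met := MetU.metX hc hβ hg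
  β := bfr S B
  fr i := bfr_fr S i
  U i j _ y := rep K (btr S B i j y)
  smooth i j γ y hy := (contDiffAt_rep K (btr_smooth hβ S hy)).contDiffWithinAt
  unit i j γ y hy v w := rep_unit K (btr_mem hβ S hy) v w
  vol i j γ y hy := rep_vol K (spinGroup.mem_even (btr_mem hβ S hy))
  cliff i j γ y hy l := by
    have hm := MetU.metX hc hβ hg
    have h := cliff_local K (G₁ := B.G g i) (G₂ := B.G g j) (β₁ := bfr S B i) (β₂ := bfr S B j)
      (τ := C.tr i j γ) (hm.pos j) (bfr_fr S i) (bfr_fr S j) (Bas2.compat hm hy)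
      (btr_mem hβ S hy) (btr_lift hc hβ hg S hy) l
    have e : ∀ k, Jc C i j γ y l k = jac (C.tr i j γ) y l k := fun k =>
      fderiv_single (contDiffAt_tr C hy) k l
    simp only [e]
    exact h
  conn i j γ y hy k := by
    have hm := MetU.metX hc hβ hg
    have hd : ∀ᶠ z in 𝓝 y, z ∈ C.dom i j γ := (isOpen_dom C i j γ).mem_nhds hy
    have h := conn_local K (G₁ := B.G g i) (G₂ := B.G g j) (β₁ := bfr S B i) (β₂ := bfr S B j)
      (τ := C.tr i j γ) (y := y) (Bas2.metOn hm i) (Bas2.metOn hm j) (contDiffAt_tr C hy)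
      (hd.mono fun z hz => Bas2.compat hm hz) (bfr_fr S i) (bfr_fr S j) (btr_smooth hβ S hy)
      (hd.mono fun z hz => btr_mem hβ S hz) (hd.mono fun z hz => btr_lift hc hβ hg S hz) k
    have e : ∀ l, Jc C i j γ y l k = jac (C.tr i j γ) y l k := fun l =>
      fderiv_single (contDiffAt_tr C hy) k l
    simp only [e]
    exact h
  coc i j k γ γ' y hy hy' := by
    change rep K (btr S B j k (C.tr i j γ y)) * rep K (btr S B i j y) = rep K (btr S B i k y)
    rw [← map_mul]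
    congr 1
    unfold btr
    rw [MetU.β_tr hβ hy]
    refine S.coc (B.a i) (B.a j) (B.a k) (B.β i y) (BoxB.β_mem B i y) (MetU.β_mem_j hβ hy) ?_
    have h := MetU.β_mem_j hβ hy'
    rwa [MetU.β_tr hβ hy] at h
  one i y := by
    have h0 := BoxB.β_mem B i y
    have h1 := S.coc (B.a i) (B.a i) (B.a i) (B.β i y) h0 h0 h0
    have h2 := S.mem (B.a i) (B.a i) (B.β i y) h0 h0
    have h3 : S.s (B.a i) (B.a i) (B.β i y) = 1 := by
      have h4 := congrArg (star (S.s (B.a i) (B.a i) (B.β i y)) * ·) h1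
      simp only [← mul_assoc] at h4
      rwa [spinGroup.star_mul_self_of_mem h2, one_mul] at h4
    change rep K (btr S B i i y) = 1
    unfold btr
    rw [h3, map_one]

end glob

end Vale.Agent.P223.H441
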