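import Vale.Agent.P223.H441.WDef
import Vale.Agent.P223.H441.Fin

/-! Functions on a covering with `-Δ w + (Scal / 4) w ≥ s w`. -/

namespace Vale.Agent.P223.H441

open Vale.Agent.P223.H566 Vale.Agent.P223.H Vale.Agent.P223.X
open scoped ContDiff Topology Matrix

section loc
variable {n : ℕ} {G G' : E n → Matrix (Fin n) (Fin n) ℝ} {φ : E n → E n} {U U' : Set (E n)}
  {x : E n}

theorem hess_comp_loc (hG : IsMetricOn Set.univ G) (hG' : IsMetricOn U' G') (hU' : IsOpen U')
    (hc : Chg U Set.univ U' φ G G') (hx : x ∈ U) {f : E n → ℝ} (hf : ContDiffOn ℝ ∞ f U') :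
    Bridge.hess G (fun y => f (φ y)) x =
      (jac φ x)ᵀ * Bridge.hess G' f (φ x) * jac φ x := by
  have hfd : ∀ z ∈ U', DifferentiableAt ℝ f z := fun z hz =>
    (hf.contDiffAt (hU'.mem_nhds hz)).differentiableAt (by simp)
  have hpd : ∀ e, ∀ z ∈ U', DifferentiableAt ℝ (fun y => H.pd e f y) z := fun e z hz => by
    have h1 : ContDiffAt ℝ ∞ (fun y => fderiv ℝ f y) z :=
      (hf.contDiffAt (hU'.mem_nhds hz)).fderiv_right (m := ∞) (by simp)
    exact (h1.clm_apply contDiffAt_const).differentiableAt (by simp)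
  have hφ := hc.smooth x hx
  have hxU := hc.maps x hx
  have hjd : ∀ e j, DifferentiableAt ℝ (fun y => jac φ y e j) x := fun e j =>
    (sm_jac hφ e j).diff
  have hcd : ∀ e, DifferentiableAt ℝ (fun y => H.pd e f (φ y)) x := fun e =>
    (hpd e _ hxU).comp x (hφ.differentiableAt (by simp))
  ext i j
  have r1 : ((jac φ x)ᵀ * Bridge.hess G' f (φ x) * jac φ x) i j =
      ∑ m, ∑ l, jac φ x l i * Bridge.hess G' f (φ x) l m * jac φ x m j := by
    simp only [Matrix.mul_apply, Matrix.transpose_apply, Finset.sum_mul]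
  rw [r1]
  unfold Bridge.hess
  have e1 : (fun y => H.pd j (fun z => f (φ z)) y) =ᶠ[𝓝 x]
      fun y => ∑ e, H.pd e f (φ y) * jac φ y e j := by
    filter_upwards [hc.isOpen.mem_nhds hx] with y hy
    exact P223.pd_comp (hc.smooth y hy) (hfd _ (hc.maps y hy)) j
  have e2 : H.pd i (fun y => H.pd j (fun z => f (φ z)) y) x =
      ∑ e, ((∑ l, H.pd l (fun z => H.pd e f z) (φ x) * jac φ x l i) * jac φ x e j +
        H.pd e f (φ x) * hes φ x e i j) := by
    have e1' : H.pd i (fun y => H.pd j (fun z => f (φ z)) y) x =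
        H.pd i (fun y => ∑ e, H.pd e f (φ y) * jac φ y e j) x := by
      have := e1.fderiv_eq (𝕜 := ℝ)
      unfold H.pd at this ⊢
      rw [this]
    rw [e1', Bridge.pd_sum fun e _ => (hcd e).fun_mul (hjd e j)]
    refine Finset.sum_congr rfl fun e _ => ?_
    rw [Bridge.pd_mul (hcd e) (hjd e j)]
    congr 1
    congr 1
    exact P223.pd_comp (h := fun z => H.pd e f z) hφ (hpd e _ hxU) i
  have e3 : ∑ k, H.chr G x k i j * H.pd k (fun z => f (φ z)) x =
      ∑ e, H.pd e f (φ x) * ((∑ l, ∑ m, jac φ x l i * jac φ x m j * H.chr G' (φ x) e l m) +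
        hes φ x e i j) := by
    have ct := fun e => christoffel_trans hG (Set.mem_univ x) hG' hU' hxU hφ
      (hc.ev hx) e i j
    calc _ = ∑ k, ∑ e, H.chr G x k i j * (H.pd e f (φ x) * jac φ x e k) := by
          refine Finset.sum_congr rfl fun k _ => ?_
          rw [← Finset.mul_sum]
          congr 1
          exact P223.pd_comp hφ (hfd _ hxU) k
      _ = ∑ e, H.pd e f (φ x) * ∑ k, jac φ x e k * H.chr G x k i j := by
          rw [Finset.sum_comm]
          refine Finset.sum_congr rfl fun e _ => ?_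
          rw [Finset.mul_sum]
          refine Finset.sum_congr rfl fun k _ => by ring
      _ = _ := by
          refine Finset.sum_congr rfl fun e _ => ?_
          rw [show (∑ k, jac φ x e k * H.chr G x k i j) = _ from ct e]; rfl
  rw [e2, e3]
  simp only [Finset.sum_add_distrib, mul_add]
  rw [add_sub_add_right_eq_sub]
  have r2 : ∑ e, H.pd e f (φ x) * ∑ l, ∑ m, jac φ x l i * jac φ x m j * H.chr G' (φ x) e l m =
      ∑ m, ∑ l, jac φ x l i * (∑ k, H.chr G' (φ x) k l m * H.pd k f (φ x)) * jac φ x m j := by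
    calc _ = ∑ e, ∑ m, ∑ l, H.pd e f (φ x) *
            (jac φ x l i * jac φ x m j * H.chr G' (φ x) e l m) := by
          refine Finset.sum_congr rfl fun e _ => ?_
          rw [Finset.sum_comm, Finset.mul_sum]
          refine Finset.sum_congr rfl fun m _ => ?_
          rw [Finset.mul_sum]
      _ = ∑ m, ∑ e, ∑ l, H.pd e f (φ x) *
            (jac φ x l i * jac φ x m j * H.chr G' (φ x) e l m) := Finset.sum_comm
      _ = _ := by
          refine Finset.sum_congr rfl fun m _ => ?_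
          rw [Finset.sum_comm]
          refine Finset.sum_congr rfl fun l _ => ?_
          rw [Finset.mul_sum, Finset.sum_mul]
          refine Finset.sum_congr rfl fun e _ => by ring
  rw [r2, ← Finset.sum_sub_distrib]
  refine Finset.sum_congr rfl fun m _ => ?_
  rw [Finset.sum_mul, ← Finset.sum_sub_distrib]
  refine Finset.sum_congr rfl fun l _ => by ring

theorem lap_comp_loc (hG : IsMetricOn Set.univ G) (hG' : IsMetricOn U' G') (hU' : IsOpen U')
    (hc : Chg U Set.univ U' φ G G') (hx : x ∈ U) (hA : (jac φ x).det ≠ 0)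
    {f : E n → ℝ} (hf : ContDiffOn ℝ ∞ f U') : lap G (fun y => f (φ y)) x = lap G' f (φ x) := by
  have e : ∀ (G : E n → Matrix (Fin n) (Fin n) ℝ) (f : E n → ℝ) (x : E n),
      lap G f x = ((G x)⁻¹ * (Bridge.hess G f x)ᵀ).trace := by
    intro G f x
    simp only [lap, Matrix.trace, Matrix.diag_apply, Matrix.mul_apply, Matrix.transpose_apply]
    rfl
  rw [e, e, hess_comp_loc hG hG' hU' hc hx hf,
    ← Vale.Agent.P223.X.Bas2.Ginv_trans hA (hc.compat x hx)]
  simp only [Matrix.transpose_mul, Matrix.transpose_transpose]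
  have : (G x)⁻¹ * ((jac φ x)ᵀ * ((Bridge.hess G' f (φ x))ᵀ * jac φ x)) =
      ((G x)⁻¹ * (jac φ x)ᵀ * (Bridge.hess G' f (φ x))ᵀ) * jac φ x := by
    simp only [Matrix.mul_assoc]
  rw [this, Matrix.trace_mul_comm]
  simp only [Matrix.mul_assoc]

end loc

section cov
variable {n : ℕ} {M X X' Γ I : Type} [TopologicalSpace M] [TopologicalSpace X]
  [TopologicalSpace X'] [Group Γ] [MulAction Γ X] {c : M → J.Ch n M} {B : Box c I}
  {Cv : Cov n M X Γ I} {g : M → J.Mtx n} {f : X' → M} {c' : X' → J.Ch n X'}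
  (hc : J.Atl c) (hβ : ∀ i y, Cv.π (Cv.ψ i y) = B.β i y) (hf : J.CovAtl c f c') (hg : J.Met c g)
  (F : C(X, X')) (hF : ∀ x, f (F x) = Cv.π x)

include hf hg in
theorem metOn_cov (q : X') : IsMetricOn (c' q).target (g (f q)) := by
  have key : ∀ x ∈ (c' q).target, ∃ p, p ∈ (c (f q)).source ∧ c (f q) p = x := by
    intro x hx
    have h1 := (c' q).map_target hx
    obtain ⟨h2, h3⟩ := hf.eq q _ h1
    exact ⟨_, h2, by rw [← h3, (c' q).right_inv hx]⟩
  refine ⟨fun a b x hx => ?_, fun x hx => ?_⟩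
  · obtain ⟨p, hp, rfl⟩ := key x hx
    exact ((hg (f q) p hp).1 a b).contDiffWithinAt
  · obtain ⟨p, hp, rfl⟩ := key x hx
    exact (hg (f q) p hp).2.1

/-- the set of the points of the box in the chart at `q` -/
def Uq (F : C(X, X')) (Cv : Cov n M X Γ I) (c' : X' → J.Ch n X') (q : X') (a : Γ × I) :
    Set (E n) := {z | PP F Cv a z ∈ (c' q).source}

include hc hβ hf hg hF in
theorem chg_cov (q : X') (a : Γ × I) : Chg (Uq F Cv c' q a) Set.univ (c' q).target
    (ta B a.2 (f q)) (B.G g a.2) (g (f q)) where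
  isOpen := (c' q).open_source.preimage (cont_PP F a)
  sub := Set.subset_univ _
  maps := fun z hz => by
    obtain ⟨-, h2⟩ := mem_ta hf hz (f_PP hβ F hF a z)
    rw [← h2]
    exact (c' q).map_source hz
  smooth := fun z hz => contDiffAt_ta hc (mem_ta hf hz (f_PP hβ F hF a z)).1
  compat := fun z hz => G_ta hc hg (mem_ta hf hz (f_PP hβ F hF a z)).1

include hβ hf hF in
theorem rep_cov {w : X' → ℝ} (q : X') (a : Γ × I) {z : E n} (hz : z ∈ Uq F Cv c' q a) :
    Cv.rep (fun x => w (F x)) a.1 a.2 z =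
      (fun x => w ((c' q).symm x)) (ta B a.2 (f q) z) := by
  obtain ⟨-, h2⟩ := mem_ta hf hz (f_PP hβ F hF a z)
  change w (PP F Cv a z) = w ((c' q).symm (ta B a.2 (f q) z))
  rw [← h2, (c' q).left_inv hz]

include hc hβ hf hg hF in
theorem gst_cov [CompactSpace M] [T2Space M] [SimplyConnectedSpace X] [T2Space X] {s C : ℝ}
    {w : X' → ℝ} (hsc : ∀ i y, H.scal (B.G g i) y =
      J.scal (g (Cv.π (Cv.ψ i y))) (c (Cv.π (Cv.ψ i y)) (Cv.π (Cv.ψ i y))))
    (hw : J.PosW c' (fun q => g (f q)) s C w) : Gst Cv (B.G g) s (fun x => w (F x)) := by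
  have hm := MetU.metX hc hβ hg
  have hev : ∀ (a : Γ × I) (y : E n), Cv.rep (fun x => w (F x)) a.1 a.2 =ᶠ[𝓝 y]
      fun z => (fun x => w ((c' (PP F Cv a y)).symm x)) (ta B a.2 (f (PP F Cv a y)) z) := by
    intro a y
    filter_upwards [(chg_cov hc hβ hf hg F hF (PP F Cv a y) a).isOpen.mem_nhds
      (hf.mem (PP F Cv a y))] with z hz
    exact rep_cov hβ hf F hF _ a hz
  have hta : ∀ (a : Γ × I) (y : E n), ta B a.2 (f (PP F Cv a y)) y =
      c' (PP F Cv a y) (PP F Cv a y) := fun a y =>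
    (mem_ta hf (hf.mem (PP F Cv a y)) (f_PP hβ F hF a y)).2.symm
  have hyU : ∀ (a : Γ × I) (y : E n), y ∈ Uq F Cv c' (PP F Cv a y) a := fun a y => hf.mem _
  have hjd : ∀ (a : Γ × I) (y : E n), (jac (ta B a.2 (f (PP F Cv a y))) y).det ≠ 0 := fun a y =>
    (det_ta hc (mem_ta hf (hf.mem (PP F Cv a y)) (f_PP hβ F hF a y)).1).ne'
  have hgr : ∀ (a : Γ × I) (y : E n), gradSq (B.G g a.2) (Cv.rep (fun x => w (F x)) a.1 a.2) y =
      J.gsq (g (f (PP F Cv a y))) (fun x => w ((c' (PP F Cv a y)).symm x))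
        (c' (PP F Cv a y) (PP F Cv a y)) := by
    intro a y
    have h1 := chg_cov hc hβ hf hg F hF (PP F Cv a y) a
    rw [Bas2.gradSq_congr (hev a y)]
    refine (Bas2.gradSq_comp (h1.smooth y (hyU a y)) (hjd a y)
      (h1.compat y (hyU a y)) (((hw.1 (PP F Cv a y)).contDiffAt ((c' _).open_target.mem_nhds
        (h1.maps y (hyU a y)))).differentiableAt (by simp))).trans ?_
    rw [hta]
    rfl
  have hlp : ∀ (a : Γ × I) (y : E n), lap (B.G g a.2) (Cv.rep (fun x => w (F x)) a.1 a.2) y =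
      J.lapl (g (f (PP F Cv a y))) (fun x => w ((c' (PP F Cv a y)).symm x))
        (c' (PP F Cv a y) (PP F Cv a y)) := by
    intro a y
    have h1 := chg_cov hc hβ hf hg F hF (PP F Cv a y) a
    rw [Bas2.lap_congr (hev a y)]
    refine (lap_comp_loc (Bas2.metOn hm a.2)
      (metOn_cov hf hg (PP F Cv a y)) (c' _).open_target h1 (hyU a y) (hjd a y)
      (hw.1 (PP F Cv a y))).trans ?_
    rw [hta]
    rfl
  refine ⟨fun γ i => ?_, fun x => (hw.2 _).1, ⟨C, fun x => ?_⟩, fun γ i y => ?_⟩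
  · rw [contDiff_iff_contDiffAt]
    intro y
    have h1 := chg_cov hc hβ hf hg F hF (PP F Cv (γ, i) y) (γ, i)
    refine ContDiffAt.congr_of_eventuallyEq ?_ (hev (γ, i) y)
    exact ((hw.1 (PP F Cv (γ, i) y)).contDiffAt ((c' _).open_target.mem_nhds
        (h1.maps y (hyU (γ, i) y)))).comp y (h1.smooth y (hyU (γ, i) y))
  · obtain ⟨a, y, rfl⟩ := pt_cover (C := Cv) x
    unfold pt
    rw [Bas2.gsX_eq hm, hgr a y]
    exact (hw.2 (PP F Cv a y)).2.1
  · rw [hlp (γ, i) y, hsc i y]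
    have h2 := (hw.2 (PP F Cv (γ, i) y)).2.2
    unfold J.opw at h2
    have h3 : f (PP F Cv (γ, i) y) = Cv.π (Cv.ψ i y) := by
      unfold PP
      rw [hF]
      unfold pt
      rw [MetU.π_smul]
    obtain ⟨-, h4⟩ := hf.eq (PP F Cv (γ, i) y) _ (hf.mem _)
    have h5 : c (Cv.π (Cv.ψ i y)) (Cv.π (Cv.ψ i y)) =
        c' (PP F Cv (γ, i) y) (PP F Cv (γ, i) y) := by
      rw [h4, h3]
    rw [h5]
    dsimp only at h2
    rw [h3] at h2 ⊢
    exact h2

end cov

/-- coverings with a function `w` -/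
theorem sv_zero_of_covPos (hp : SpecPair) {n : ℕ} (hn : 1 ≤ n) {M : Type} [TopologicalSpace M]
    [CompactSpace M] [T2Space M] [ConnectedSpace M] {c : M → J.Ch n M} (hc : J.Atl c)
    {g₀ : M → J.Mtx n} (hg₀ : J.Met c g₀) (hS : J.CovSpin c g₀)
    {g : M → J.Mtx n} (hg : J.Met c g) (h : J.CovPos c g) : J.sv c = 0 := by
  have hu := Vale.Agent.P223.X.hu
  obtain ⟨X', _, f, c', w, s, C, hf, hs, hw⟩ := h
  obtain ⟨d⟩ := FinalM.exists_data hu hn c hc
  obtain ⟨F, hF⟩ := exists_lift d.C hf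
  have hm := (hu.met n M d.X d.Γ d.I c d.B d.C hc d.hCB).1 g hg
  refine sv_zero_of_gst hp hn hc hg₀ hS d hm hs (gst_cov hc d.hCB hf hg F hF (fun i y => ?_) hw)
  rw [← Final.scM_eq hm i y, FinalM.scM_eq hu hc d hg]

end Vale.Agent.P223.H441
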