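import Vale.Agent.P223.H66.YDef

/-! Definitions for the statements: the operator `-Δ + Scal / 4` on coverings. -/

namespace Vale.Agent.P223.J

open scoped ContDiff

/-- The Laplacian of `u` (the trace of the Hessian). -/
noncomputable def lapl {n : ℕ} (G : Mtx n) (u : E n → ℝ) (x : E n) : ℝ :=
  ∑ i, ∑ j, (G x)⁻¹ i j * (pd i (fun z => pd j u z) x - ∑ k, chr G x k i j * pd k u x)

/-- `-Δ w + (Scal / 4) w` at the point `q` of the Riemannian manifold `(X, g)`. -/
noncomputable def opw {n : ℕ} {X : Type} [TopologicalSpace X] (c : X → Ch n X) (g : X → Mtx n)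
    (w : X → ℝ) (q : X) : ℝ :=
  -lapl (g q) (fun x => w ((c q).symm x)) (c q q) + scal (g q) (c q q) / 4 * w q

/-- `w` is a smooth positive function on the Riemannian manifold `(X, g)`, `|dw| ≤ C w` and
`-Δ w + (Scal / 4) w ≥ s w`. -/
def PosW {n : ℕ} {X : Type} [TopologicalSpace X] (c : X → Ch n X) (g : X → Mtx n) (s C : ℝ)
    (w : X → ℝ) : Prop :=
  Sm c w ∧ ∀ q, 0 < w q ∧ gsq (g q) (fun x => w ((c q).symm x)) (c q q) ≤ (C * w q) ^ 2 ∧
    s * w q ≤ opw c g w q

/-- Some covering space of `(M, g)` carries a smooth positive function `w` with `|dw| ≤ C w` and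
`-Δ w + (Scal / 4) w ≥ s w`, `s > 0`. -/
def CovPos {n : ℕ} {M : Type} [TopologicalSpace M] (c : M → Ch n M) (g : M → Mtx n) : Prop :=
  ∃ (X : Type) (_ : TopologicalSpace X) (f : X → M) (c' : X → Ch n X) (w : X → ℝ) (s C : ℝ),
    CovAtl c f c' ∧ 0 < s ∧ PosW c' (fun q => g (f q)) s C w

end Vale.Agent.P223.J
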