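import Vale.Agent.P223.H441.WCov
import Vale.Agent.P223.H566.All

/-! Coverings with a positive supersolution. -/

namespace Vale.Agent.P223.H441

open Vale.Agent.P223.X

/-- Clause (W): if `M` has a spin covering and `(M, g)` has a covering which carries a smooth
positive function `w` with `|dw| ≤ C w` and `-Δ w + (Scal / 4) w ≥ s w`, `s > 0`, then
`‖M‖ = 0`. -/
theorem wvan {n : ℕ} (hn : 1 ≤ n) {M : Type} [TopologicalSpace M]
    [CompactSpace M] [T2Space M] [ConnectedSpace M] {c : M → J.Ch n M} (hc : J.Atl c)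
    {g : M → J.Mtx n} (hg : J.Met c g) (hS : ∃ g₀, J.Met c g₀ ∧ J.CovSpin c g₀)
    (h : J.CovPos c g) : J.sv c = 0 := by
  obtain ⟨g₀, hg₀, hS⟩ := hS
  exact sv_zero_of_covPos H566.specPair hn hc hg₀ hS hg h

end Vale.Agent.P223.H441
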