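import Vale.Agent.P223.H441.XSp

/-! Lifts of a spin structure to boxes. -/

namespace Vale.Agent.P223.H441

open Vale.Agent.P223.H566 Vale.Agent.P223.H Vale.Agent.P223.X
open scoped ContDiff Topology Matrix InnerProductSpace

section box
variable {n : ℕ} {M X' I : Type} [TopologicalSpace M]
  [TopologicalSpace X'] {c : M → J.Ch n M} {B : Box c I}
  {g : M → J.Mtx n} {f : X' → M} {c' : X' → J.Ch n X'}
  {V : Type} [NormedAddCommGroup V] [InnerProductSpace ℂ V] {K : Cliff n V}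
  (hc : J.Atl c) (hf : J.CovAtl c f c') (hg : J.Met c g) (S : J.SpinStr c' fun q => g (f q))
  {β : I → E n → Matrix (Fin n) (Fin n) ℝ} (hfr : ∀ i, Fr (B.G g i) (β i))
  {i : I} {P : E n → X'} (hP : Continuous P) (hfP : ∀ y, f (P y) = B.β i y)
  [FiniteDimensional ℂ V]

include hc hf hP hfP in
theorem smooth_rs' {q q' : X'} {y : E n} (h : P y ∈ (c' q).source) (h' : P y ∈ (c' q').source) :
    ContDiffAt ℝ ∞ (fun z => rs' K S q q' (P z)) y := by
  refine contDiffAt_rep K fun φ => ?_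
  obtain ⟨h1, h2⟩ := mem_ta hf h (hfP y)
  have h3 := S.smooth' q q' (P y) h h' φ
  rw [h2] at h3
  have h4 := h3.comp y (contDiffAt_ta hc h1)
  refine h4.congr_of_eventuallyEq ?_
  have h5 : ∀ᶠ z in 𝓝 y, P z ∈ (c' q).source :=
    hP.continuousAt.eventually_mem ((c' q).open_source.mem_nhds h)
  filter_upwards [h5] with z hz
  have h6 := (mem_ta hf hz (hfP z)).2
  simp only [Function.comp_apply]
  rw [← h6, (c' q).left_inv hz]

variable [CompleteSpace V] [Nontrivial V]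

include hc hf hg hfr hP hfP in
theorem box_local (y₀ : E n) : ∃ (N : Set (E n)) (r : E n → V →L[ℂ] V), IsOpen N ∧ y₀ ∈ N ∧
    ∀ z ∈ N, P z ∈ (c' (P y₀)).source ∧ Lf K (RR S B β i (P y₀) z) (r z) ∧ ContDiffAt ℝ ∞ r z := by
  have h0 : P y₀ ∈ (c' (P y₀)).source := hf.mem _
  have h5 : ∀ᶠ z in 𝓝 y₀, P z ∈ (c' (P y₀)).source :=
    hP.continuousAt.eventually_mem ((c' (P y₀)).open_source.mem_nhds h0)
  obtain ⟨u, hu⟩ := Lf.exists (K := K) (RR_orth hc hf hg S hfr h0 (hfP y₀))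
    (RR_det hc hf hg S hfr h0 (hfP y₀))
  obtain ⟨r, hr⟩ := Lf_local K (R := RR S B β i (P y₀)) (y₀ := y₀) (by
      filter_upwards [h5] with z hz
      exact RR_smooth hc hf hg S hfr hz (hfP z)) (by
      filter_upwards [h5] with z hz
      exact RR_orth hc hf hg S hfr hz (hfP z)) hu
  obtain ⟨N, hN, hNo, hyN⟩ := mem_nhds_iff.1 (h5.and hr)
  exact ⟨N, r, hNo, hyN, fun z hz => ⟨(hN hz).1, (hN hz).2⟩⟩

include hc hf hg hfr hP hfP in
/-- lifts on a box -/
theorem box_triv : ∃ u : X' → E n → V →L[ℂ] V,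
    (∀ q y, P y ∈ (c' q).source → Lf K (RR S B β i q y) (u q y) ∧ ContDiffAt ℝ ∞ (u q) y) ∧
    ∀ q q' y, P y ∈ (c' q).source → P y ∈ (c' q').source →
      u q' y = rs' K S q q' (P y) * u q y := by
  choose N r hN hyN hr using box_local (K := K) hc hf hg S hfr hP hfP
  -- signs
  have hσ : ∀ a b : E n, ∀ z ∈ N a ∩ N b, ∃ ε : ℤˣ,
      r b z = (ε : ℤ) • (rs' K S (P a) (P b) (P z) * r a z) := by
    intro a b z hz
    obtain ⟨h1, h2, -⟩ := hr a z hz.1
    obtain ⟨h3, h4, -⟩ := hr b z hz.2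
    exact (Lf_s hc hf hg S h1 h3 (hfP z) h2).uniq h4
      (mul_eq_one_comm.1 (RR_orth hc hf hg S hfr h3 (hfP z)))
  classical
  let σ : E n → E n → E n → ℤˣ := fun a b z =>
    if h : z ∈ N a ∩ N b then (hσ a b z h).choose else 1
  have hσ' : ∀ a b : E n, ∀ z ∈ N a ∩ N b,
      r b z = (σ a b z : ℤ) • (rs' K S (P a) (P b) (P z) * r a z) := by
    intro a b z hz
    have h1 : σ a b z = (hσ a b z hz).choose := dif_pos hz
    rw [h1]
    exact (hσ a b z hz).choose_spec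
  obtain ⟨ε, h1, h2⟩ := coc_triv N hN (fun y => ⟨y, hyN y⟩) σ (fun a b z hz => by
      refine cont_sign (A := fun z => rs' K S (P a) (P b) (P z) * r a z) (B := r b) ?_ ?_
        (hσ' a b) hz ?_
      · obtain ⟨k1, -, k2⟩ := hr a z hz.1
        obtain ⟨k3, -, k4⟩ := hr b z hz.2
        exact ((smooth_rs' hc hf S hP hfP k1 k3).mul k2).continuousAt.continuousWithinAt
      · exact (hr b z hz.2).2.2.continuousAt.continuousWithinAt
      · obtain ⟨k1, k2, -⟩ := hr a z hz.1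
        obtain ⟨k3, -, -⟩ := hr b z hz.2
        exact (Lf_s hc hf hg S k1 k3 (hfP z) k2).ne_zero) (fun a b d z ha hb hd => by
      have e1 := hσ' a b z ⟨ha, hb⟩
      have e2 := hσ' b d z ⟨hb, hd⟩
      have e3 := hσ' a d z ⟨ha, hd⟩
      rw [e1, mul_smul_comm, ← mul_assoc, rs'_coc S (hr d z hd).1 (hr a z ha).1 (hr b z hb).1,
        zs_zs, e3] at e2
      refine (zs_eq ?_ e2).symm
      exact (Lf_s hc hf hg S (hr a z ha).1 (hr d z hd).1 (hfP z) (hr a z ha).2.1).ne_zero)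
  set u : X' → E n → V →L[ℂ] V := fun q z =>
    (ε z z : ℤ) • (rs' K S (P z) q (P z) * r z z) with hu
  -- independence of the base point
  have key : ∀ a q z, z ∈ N a → P z ∈ (c' q).source →
      u q z = (ε a z : ℤ) • (rs' K S (P a) q (P z) * r a z) := by
    intro a q z ha hq
    have e1 := h2 a z z ha (hyN z)
    have e2 := hσ' a z z ⟨ha, hyN z⟩
    rw [hu]
    dsimp only
    rw [e1, e2, mul_smul_comm, zs_zs, ← mul_assoc, rs'_coc S hq (hr a z ha).1 (hf.mem _)]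
    congr 2
    calc σ a z z * ε a z * σ a z z = (σ a z z * σ a z z) * ε a z := by
          simp only [mul_comm, mul_left_comm]
      _ = ε a z := by rw [Int.units_mul_self, one_mul]
  refine ⟨u, fun q y hq => ⟨?_, ?_⟩, fun q q' y hq hq' => ?_⟩
  · exact (Lf_s hc hf hg S (hf.mem _) hq (hfP y) (hr y y (hyN y)).2.1).sgn _
  · have h3 : ∀ᶠ z in 𝓝 y, z ∈ N y := (hN y).mem_nhds (hyN y)
    have h4 : ∀ᶠ z in 𝓝 y, P z ∈ (c' q).source :=
      hP.continuousAt.eventually_mem ((c' q).open_source.mem_nhds hq)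
    have h5 : ∀ᶠ z in 𝓝 y, ε y z = ε y y := by
      have := ((h1 y).continuousAt ((hN y).mem_nhds (hyN y)))
      exact this.eventually_mem (isOpen_discrete {ε y y} |>.mem_nhds rfl)
    have h6 : u q =ᶠ[𝓝 y] fun z => (ε y y : ℤ) • (rs' K S (P y) q (P z) * r y z) := by
      filter_upwards [h3, h4, h5] with z hz1 hz2 hz3
      rw [key y q z hz1 hz2, hz3]
    refine ContDiffAt.congr_of_eventuallyEq ?_ h6
    exact ((smooth_rs' hc hf S hP hfP (hf.mem _) hq).mul (hr y y (hyN y)).2.2).const_smul _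
  · rw [hu]
    dsimp only
    rw [mul_smul_comm, ← mul_assoc, rs'_coc S hq' (hf.mem _) hq]

end box

end Vale.Agent.P223.H441
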